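import Crest.Agent.S0066.Defs

/-!
# S0066 (row 47): cardinalities of the index types (module [CARD], helper2)
-/

set_option autoImplicit false

namespace Crest.Agent.S0066

namespace Card

/-- flavors as a sum type. -/
def flavorEquiv (h : ℕ) : Flavor h ≃ (Fin h × Bool) ⊕ (Fin h × Bool) ⊕ Unit ⊕ Unit where
  toFun := fun f => match f with
    | .hor t b => .inl (t, b)
    | .ver t b => .inr (.inl (t, b))
    | .botI => .inr (.inr (.inl ()))
    | .botII => .inr (.inr (.inr ()))
  invFun := fun s => match s with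
    | .inl (t, b) => .hor t b
    | .inr (.inl (t, b)) => .ver t b
    | .inr (.inr (.inl _)) => .botI
    | .inr (.inr (.inr _)) => .botII
  left_inv := by intro f; cases f <;> rfl
  right_inv := by rintro (⟨t, b⟩ | ⟨t, b⟩ | _ | _) <;> rfl

/-- thick row classes as a sum type. -/
def thREquiv (h : ℕ) : ThR h ≃ (Flavor h × Fin 3 × Fin 21) ⊕ Unit ⊕ Unit where
  toFun := fun κ => match κ with
    | .gen f X k => .inl (f, X, k)
    | .dt => .inr (.inl ())
    | .db => .inr (.inr ())
  invFun := fun s => match s with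
    | .inl (f, X, k) => .gen f X k
    | .inr (.inl _) => .dt
    | .inr (.inr _) => .db
  left_inv := by intro κ; cases κ <;> rfl
  right_inv := by rintro (⟨f, X, k⟩ | _ | _) <;> rfl

/-- thick column classes as a sum type. -/
def thCEquiv (h : ℕ) : ThC h ≃ (Flavor h × Fin 3 × Fin 21) ⊕ Fin 6 where
  toFun := fun κ => match κ with
    | .gen f Y k => .inl (f, Y, k)
    | .dl => .inr 0
    | .tl => .inr 1
    | .tr => .inr 2
    | .zb => .inr 3
    | .wb => .inr 4
    | .dr => .inr 5
  invFun := fun s => match s with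
    | .inl (f, Y, k) => .gen f Y k
    | .inr 0 => .dl
    | .inr 1 => .tl
    | .inr 2 => .tr
    | .inr 3 => .zb
    | .inr 4 => .wb
    | .inr 5 => .dr
  left_inv := by intro κ; cases κ <;> rfl
  right_inv := by
    rintro (⟨f, Y, k⟩ | i)
    · rfl
    · fin_cases i <;> rfl

/-- rows as a sum type. -/
def rowEquiv (h : ℕ) : Row h ≃ (ThR h × Fin (2 ^ h)) ⊕ (Fin (h + 1) × Bool × Fin (2 ^ h)) where
  toFun := fun r => match r with
    | .thick κ j => .inl (κ, j)
    | .spec t s x => .inr (t, s, x)
  invFun := fun s => match s with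
    | .inl (κ, j) => .thick κ j
    | .inr (t, s, x) => .spec t s x
  left_inv := by intro r; cases r <;> rfl
  right_inv := by rintro (⟨κ, j⟩ | ⟨t, s, x⟩) <;> rfl

/-- columns as a sum type. -/
def colEquiv (h : ℕ) :
    Col h ≃ (ThC h × Fin (2 ^ h)) ⊕ (Fin h × Bool × Fin (2 ^ h)) ⊕ Fin (2 ^ h) where
  toFun := fun c => match c with
    | .thick κ j => .inl (κ, j)
    | .spec t s x => .inr (.inl (t, s, x))
    | .piv x => .inr (.inr x)
  invFun := fun s => match s with
    | .inl (κ, j) => .thick κ j
    | .inr (.inl (t, s, x)) => .spec t s x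
    | .inr (.inr x) => .piv x
  left_inv := by intro c; cases c <;> rfl
  right_inv := by rintro (⟨κ, j⟩ | ⟨t, s, x⟩ | x) <;> rfl

end Card

theorem card_Flavor (h : ℕ) : Fintype.card (Flavor h) = 4 * h + 2 := by
  rw [Fintype.card_congr (Card.flavorEquiv h)]
  simp only [Fintype.card_sum, Fintype.card_prod, Fintype.card_fin, Fintype.card_bool,
    Fintype.card_unit]
  omega

theorem card_ThR (h : ℕ) : Fintype.card (ThR h) = 252 * h + 128 := by
  rw [Fintype.card_congr (Card.thREquiv h)]
  simp only [Fintype.card_sum, Fintype.card_prod, Fintype.card_fin, Fintype.card_unit,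
    card_Flavor]
  omega

theorem card_ThC (h : ℕ) : Fintype.card (ThC h) = 252 * h + 132 := by
  rw [Fintype.card_congr (Card.thCEquiv h)]
  simp only [Fintype.card_sum, Fintype.card_prod, Fintype.card_fin, card_Flavor]
  omega

/-- JOB [CARD]: the number of rows. -/
theorem card_Row (h : ℕ) : Fintype.card (Row h) = (254 * h + 130) * 2 ^ h := by
  rw [Fintype.card_congr (Card.rowEquiv h)]
  simp only [Fintype.card_sum, Fintype.card_prod, Fintype.card_fin, Fintype.card_bool, card_ThR]
  ring

/-- JOB [CARD]: the number of columns. -/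
theorem card_Col (h : ℕ) : Fintype.card (Col h) = (254 * h + 133) * 2 ^ h := by
  rw [Fintype.card_congr (Card.colEquiv h)]
  simp only [Fintype.card_sum, Fintype.card_prod, Fintype.card_fin, Fintype.card_bool, card_ThC]
  ring

theorem card_Row_le {h : ℕ} (hh : 1 ≤ h) : Fintype.card (Row h) ≤ (386 * h + 2) * 2 ^ h := by
  rw [card_Row]
  exact Nat.mul_le_mul_right _ (by omega)

theorem card_Col_le {h : ℕ} (hh : 1 ≤ h) : Fintype.card (Col h) ≤ (386 * h + 2) * 2 ^ h := by
  rw [card_Col]
  exact Nat.mul_le_mul_right _ (by omega)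

end Crest.Agent.S0066
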