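import Crest.Agent.S0066.MLemmas

/-!
# S0066 (row 47): the pattern `U3 = [[1,1,0],[1,1,1],[0,1,0]]` does not occur (as an ordered
submatrix) in the non-generic block of the host `M`.

Proof.  Two thick non-generic rows are equal on the non-generic block, and a thick row and a
special row disagree on `DL`/`DR`; this and the row order force all three rows to be special.
Then no column is `DL`/`DR` (the outer ones because the third row has a `0` there, the middle one
by the column order).  On special rows a column is determined by its *code*
(`WB ↦ 0`, `C(t,·,·) ↦ t+1`, `TL,TR ↦ h+1`), and a special row of level `t` only sees codes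
`t` and `t+1`; so two of the three columns (all seen by the middle row) are equal on special
rows, contradicting the pattern.
-/

set_option autoImplicit false

namespace Crest.Agent.S0066

namespace NoU3

variable {h : ℕ}

/-! ### zones -/

/-- first key coordinate of a row. -/
def rzone : Row h → ℕ
  | .thick (.gen _ _ _) _ => 0
  | .thick .dt _ => 1
  | .spec _ _ _ => 2
  | .thick .db _ => 3

/-- first key coordinate of a column. -/
def czone : Col h → ℕ
  | .thick (.gen _ _ _) _ => 0
  | .thick .dl _ => 1
  | .thick .tl _ => 2
  | .spec _ _ _ => 3
  | .piv _ => 3
  | .thick .tr _ => 4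
  | .thick .zb _ => 5
  | .thick .wb _ => 6
  | .thick .dr _ => 7

theorem rkey_zone (r : Row h) : ∃ b c d e, r.key = mkKey (rzone r) b c d e := by
  cases r with
  | thick κ j => cases κ <;> exact ⟨_, _, _, _, rfl⟩
  | spec t s x =>
    cases s
    · exact ⟨nstop t.val x.val, 2, t.val, x.val, by simp [Row.key, specKey, rzone]⟩
    · exact ⟨nstart t.val x.val, 0, h - t.val, x.val, by simp [Row.key, specKey, rzone]⟩

theorem ckey_zone (c : Col h) : ∃ b c' d e, c.key = mkKey (czone c) b c' d e := by
  cases c with
  | thick κ j => cases κ <;> exact ⟨_, _, _, _, rfl⟩
  | spec t s x =>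
    cases s
    · exact ⟨nstop t.val x.val, 2, t.val, x.val, by simp [Col.key, specKey, czone]⟩
    · exact ⟨nstart t.val x.val, 0, h - t.val, x.val, by simp [Col.key, specKey, czone]⟩
  | piv x => exact ⟨_, _, _, _, rfl⟩

theorem rzone_le {r r' : Row h} (hlt : r < r') : rzone r ≤ rzone r' := by
  obtain ⟨b, c, d, e, hk⟩ := rkey_zone r
  obtain ⟨b', c', d', e', hk'⟩ := rkey_zone r'
  rw [Row.lt_iff, hk, hk', mkKey_lt_iff] at hlt
  omega

theorem czone_le {c c' : Col h} (hlt : c < c') : czone c ≤ czone c' := by
  obtain ⟨b, c1, d, e, hk⟩ := ckey_zone c
  obtain ⟨b', c1', d', e', hk'⟩ := ckey_zone c'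
  rw [Col.lt_iff, hk, hk', mkKey_lt_iff] at hlt
  omega

/-! ### thick rows and the columns `DL`, `DR` -/

/-- the column is a twin of `DL` or `DR`. -/
def isD : Col h → Bool
  | .thick .dl _ => true
  | .thick .dr _ => true
  | _ => false

theorem Mng_thick (κ : ThR h) (j : Fin (2 ^ h)) (c : Col h) : Mng (Row.thick κ j) c = !isD c := by
  cases c with
  | thick κc jc => cases κc <;> rfl
  | spec t s x => rfl
  | piv x => rfl

theorem Mng_spec_of_isD (t : Fin (h + 1)) (s : Bool) (x : Fin (2 ^ h)) {c : Col h}
    (hc : isD c = true) : Mng (Row.spec t s x) c = true := by
  cases c with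
  | thick κc jc => cases κc <;> first | rfl | simp [isD] at hc
  | spec t s x => simp [isD] at hc
  | piv x => simp [isD] at hc

/-! ### codes -/

/-- the code of a column: what a special row needs to know about it. -/
def code : Col h → ℕ
  | .thick .wb _ => 0
  | .spec t _ _ => t.val + 1
  | .thick .tl _ => h + 1
  | .thick .tr _ => h + 1
  | _ => h + 2

/-- a special row of level `t` sees (outside `DL`, `DR`) only columns of code `t` or `t + 1`. -/
theorem code_of_seen (t : Fin (h + 1)) (s : Bool) (x : Fin (2 ^ h)) {c : Col h}
    (hD : isD c = false) (hsee : Mng (Row.spec t s x) c = true) :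
    code c = t.val ∨ code c = t.val + 1 := by
  cases c with
  | thick κc jc =>
    cases κc with
    | gen f Y k => simp [Mng] at hsee
    | dl => simp [isD] at hD
    | tl => simp [Mng] at hsee; simp [code]; omega
    | tr => simp [Mng] at hsee; simp [code]; omega
    | zb => simp [Mng] at hsee
    | wb =>
      have h0 : t.val = 0 := by simpa [Mng] using hsee
      simp only [code]; omega
    | dr => simp [isD] at hD
  | spec t' s' c' =>
    simp only [code]
    by_cases h1 : t'.val = t.val
    · right; omega
    · by_cases h2 : t'.val + 1 = t.val
      · left; omega
      · simp [Mng, h1, h2] at hsee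
  | piv c' => simp [Mng] at hsee

/-- entries of a special row on a special column. -/
theorem Mng_spec_spec (t : Fin (h + 1)) (s : Bool) (x : Fin (2 ^ h)) (t' : Fin h) (s' : Bool)
    (c : Fin (2 ^ h)) :
    Mng (Row.spec t s x) (Col.spec t' s' c) =
      decide ((t'.val = t.val ∨ t'.val + 1 = t.val) ∧ sim t'.val x.val c.val) := by
  by_cases h1 : t'.val = t.val
  · simp [Mng, h1]
  · by_cases h2 : t'.val + 1 = t.val
    · simp [Mng, h1, h2]
    · simp [Mng, h1, h2]

/-- Two columns of the same code that are both seen by one special row are equal on all special
rows. -/
theorem eq_on_spec_of_code {c c' : Col h} (hD : isD c = false) (hD' : isD c' = false)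
    (hcode : code c = code c') (t2 : Fin (h + 1)) (s2 : Bool) (x2 : Fin (2 ^ h))
    (hsee : Mng (Row.spec t2 s2 x2) c = true) (hsee' : Mng (Row.spec t2 s2 x2) c' = true)
    (t : Fin (h + 1)) (s : Bool) (x : Fin (2 ^ h)) :
    Mng (Row.spec t s x) c = Mng (Row.spec t s x) c' := by
  cases c with
  | thick κc jc =>
    cases κc with
    | gen f Y k => simp [Mng] at hsee
    | dl => simp [isD] at hD
    | zb => simp [Mng] at hsee
    | dr => simp [isD] at hD
    | tl =>
      cases c' with
      | thick κc' jc' =>
        cases κc' with
        | gen f Y k => simp [Mng] at hsee'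
        | dl => simp [isD] at hD'
        | zb => simp [Mng] at hsee'
        | dr => simp [isD] at hD'
        | tl => rfl
        | tr => rfl
        | wb => simp [code] at hcode
      | spec t' s' c'' => have := t'.isLt; simp [code] at hcode; omega
      | piv c'' => simp [Mng] at hsee'
    | tr =>
      cases c' with
      | thick κc' jc' =>
        cases κc' with
        | gen f Y k => simp [Mng] at hsee'
        | dl => simp [isD] at hD'
        | zb => simp [Mng] at hsee'
        | dr => simp [isD] at hD'
        | tl => rfl
        | tr => rfl
        | wb => simp [code] at hcode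
      | spec t' s' c'' => have := t'.isLt; simp [code] at hcode; omega
      | piv c'' => simp [Mng] at hsee'
    | wb =>
      cases c' with
      | thick κc' jc' =>
        cases κc' with
        | gen f Y k => simp [Mng] at hsee'
        | dl => simp [isD] at hD'
        | zb => simp [Mng] at hsee'
        | dr => simp [isD] at hD'
        | tl => simp [code] at hcode
        | tr => simp [code] at hcode
        | wb => rfl
      | spec t' s' c'' => simp [code] at hcode
      | piv c'' => simp [Mng] at hsee'
  | piv c'' => simp [Mng] at hsee
  | spec ta sa ca =>
    cases c' with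
    | thick κc' jc' =>
      cases κc' with
      | gen f Y k => simp [Mng] at hsee'
      | dl => simp [isD] at hD'
      | zb => simp [Mng] at hsee'
      | dr => simp [isD] at hD'
      | tl => have := ta.isLt; simp [code] at hcode; omega
      | tr => have := ta.isLt; simp [code] at hcode; omega
      | wb => simp [code] at hcode
    | piv c'' => simp [Mng] at hsee'
    | spec tb sb cb =>
      have hab : ta = tb := by
        apply Fin.ext
        simp only [code] at hcode
        omega
      subst hab
      rw [Mng_spec_spec] at hsee hsee' ⊢
      rw [Mng_spec_spec]
      simp only [decide_eq_true_eq] at hsee hsee'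
      have hsim : sim ta.val ca.val cb.val := hsee.2.symm.trans hsee'.2
      have hiff : sim ta.val x.val ca.val ↔ sim ta.val x.val cb.val :=
        ⟨fun hx => hx.trans hsim, fun hx => hx.trans hsim.symm⟩
      simp only [hiff]

end NoU3

open NoU3 in
/-- JOB C2: the pattern `U3` does not occur in the non-generic block. -/
theorem no_U3 {h : ℕ} (r1 r2 r3 : Row h) (c1 c2 c3 : Col h)
    (hr1 : r1.gen? = none) (hr2 : r2.gen? = none) (hr3 : r3.gen? = none)
    (hc1 : c1.gen? = none) (hc2 : c2.gen? = none) (hc3 : c3.gen? = none)
    (hr12 : r1 < r2) (hr23 : r2 < r3) (hc12 : c1 < c2) (hc23 : c2 < c3)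
    (e11 : M r1 c1 = true) (e12 : M r1 c2 = true) (e13 : M r1 c3 = false)
    (e21 : M r2 c1 = true) (e22 : M r2 c2 = true) (e23 : M r2 c3 = true)
    (e31 : M r3 c1 = false) (e32 : M r3 c2 = true) (e33 : M r3 c3 = false) : False := by
  rw [M_ng_ng hr1 hc1] at e11
  rw [M_ng_ng hr1 hc2] at e12
  rw [M_ng_ng hr1 hc3] at e13
  rw [M_ng_ng hr2 hc1] at e21
  rw [M_ng_ng hr2 hc2] at e22
  rw [M_ng_ng hr2 hc3] at e23
  rw [M_ng_ng hr3 hc1] at e31
  rw [M_ng_ng hr3 hc2] at e32
  rw [M_ng_ng hr3 hc3] at e33
  have z12 := rzone_le hr12
  have z23 := rzone_le hr23
  have w12 := czone_le hc12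
  have w23 := czone_le hc23
  cases r1 with
  | thick κ1 j1 =>
    -- `r1` thick: then `c3` is `DL`/`DR`, which every other non-generic row either sees
    -- (special rows) or does not see (thick rows)
    rw [Mng_thick] at e11 e12 e13
    cases r2 with
    | thick κ2 j2 => rw [Mng_thick] at e23; rw [e23] at e13; exact absurd e13 (by simp)
    | spec t2 s2 x2 =>
      cases r3 with
      | thick κ3 j3 => rw [Mng_thick] at e31; rw [e31] at e11; exact absurd e11 (by simp)
      | spec t3 s3 x3 =>
        have hD3 : isD c3 = true := by simpa using e13
        rw [Mng_spec_of_isD t3 s3 x3 hD3] at e33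
        exact absurd e33 (by simp)
  | spec t1 s1 x1 =>
    cases r2 with
    | thick κ2 j2 =>
      -- impossible by the row order: a thick non-generic row is `DT` (zone 1) or `DB` (zone 3)
      cases r3 with
      | thick κ3 j3 =>
        rw [Mng_thick] at e21 e31; rw [e31] at e21; exact absurd e21 (by simp)
      | spec t3 s3 x3 =>
        cases κ2 with
        | gen f X k => simp at hr2
        | dt => simp [rzone] at z12
        | db => simp [rzone] at z23
    | spec t2 s2 x2 =>
      cases r3 with
      | thick κ3 j3 =>
        rw [Mng_thick] at e33
        have hD3 : isD c3 = true := by simpa using e33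
        rw [Mng_spec_of_isD t1 s1 x1 hD3] at e13
        exact absurd e13 (by simp)
      | spec t3 s3 x3 =>
        -- all three rows are special
        have hD1 : isD c1 = false := by
          by_contra hD
          have hD' : isD c1 = true := by simpa using hD
          rw [Mng_spec_of_isD t3 s3 x3 hD'] at e31
          exact absurd e31 (by simp)
        have hD3 : isD c3 = false := by
          by_contra hD
          have hD' : isD c3 = true := by simpa using hD
          rw [Mng_spec_of_isD t3 s3 x3 hD'] at e33
          exact absurd e33 (by simp)
        have hD2 : isD c2 = false := by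
          cases c2 with
          | thick κc jc =>
            cases κc with
            | dl =>
              -- then `c1` has zone `≤ 1`: generic or `DL`
              exfalso
              cases c1 with
              | thick κc1 jc1 =>
                cases κc1 with
                | gen f Y k => simp at hc1
                | dl => simp [isD] at hD1
                | tl => simp [czone] at w12
                | tr => simp [czone] at w12
                | zb => simp [czone] at w12
                | wb => simp [czone] at w12
                | dr => simp [isD] at hD1
              | spec t' s' c' => simp [czone] at w12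
              | piv c' => simp [czone] at w12
            | dr =>
              exfalso
              cases c3 with
              | thick κc3 jc3 =>
                cases κc3 with
                | gen f Y k => simp at hc3
                | dl => simp [isD] at hD3
                | tl => simp [czone] at w23
                | tr => simp [czone] at w23
                | zb => simp [czone] at w23
                | wb => simp [czone] at w23
                | dr => simp [isD] at hD3
              | spec t' s' c' => simp [czone] at w23
              | piv c' => simp [czone] at w23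
            | gen f Y k => rfl
            | tl => rfl
            | tr => rfl
            | zb => rfl
            | wb => rfl
          | spec t' s' c' => rfl
          | piv c' => rfl
        have k1 := code_of_seen t2 s2 x2 hD1 e21
        have k2 := code_of_seen t2 s2 x2 hD2 e22
        have k3 := code_of_seen t2 s2 x2 hD3 e23
        have hpair : code c1 = code c2 ∨ code c1 = code c3 ∨ code c2 = code c3 := by omega
        rcases hpair with hp | hp | hp
        · have := eq_on_spec_of_code hD1 hD2 hp t2 s2 x2 e21 e22 t3 s3 x3
          rw [e31, e32] at this
          exact absurd this (by simp)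
        · have := eq_on_spec_of_code hD1 hD3 hp t2 s2 x2 e21 e23 t1 s1 x1
          rw [e11, e13] at this
          exact absurd this (by simp)
        · have := eq_on_spec_of_code hD2 hD3 hp t2 s2 x2 e22 e23 t1 s1 x1
          rw [e12, e13] at this
          exact absurd this (by simp)

end Crest.Agent.S0066
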