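import Crest.Agent.S0066.MLemmas

/-!
# S0066 (row 47): role sharing (jobs C3a, C3b, helper43)

A non-generic line `a` with roles in three distinct flavors cannot have three lines `b 0, b 1, b 2`
each sharing exactly one of the three (flavor, role) pairs of `a`:

* twin lines (`dt`, `db`; `dl`, `dr`, `tl`, `tr`, `zb`, `wb`, pivots): a line sharing one pair is a
  twin and shares all of them;
* special rows `R(t,s,x)`: whoever shares the arm pair `ver t' b : P_s` shares `hor t' b : W`, and
  `botI : W` is shared iff `botII : W` is;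
* special columns `C(t,s,c)`: whoever shares `hor t b : Z` shares `ver t b : Z`.
-/

set_option autoImplicit false

namespace Crest.Agent.S0066

variable {h : ℕ}

/-- pigeonhole: three indices in three classes, each class holding at most one index. -/
theorem tri_classes (A B C : Fin 3 → Prop) (hABC : ∀ i, A i ∨ B i ∨ C i)
    (hA : ∀ i j, A i → A j → i = j) (hB : ∀ i j, B i → B j → i = j)
    (hC : ∀ i j, C i → C j → i = j) : (∃ i, A i) ∧ (∃ i, B i) := by
  rcases hABC 0 with h0 | h0 | h0 <;> rcases hABC 1 with h1 | h1 | h1 <;>
    rcases hABC 2 with h2 | h2 | h2 <;>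
    first
    | exact absurd (hA _ _ h0 h1) (by decide)
    | exact absurd (hA _ _ h0 h2) (by decide)
    | exact absurd (hA _ _ h1 h2) (by decide)
    | exact absurd (hB _ _ h0 h1) (by decide)
    | exact absurd (hB _ _ h0 h2) (by decide)
    | exact absurd (hB _ _ h1 h2) (by decide)
    | exact absurd (hC _ _ h0 h1) (by decide)
    | exact absurd (hC _ _ h0 h2) (by decide)
    | exact absurd (hC _ _ h1 h2) (by decide)
    | exact ⟨⟨_, h0⟩, ⟨_, h1⟩⟩
    | exact ⟨⟨_, h0⟩, ⟨_, h2⟩⟩
    | exact ⟨⟨_, h1⟩, ⟨_, h0⟩⟩
    | exact ⟨⟨_, h1⟩, ⟨_, h2⟩⟩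
    | exact ⟨⟨_, h2⟩, ⟨_, h0⟩⟩
    | exact ⟨⟨_, h2⟩, ⟨_, h1⟩⟩

/-! ### rows -/

theorem rowrole_hor_spec {t' : Fin h} {b : Bool} {t : Fin (h + 1)} {s : Bool} {x : Fin (2 ^ h)}
    {ρ : Fin 3} (hr : rowrole (.hor t' b) (Row.spec t s x) = some ρ) :
    t.val = t'.val + 1 ∧ bitAt x.val t'.val = b ∧ ρ = 1 := by
  simp only [rowrole] at hr
  by_cases hc : t.val = t'.val + 1 ∧ bitAt x.val t'.val = b
  · rw [if_pos hc] at hr
    exact ⟨hc.1, hc.2, (Option.some.inj hr).symm⟩
  · rw [if_neg hc] at hr
    cases hr

theorem rowrole_ver_spec {t' : Fin h} {b : Bool} {t : Fin (h + 1)} {s : Bool} {x : Fin (2 ^ h)}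
    {ρ : Fin 3} (hr : rowrole (.ver t' b) (Row.spec t s x) = some ρ) :
    (t.val = t'.val + 1 ∧ bitAt x.val t'.val = b ∧ ρ = (if s then 2 else 0)) ∨
      (t.val = t'.val ∧ bitAt x.val t'.val = b ∧ ρ = 1) := by
  simp only [rowrole] at hr
  by_cases hc : t.val = t'.val + 1 ∧ bitAt x.val t'.val = b
  · rw [if_pos hc] at hr
    exact Or.inl ⟨hc.1, hc.2, (Option.some.inj hr).symm⟩
  · rw [if_neg hc] at hr
    by_cases hc2 : t.val = t'.val ∧ bitAt x.val t'.val = b
    · rw [if_pos hc2] at hr
      exact Or.inr ⟨hc2.1, hc2.2, (Option.some.inj hr).symm⟩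
    · rw [if_neg hc2] at hr
      cases hr

theorem rowrole_botI_spec {t : Fin (h + 1)} {s : Bool} {x : Fin (2 ^ h)} {ρ : Fin 3}
    (hr : rowrole (.botI) (Row.spec t s x) = some ρ) : t.val = 0 ∧ s = true ∧ ρ = 1 := by
  simp only [rowrole] at hr
  by_cases hc : t.val = 0 ∧ s = true
  · rw [if_pos hc] at hr
    exact ⟨hc.1, hc.2, (Option.some.inj hr).symm⟩
  · rw [if_neg hc] at hr
    cases hr

theorem rowrole_botI_eq_botII (r : Row h) : rowrole (.botI) r = rowrole (.botII) r := by
  cases r with
  | thick κ j => cases κ <;> rfl
  | spec t s x => rfl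

theorem rowrole_botII_spec {t : Fin (h + 1)} {s : Bool} {x : Fin (2 ^ h)} {ρ : Fin 3}
    (hr : rowrole (.botII) (Row.spec t s x) = some ρ) : t.val = 0 ∧ s = true ∧ ρ = 1 := by
  rw [← rowrole_botI_eq_botII] at hr
  exact rowrole_botI_spec hr

/-- a row with an arm role in `ver t' b` has the `W` role in `hor t' b`. -/
theorem rowrole_hor_of_ver_arm {t' : Fin h} {b : Bool} {r : Row h} {ρ : Fin 3}
    (hr : rowrole (.ver t' b) r = some ρ) (hρ : ρ ≠ 1) : rowrole (.hor t' b) r = some 1 := by
  cases r with
  | thick κ j => cases κ <;> simp [rowrole] at hr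
  | spec t s x =>
    rcases rowrole_ver_spec hr with ⟨h1, h2, -⟩ | ⟨-, -, h3⟩
    · simp only [rowrole]
      rw [if_pos ⟨h1, h2⟩]
    · exact absurd h3 hρ

/-- twins of a thick row: a row sharing one role with `dt` / `db` has all the same roles. -/
theorem row_twin {f : Flavor h} {a r : Row h} (hsp : ∀ t s x, a ≠ Row.spec t s x)
    (ha : (rowrole f a).isSome) (hra : rowrole f r = rowrole f a) (f' : Flavor h) :
    rowrole f' r = rowrole f' a := by
  cases a with
  | spec t s x => exact absurd rfl (hsp t s x)
  | thick κ j =>
    cases κ with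
    | gen f0 X k => rw [rowrole_gen] at ha; simp at ha
    | dt =>
      cases r with
      | thick κ' j' =>
        cases κ' with
        | dt => cases f' <;> rfl
        | gen f0 X k => exfalso; cases f <;> simp [rowrole] at ha hra
        | db => exfalso; cases f <;> simp [rowrole] at ha hra
      | spec t s x => exfalso; cases f <;> simp [rowrole] at ha hra
    | db =>
      cases r with
      | thick κ' j' =>
        cases κ' with
        | db => cases f' <;> rfl
        | gen f0 X k => exfalso; cases f <;> simp [rowrole] at ha hra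
        | dt => exfalso; cases f <;> simp [rowrole] at ha hra
      | spec t s x => exfalso; cases f <;> simp [rowrole] at ha hra

/-- JOB C3a. -/
theorem row_share (a : Row h) (g : Fin 3 → Flavor h) (hg : Function.Injective g)
    (Y : Fin 3 → Fin 3) (hay : ∀ i, rowrole (g i) a = some (Y i)) (b : Fin 3 → Row h)
    (hshare : ∀ i j, rowrole (g j) (b i) = some (Y j) ↔ i = j) : False := by
  by_cases hsp : ∀ t s x, a ≠ Row.spec t s x
  · -- twin rows
    have hsome : (rowrole (g 0) a).isSome := by rw [hay 0]; rfl
    have h00 : rowrole (g 0) (b 0) = rowrole (g 0) a := by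
      rw [hay 0]; exact (hshare 0 0).mpr rfl
    have h01 : rowrole (g 1) (b 0) = some (Y 1) := by
      rw [row_twin hsp hsome h00 (g 1)]; exact hay 1
    exact absurd ((hshare 0 1).mp h01) (by decide)
  · push Not at hsp
    obtain ⟨t, s, x, rfl⟩ := hsp
    obtain ⟨⟨i, hi⟩, ⟨j, hj⟩⟩ := tri_classes
      (fun i => (∃ t' b, g i = .hor t' b) ∨ g i = .botI)
      (fun i => (∃ t' b, g i = .ver t' b ∧ t.val = t'.val + 1) ∨ g i = .botII)
      (fun i => ∃ t' b, g i = .ver t' b ∧ t.val = t'.val)
      (by
        intro i
        have hi := hay i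
        cases hgi : g i with
        | hor t' b => exact Or.inl (Or.inl ⟨t', b, rfl⟩)
        | ver t' b =>
          rw [hgi] at hi
          rcases rowrole_ver_spec hi with ⟨h1, -, -⟩ | ⟨h1, -, -⟩
          · exact Or.inr (Or.inl (Or.inl ⟨t', b, rfl, h1⟩))
          · exact Or.inr (Or.inr ⟨t', b, rfl, h1⟩)
        | botI => exact Or.inl (Or.inr rfl)
        | botII => exact Or.inr (Or.inl (Or.inr rfl)))
      (by
        intro i j hi hj
        apply hg
        have hai := hay i
        have haj := hay j
        rcases hi with ⟨t1, b1, e1⟩ | e1 <;> rcases hj with ⟨t2, b2, e2⟩ | e2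
        · rw [e1] at hai; rw [e2] at haj
          obtain ⟨a1, a2, -⟩ := rowrole_hor_spec hai
          obtain ⟨c1, c2, -⟩ := rowrole_hor_spec haj
          have : t1 = t2 := Fin.ext (by omega)
          subst this
          rw [e1, e2, ← a2, ← c2]
        · rw [e1] at hai; rw [e2] at haj
          obtain ⟨a1, -, -⟩ := rowrole_hor_spec hai
          obtain ⟨c1, -, -⟩ := rowrole_botI_spec haj
          omega
        · rw [e1] at hai; rw [e2] at haj
          obtain ⟨a1, -, -⟩ := rowrole_botI_spec hai
          obtain ⟨c1, -, -⟩ := rowrole_hor_spec haj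
          omega
        · rw [e1, e2])
      (by
        intro i j hi hj
        apply hg
        have hai := hay i
        have haj := hay j
        rcases hi with ⟨t1, b1, e1, u1⟩ | e1 <;> rcases hj with ⟨t2, b2, e2, u2⟩ | e2
        · rw [e1] at hai; rw [e2] at haj
          have a2 : bitAt x.val t1.val = b1 := by
            rcases rowrole_ver_spec hai with ⟨-, q, -⟩ | ⟨-, q, -⟩ <;> exact q
          have c2 : bitAt x.val t2.val = b2 := by
            rcases rowrole_ver_spec haj with ⟨-, q, -⟩ | ⟨-, q, -⟩ <;> exact q
          have : t1 = t2 := Fin.ext (by omega)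
          subst this
          rw [e1, e2, ← a2, ← c2]
        · rw [e2] at haj
          obtain ⟨c1, -, -⟩ := rowrole_botII_spec haj
          omega
        · rw [e1] at hai
          obtain ⟨a1, -, -⟩ := rowrole_botII_spec hai
          omega
        · rw [e1, e2])
      (by
        intro i j hi hj
        apply hg
        have hai := hay i
        have haj := hay j
        obtain ⟨t1, b1, e1, u1⟩ := hi
        obtain ⟨t2, b2, e2, u2⟩ := hj
        rw [e1] at hai; rw [e2] at haj
        have a2 : bitAt x.val t1.val = b1 := by
          rcases rowrole_ver_spec hai with ⟨-, q, -⟩ | ⟨-, q, -⟩ <;> exact q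
        have c2 : bitAt x.val t2.val = b2 := by
          rcases rowrole_ver_spec haj with ⟨-, q, -⟩ | ⟨-, q, -⟩ <;> exact q
        have : t1 = t2 := Fin.ext (by omega)
        subst this
        rw [e1, e2, ← a2, ← c2])
    have hij : i ≠ j := by
      rintro rfl
      rcases hi with ⟨t1, b1, e1⟩ | e1 <;> rcases hj with ⟨t2, b2, e2, -⟩ | e2 <;>
        rw [e1] at e2 <;> cases e2
    have hjj : rowrole (g j) (b j) = some (Y j) := (hshare j j).mpr rfl
    have hai := hay i
    have haj := hay j
    have hji : rowrole (g i) (b j) = some (Y i) := by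
      rcases hj with ⟨t2, b2, e2, ht2⟩ | e2
      · rw [e2] at haj hjj
        rcases rowrole_ver_spec haj with ⟨-, hb2, hY⟩ | ⟨h1, -, -⟩
        · have hY1 : Y j ≠ 1 := by
            rw [hY]; cases s <;> decide
          have hshare1 := rowrole_hor_of_ver_arm hjj hY1
          rcases hi with ⟨t1, b1, e1⟩ | e1
          · rw [e1] at hai
            obtain ⟨a1, a2, a3⟩ := rowrole_hor_spec hai
            have : t1 = t2 := Fin.ext (by omega)
            subst this
            have : b1 = b2 := by rw [← a2, ← hb2]
            subst this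
            rw [e1, a3]; exact hshare1
          · rw [e1] at hai
            obtain ⟨c1, -, -⟩ := rowrole_botI_spec hai
            omega
        · omega
      · rw [e2] at haj hjj
        obtain ⟨c1, c2, c3⟩ := rowrole_botII_spec haj
        rcases hi with ⟨t1, b1, e1⟩ | e1
        · rw [e1] at hai
          obtain ⟨a1, -, -⟩ := rowrole_hor_spec hai
          omega
        · rw [e1] at hai ⊢
          obtain ⟨-, -, a3⟩ := rowrole_botI_spec hai
          rw [rowrole_botI_eq_botII, hjj, c3, a3]
    exact hij ((hshare j i).mp hji).symm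

/-! ### columns -/

theorem colrole_hor_spec {t : Fin h} {b : Bool} {t' : Fin h} {s : Bool} {c : Fin (2 ^ h)}
    {ρ : Fin 3} (hc : colrole (.hor t b) (Col.spec t' s c) = some ρ) :
    (t'.val = t.val + 1 ∧ bitAt c.val t.val = b ∧ ρ = (if s then 2 else 0)) ∨
      (t'.val = t.val ∧ bitAt c.val t.val = b ∧ ρ = 1) := by
  simp only [colrole] at hc
  by_cases h1 : t'.val = t.val + 1 ∧ bitAt c.val t.val = b
  · rw [if_pos h1] at hc
    exact Or.inl ⟨h1.1, h1.2, (Option.some.inj hc).symm⟩
  · rw [if_neg h1] at hc
    by_cases h2 : t'.val = t.val ∧ bitAt c.val t.val = b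
    · rw [if_pos h2] at hc
      exact Or.inr ⟨h2.1, h2.2, (Option.some.inj hc).symm⟩
    · rw [if_neg h2] at hc
      cases hc

theorem colrole_ver_spec {t : Fin h} {b : Bool} {t' : Fin h} {s : Bool} {c : Fin (2 ^ h)}
    {ρ : Fin 3} (hc : colrole (.ver t b) (Col.spec t' s c) = some ρ) :
    t'.val = t.val ∧ bitAt c.val t.val = b ∧ ρ = 1 := by
  simp only [colrole] at hc
  by_cases h2 : t'.val = t.val ∧ bitAt c.val t.val = b
  · rw [if_pos h2] at hc
    exact ⟨h2.1, h2.2, (Option.some.inj hc).symm⟩
  · rw [if_neg h2] at hc
    cases hc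

theorem colrole_botI_spec {t' : Fin h} {s : Bool} {c : Fin (2 ^ h)} {ρ : Fin 3}
    (hc : colrole (.botI) (Col.spec t' s c) = some ρ) :
    t'.val = 0 ∧ ρ = (if s then 2 else 0) := by
  simp only [colrole] at hc
  by_cases h2 : t'.val = 0
  · rw [if_pos h2] at hc
    exact ⟨h2, (Option.some.inj hc).symm⟩
  · rw [if_neg h2] at hc
    cases hc

/-- a column with the `Z` role in `hor t b` has the `Z` role in `ver t b`. -/
theorem colrole_ver_of_hor_Z {t : Fin h} {b : Bool} {r : Col h}
    (hr : colrole (.hor t b) r = some 1) : colrole (.ver t b) r = some 1 := by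
  cases r with
  | thick κ j => cases κ <;> simp [colrole] at hr
  | spec t' s c =>
    rcases colrole_hor_spec hr with ⟨-, -, h3⟩ | ⟨h1, h2, -⟩
    · cases s <;> simp at h3
    · simp only [colrole]
      rw [if_pos ⟨h1, h2⟩]
  | piv c => simp [colrole] at hr

/-- twins of a thick or pivot column: a column sharing one role has all the same roles. -/
theorem col_twin {f : Flavor h} {a r : Col h} (hsp : ∀ t s c, a ≠ Col.spec t s c)
    (ha : (colrole f a).isSome) (hra : colrole f r = colrole f a) (f' : Flavor h) :
    colrole f' r = colrole f' a := by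
  cases a with
  | spec t s c => exact absurd rfl (hsp t s c)
  | piv c =>
    cases r with
    | piv c' => cases f' <;> rfl
    | thick κ j => exfalso; cases f <;> cases κ <;> simp [colrole] at ha hra
    | spec t' s' c' => exfalso; cases f <;> cases s' <;> simp [colrole] at ha hra
  | thick κ j =>
    cases κ with
    | gen f0 Y k => rw [colrole_gen] at ha; simp at ha
    | dl =>
      cases r with
      | thick κ' j' =>
        cases κ' with
        | dl => cases f' <;> rfl
        | _ => exfalso; cases f <;> simp [colrole] at ha hra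
      | spec t' s' c' => exfalso; cases f <;> simp [colrole] at ha hra
      | piv c' => exfalso; cases f <;> simp [colrole] at ha hra
    | dr =>
      cases r with
      | thick κ' j' =>
        cases κ' with
        | dr => cases f' <;> rfl
        | _ => exfalso; cases f <;> simp [colrole] at ha hra
      | spec t' s' c' => exfalso; cases f <;> simp [colrole] at ha hra
      | piv c' => exfalso; cases f <;> simp [colrole] at ha hra
    | tl =>
      cases r with
      | thick κ' j' =>
        cases κ' with
        | tl => cases f' <;> rfl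
        | _ => exfalso; cases f <;> simp [colrole] at ha <;> simp [colrole, ha] at hra
      | spec t' s' c' =>
        exfalso
        cases f with
        | hor t b =>
          simp [colrole] at ha
          have e : colrole (.hor t b) (Col.thick .tl j) = some 2 := by simp [colrole, ha]
          rcases colrole_hor_spec (hra.trans e) with ⟨h1, -, -⟩ | ⟨-, -, h3⟩
          · have := t'.isLt; omega
          · exact absurd h3 (by decide)
        | ver t b => simp [colrole] at ha
        | botI => simp [colrole] at ha
        | botII => simp [colrole] at ha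
      | piv c' => exfalso; cases f <;> simp [colrole] at ha <;> simp [colrole, ha] at hra
    | tr =>
      cases r with
      | thick κ' j' =>
        cases κ' with
        | tr => cases f' <;> rfl
        | _ => exfalso; cases f <;> simp [colrole] at ha <;> simp [colrole, ha] at hra
      | spec t' s' c' =>
        exfalso
        cases f with
        | hor t b =>
          simp [colrole] at ha
          have e : colrole (.hor t b) (Col.thick .tr j) = some 0 := by simp [colrole, ha]
          rcases colrole_hor_spec (hra.trans e) with ⟨h1, -, -⟩ | ⟨-, -, h3⟩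
          · have := t'.isLt; omega
          · exact absurd h3 (by decide)
        | ver t b => simp [colrole] at ha
        | botI => simp [colrole] at ha
        | botII => simp [colrole] at ha
      | piv c' => exfalso; cases f <;> simp [colrole] at ha <;> simp [colrole, ha] at hra
    | zb =>
      cases r with
      | thick κ' j' =>
        cases κ' with
        | zb => cases f' <;> rfl
        | _ => exfalso; cases f <;> simp [colrole] at ha hra
      | spec t' s' c' => exfalso; cases f <;> simp [colrole] at ha hra
      | piv c' => exfalso; cases f <;> simp [colrole] at ha hra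
    | wb =>
      cases r with
      | thick κ' j' =>
        cases κ' with
        | wb => cases f' <;> rfl
        | _ => exfalso; cases f <;> simp [colrole] at ha hra
      | spec t' s' c' => exfalso; cases f <;> simp [colrole] at ha hra
      | piv c' => exfalso; cases f <;> simp [colrole] at ha hra

/-- JOB C3b. -/
theorem col_share (a : Col h) (g : Fin 3 → Flavor h) (hg : Function.Injective g)
    (X : Fin 3 → Fin 3) (hax : ∀ i, colrole (g i) a = some (X i)) (b : Fin 3 → Col h)
    (hshare : ∀ i j, colrole (g j) (b i) = some (X j) ↔ i = j) : False := by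
  by_cases hsp : ∀ t s c, a ≠ Col.spec t s c
  · have hsome : (colrole (g 0) a).isSome := by rw [hax 0]; rfl
    have h00 : colrole (g 0) (b 0) = colrole (g 0) a := by
      rw [hax 0]; exact (hshare 0 0).mpr rfl
    have h01 : colrole (g 1) (b 0) = some (X 1) := by
      rw [col_twin hsp hsome h00 (g 1)]; exact hax 1
    exact absurd ((hshare 0 1).mp h01) (by decide)
  · push Not at hsp
    obtain ⟨t, s, c, rfl⟩ := hsp
    obtain ⟨⟨i, hi⟩, ⟨j, hj⟩⟩ := tri_classes
      (fun i => ∃ t' b, g i = .hor t' b ∧ t.val = t'.val)
      (fun i => ∃ t' b, g i = .ver t' b)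
      (fun i => (∃ t' b, g i = .hor t' b ∧ t.val = t'.val + 1) ∨ g i = .botI)
      (by
        intro i
        have hi := hax i
        cases hgi : g i with
        | hor t' b =>
          rw [hgi] at hi
          rcases colrole_hor_spec hi with ⟨h1, -, -⟩ | ⟨h1, -, -⟩
          · exact Or.inr (Or.inr (Or.inl ⟨t', b, rfl, h1⟩))
          · exact Or.inl ⟨t', b, rfl, h1⟩
        | ver t' b => exact Or.inr (Or.inl ⟨t', b, rfl⟩)
        | botI => exact Or.inr (Or.inr (Or.inr rfl))
        | botII =>
          rw [hgi] at hi
          simp [colrole] at hi)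
      (by
        intro i j hi hj
        apply hg
        have hai := hax i
        have haj := hax j
        obtain ⟨t1, b1, e1, u1⟩ := hi
        obtain ⟨t2, b2, e2, u2⟩ := hj
        rw [e1] at hai; rw [e2] at haj
        have a2 : bitAt c.val t1.val = b1 := by
          rcases colrole_hor_spec hai with ⟨-, q, -⟩ | ⟨-, q, -⟩ <;> exact q
        have c2 : bitAt c.val t2.val = b2 := by
          rcases colrole_hor_spec haj with ⟨-, q, -⟩ | ⟨-, q, -⟩ <;> exact q
        have : t1 = t2 := Fin.ext (by omega)
        subst this
        rw [e1, e2, ← a2, ← c2])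
      (by
        intro i j hi hj
        apply hg
        have hai := hax i
        have haj := hax j
        obtain ⟨t1, b1, e1⟩ := hi
        obtain ⟨t2, b2, e2⟩ := hj
        rw [e1] at hai; rw [e2] at haj
        obtain ⟨a1, a2, -⟩ := colrole_ver_spec hai
        obtain ⟨c1, c2, -⟩ := colrole_ver_spec haj
        have : t1 = t2 := Fin.ext (by omega)
        subst this
        rw [e1, e2, ← a2, ← c2])
      (by
        intro i j hi hj
        apply hg
        have hai := hax i
        have haj := hax j
        rcases hi with ⟨t1, b1, e1, u1⟩ | e1 <;> rcases hj with ⟨t2, b2, e2, u2⟩ | e2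
        · rw [e1] at hai; rw [e2] at haj
          have a2 : bitAt c.val t1.val = b1 := by
            rcases colrole_hor_spec hai with ⟨-, q, -⟩ | ⟨-, q, -⟩ <;> exact q
          have c2 : bitAt c.val t2.val = b2 := by
            rcases colrole_hor_spec haj with ⟨-, q, -⟩ | ⟨-, q, -⟩ <;> exact q
          have : t1 = t2 := Fin.ext (by omega)
          subst this
          rw [e1, e2, ← a2, ← c2]
        · rw [e2] at haj
          obtain ⟨c1, -⟩ := colrole_botI_spec haj
          omega
        · rw [e1] at hai
          obtain ⟨a1, -⟩ := colrole_botI_spec hai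
          omega
        · rw [e1, e2])
    have hij : i ≠ j := by
      rintro rfl
      obtain ⟨t1, b1, e1, -⟩ := hi
      obtain ⟨t2, b2, e2⟩ := hj
      rw [e1] at e2
      cases e2
    have hii : colrole (g i) (b i) = some (X i) := (hshare i i).mpr rfl
    have hai := hax i
    have haj := hax j
    obtain ⟨t1, b1, e1, u1⟩ := hi
    obtain ⟨t2, b2, e2⟩ := hj
    rw [e1] at hai hii
    rw [e2] at haj
    have hX : X i = 1 := by
      rcases colrole_hor_spec hai with ⟨q, -, -⟩ | ⟨-, -, q⟩
      · omega
      · exact q
    have a2 : bitAt c.val t1.val = b1 := by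
      rcases colrole_hor_spec hai with ⟨-, q, -⟩ | ⟨-, q, -⟩ <;> exact q
    obtain ⟨c1, c2, c3⟩ := colrole_ver_spec haj
    have : t2 = t1 := Fin.ext (by omega)
    subst this
    have : b2 = b1 := by rw [← a2, ← c2]
    subst this
    rw [hX] at hii
    have hij' : colrole (g j) (b i) = some (X j) := by
      rw [e2, c3]; exact colrole_ver_of_hor_Z hii
    exact hij ((hshare i j).mp hij')

end Crest.Agent.S0066
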