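import Crest.Agent.S0066.ClassifyTyped
import Crest.Agent.S0066.NoU3
import Crest.Agent.S0066.Share

/-!
# S0066 (row 47): classification of the ordered copies of `H` in the host `M`

Every ordered copy of `H` in `M` maps the centre `(64, 64)` of the special block to a pivot cell
`(R(0,+,x), M_x)`.  Four cases on whether the images of the last pointer row / column (index `62`)
are generic lines; the three ingredients are `classify_typed`, `no_U3`, `row_share`/`col_share`.
-/

set_option autoImplicit false

namespace Crest.Agent.S0066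

variable {h : ℕ}

namespace Classify

/-! ## entries of `M` in terms of `gen?` -/

theorem M_of_gen_gen {r : Row h} {c : Col h} {fl fl' : Flavor h} {X Y : Fin 3}
    (hr : r.gen? = some (fl, X)) (hc : c.gen? = some (fl', Y)) : M r c = decide (fl = fl') := by
  simp [M, hr, hc]

theorem M_of_gen_ng {r : Row h} {c : Col h} {fl : Flavor h} {X : Fin 3}
    (hr : r.gen? = some (fl, X)) (hc : c.gen? = none) :
    M r c = decide (colrole fl c = some X) := by
  simp [M, hr, hc]

theorem M_of_ng_gen {r : Row h} {c : Col h} {fl : Flavor h} {Y : Fin 3}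
    (hr : r.gen? = none) (hc : c.gen? = some (fl, Y)) :
    M r c = decide (rowrole fl r = some Y) := by
  simp [M, hr, hc]

/-! ## pointer classes are monotone inside a flavor -/

theorem rowClass_le {r r' : Row h} {fl : Flavor h} {X X' : Fin 3}
    (hr : r.gen? = some (fl, X)) (hr' : r'.gen? = some (fl, X')) (hle : r ≤ r') : X ≤ X' := by
  obtain ⟨k, j, rfl⟩ := Row.gen?_eq_some hr
  obtain ⟨k', j', rfl⟩ := Row.gen?_eq_some hr'
  by_contra hlt
  rw [not_le] at hlt
  have hlt' : Row.thick (.gen fl X' k') j' < Row.thick (.gen fl X k) j := by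
    rw [Row.lt_iff]
    simp only [Row.key]
    rw [mkKey_lt_iff]
    exact Or.inr ⟨rfl, Or.inr ⟨rfl, Or.inl (Fin.lt_def.mp hlt)⟩⟩
  exact absurd hlt' (not_lt.mpr hle)

theorem colClass_le {c c' : Col h} {fl : Flavor h} {Y Y' : Fin 3}
    (hc : c.gen? = some (fl, Y)) (hc' : c'.gen? = some (fl, Y')) (hle : c ≤ c') : Y ≤ Y' := by
  obtain ⟨k, j, rfl⟩ := Col.gen?_eq_some hc
  obtain ⟨k', j', rfl⟩ := Col.gen?_eq_some hc'
  by_contra hlt
  rw [not_le] at hlt
  have hlt' : Col.thick (.gen fl Y' k') j' < Col.thick (.gen fl Y k) j := by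
    rw [Col.lt_iff]
    simp only [Col.key]
    rw [mkKey_lt_iff]
    exact Or.inr ⟨rfl, Or.inr ⟨rfl, Or.inl (Fin.lt_def.mp hlt)⟩⟩
  exact absurd hlt' (not_lt.mpr hle)

/-- three pairwise distinct, weakly increasing elements of `Fin 3` are `0, 1, 2`. -/
theorem fin3_sorted : ∀ X0 X1 X2 : Fin 3, X0 ≤ X1 → X1 ≤ X2 → X1 ≠ X0 → X2 ≠ X0 → X2 ≠ X1 →
    X0 = 0 ∧ X1 = 1 ∧ X2 = 2 := by
  intro X0 X1 X2 h1 h2 h3 h4 h5
  have := X0.isLt
  have := X1.isLt
  have := X2.isLt
  have h1' := Fin.le_def.mp h1
  have h2' := Fin.le_def.mp h2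
  have h3' : X1.val ≠ X0.val := fun hh => h3 (Fin.ext hh)
  have h4' : X2.val ≠ X0.val := fun hh => h4 (Fin.ext hh)
  have h5' : X2.val ≠ X1.val := fun hh => h5 (Fin.ext hh)
  refine ⟨Fin.ext ?_, Fin.ext ?_, Fin.ext ?_⟩ <;> simp <;> omega

/-! ## the special lines of `H` are not constant on the pointer classes -/

theorem H_spec_row_not_const : ∀ m : Fin 66, 63 ≤ m →
    ¬ (H m 0 = H m 21 ∧ H m 21 = H m 42) := by
  decide

theorem H_spec_col_not_const : ∀ m : Fin 66, 63 ≤ m →
    ¬ (H 0 m = H 21 m ∧ H 21 m = H 42 m) := by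
  decide

/-! ## Case 4: neither last pointer line is generic -/

theorem classify_case4 (f : Fin 66 → Row h) (g : Fin 66 → Col h)
    (hc : IsCopy H (M (h := h)) f g)
    (hfa : (f 62).gen? = none) (hgb : (g 62).gen? = none) : False := by
  obtain ⟨hf, hg, hv⟩ := hc
  have r12 : f 62 < f 63 := hf (by decide)
  have r23 : f 63 < f 64 := hf (by decide)
  have c12 : g 62 < g 63 := hg (by decide)
  have c23 : g 63 < g 64 := hg (by decide)
  refine no_U3 (f 62) (f 63) (f 64) (g 62) (g 63) (g 64) hfa (Row.ng_of_le r12.le hfa)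
    (Row.ng_of_le (r12.trans r23).le hfa) hgb (Col.ng_of_le c12.le hgb)
    (Col.ng_of_le (c12.trans c23).le hgb) r12 r23 c12 c23 ?_ ?_ ?_ ?_ ?_ ?_ ?_ ?_ ?_ <;>
  rw [hv] <;> decide

/-! ## Case 2: pointer rows generic, last pointer column not -/

theorem classify_case2 (f : Fin 66 → Row h) (g : Fin 66 → Col h)
    (hc : IsCopy H (M (h := h)) f g)
    (hfa : (f 62).gen?.isSome) (hgb : (g 62).gen? = none) : False := by
  obtain ⟨hf, hg, hv⟩ := hc
  have genR : ∀ i : Fin 66, i ≤ 62 → ∃ p, (f i).gen? = some p := fun i hi =>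
    Option.isSome_iff_exists.mp (Row.gen_of_le (hf.monotone hi) hfa)
  have ngC : ∀ j : Fin 66, 62 ≤ j → (g j).gen? = none := fun j hj =>
    Col.ng_of_le (hg.monotone hj) hgb
  obtain ⟨⟨a0, X0⟩, hr0⟩ := genR 0 (by decide)
  obtain ⟨⟨a1, X1⟩, hr1⟩ := genR 21 (by decide)
  obtain ⟨⟨a2, X2⟩, hr2⟩ := genR 42 (by decide)
  -- the value of a cell (pointer row, non-generic column)
  have key : ∀ (i j : Fin 66) {a : Flavor h} {X : Fin 3}, (f i).gen? = some (a, X) → 62 ≤ j →
      decide (colrole a (g j) = some X) = H i j := by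
    intro i j a X hi hj
    rw [← hv i j, M_of_gen_ng hi (ngC j hj)]
  -- representatives: class m is represented by row 21 m and points to column 65 - m
  let fl : Fin 3 → Flavor h := ![a0, a1, a2]
  let X : Fin 3 → Fin 3 := ![X0, X1, X2]
  let b : Fin 3 → Col h := ![g 65, g 64, g 63]
  have hax : ∀ i, colrole (fl i) (g 62) = some (X i) := by
    intro i
    fin_cases i
    · exact of_decide_eq_true ((key 0 62 hr0 (by decide)).trans (by decide))
    · exact of_decide_eq_true ((key 21 62 hr1 (by decide)).trans (by decide))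
    · exact of_decide_eq_true ((key 42 62 hr2 (by decide)).trans (by decide))
  have hshare : ∀ i j, colrole (fl j) (b i) = some (X j) ↔ i = j := by
    intro i j
    fin_cases i <;> fin_cases j
    · exact iff_of_true (of_decide_eq_true ((key 0 65 hr0 (by decide)).trans (by decide))) rfl
    · exact iff_of_false (of_decide_eq_false ((key 21 65 hr1 (by decide)).trans (by decide)))
        (by decide)
    · exact iff_of_false (of_decide_eq_false ((key 42 65 hr2 (by decide)).trans (by decide)))
        (by decide)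
    · exact iff_of_false (of_decide_eq_false ((key 0 64 hr0 (by decide)).trans (by decide)))
        (by decide)
    · exact iff_of_true (of_decide_eq_true ((key 21 64 hr1 (by decide)).trans (by decide))) rfl
    · exact iff_of_false (of_decide_eq_false ((key 42 64 hr2 (by decide)).trans (by decide)))
        (by decide)
    · exact iff_of_false (of_decide_eq_false ((key 0 63 hr0 (by decide)).trans (by decide)))
        (by decide)
    · exact iff_of_false (of_decide_eq_false ((key 21 63 hr1 (by decide)).trans (by decide)))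
        (by decide)
    · exact iff_of_true (of_decide_eq_true ((key 42 63 hr2 (by decide)).trans (by decide))) rfl
  have hinj : Function.Injective fl := by
    intro i j hij
    have h1 : X i = X j := by
      have := hax i
      rw [hij, hax j] at this
      exact (Option.some.inj this).symm
    have h2 : colrole (fl j) (b i) = some (X j) := by
      rw [← hij, ← h1]; exact (hshare i i).mpr rfl
    exact (hshare i j).mp h2
  exact col_share (g 62) fl hinj X hax b hshare

/-! ## Case 3: pointer columns generic, last pointer row not -/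

theorem classify_case3 (f : Fin 66 → Row h) (g : Fin 66 → Col h)
    (hc : IsCopy H (M (h := h)) f g)
    (hfa : (f 62).gen? = none) (hgb : (g 62).gen?.isSome) : False := by
  obtain ⟨hf, hg, hv⟩ := hc
  have genC : ∀ j : Fin 66, j ≤ 62 → ∃ p, (g j).gen? = some p := fun j hj =>
    Option.isSome_iff_exists.mp (Col.gen_of_le (hg.monotone hj) hgb)
  have ngR : ∀ i : Fin 66, 62 ≤ i → (f i).gen? = none := fun i hi =>
    Row.ng_of_le (hf.monotone hi) hfa
  obtain ⟨⟨a0, Y0⟩, hc0⟩ := genC 0 (by decide)
  obtain ⟨⟨a1, Y1⟩, hc1⟩ := genC 21 (by decide)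
  obtain ⟨⟨a2, Y2⟩, hc2⟩ := genC 42 (by decide)
  have key : ∀ (i j : Fin 66) {a : Flavor h} {Y : Fin 3}, (g j).gen? = some (a, Y) → 62 ≤ i →
      decide (rowrole a (f i) = some Y) = H i j := by
    intro i j a Y hj hi
    rw [← hv i j, M_of_ng_gen (ngR i hi) hj]
  let fl : Fin 3 → Flavor h := ![a0, a1, a2]
  let Y : Fin 3 → Fin 3 := ![Y0, Y1, Y2]
  let b : Fin 3 → Row h := ![f 65, f 64, f 63]
  have hay : ∀ i, rowrole (fl i) (f 62) = some (Y i) := by
    intro i
    fin_cases i
    · exact of_decide_eq_true ((key 62 0 hc0 (by decide)).trans (by decide))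
    · exact of_decide_eq_true ((key 62 21 hc1 (by decide)).trans (by decide))
    · exact of_decide_eq_true ((key 62 42 hc2 (by decide)).trans (by decide))
  have hshare : ∀ i j, rowrole (fl j) (b i) = some (Y j) ↔ i = j := by
    intro i j
    fin_cases i <;> fin_cases j
    · exact iff_of_true (of_decide_eq_true ((key 65 0 hc0 (by decide)).trans (by decide))) rfl
    · exact iff_of_false (of_decide_eq_false ((key 65 21 hc1 (by decide)).trans (by decide)))
        (by decide)
    · exact iff_of_false (of_decide_eq_false ((key 65 42 hc2 (by decide)).trans (by decide)))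
        (by decide)
    · exact iff_of_false (of_decide_eq_false ((key 64 0 hc0 (by decide)).trans (by decide)))
        (by decide)
    · exact iff_of_true (of_decide_eq_true ((key 64 21 hc1 (by decide)).trans (by decide))) rfl
    · exact iff_of_false (of_decide_eq_false ((key 64 42 hc2 (by decide)).trans (by decide)))
        (by decide)
    · exact iff_of_false (of_decide_eq_false ((key 63 0 hc0 (by decide)).trans (by decide)))
        (by decide)
    · exact iff_of_false (of_decide_eq_false ((key 63 21 hc1 (by decide)).trans (by decide)))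
        (by decide)
    · exact iff_of_true (of_decide_eq_true ((key 63 42 hc2 (by decide)).trans (by decide))) rfl
  have hinj : Function.Injective fl := by
    intro i j hij
    have h1 : Y i = Y j := by
      have := hay i
      rw [hij, hay j] at this
      exact (Option.some.inj this).symm
    have h2 : rowrole (fl j) (b i) = some (Y j) := by
      rw [← hij, ← h1]; exact (hshare i i).mpr rfl
    exact (hshare i j).mp h2
  exact row_share (f 62) fl hinj Y hay b hshare

/-! ## Case 1: all pointer lines generic -/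

theorem classify_case1 (f : Fin 66 → Row h) (g : Fin 66 → Col h)
    (hc : IsCopy H (M (h := h)) f g)
    (hfa : (f 62).gen?.isSome) (hgb : (g 62).gen?.isSome) :
    ∃ x : Fin (2 ^ h), f 64 = Row.spec 0 true x ∧ g 64 = Col.piv x := by
  obtain ⟨hf, hg, hv⟩ := hc
  have genR : ∀ i : Fin 66, i ≤ 62 → ∃ p, (f i).gen? = some p := fun i hi =>
    Option.isSome_iff_exists.mp (Row.gen_of_le (hf.monotone hi) hfa)
  have genC : ∀ j : Fin 66, j ≤ 62 → ∃ p, (g j).gen? = some p := fun j hj =>
    Option.isSome_iff_exists.mp (Col.gen_of_le (hg.monotone hj) hgb)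
  obtain ⟨⟨a0, X0⟩, hr0⟩ := genR 0 (by decide)
  obtain ⟨⟨a1, X1⟩, hr1⟩ := genR 21 (by decide)
  obtain ⟨⟨a2, X2⟩, hr2⟩ := genR 42 (by decide)
  obtain ⟨⟨b0, Y0⟩, hc0⟩ := genC 0 (by decide)
  obtain ⟨⟨b1, Y1⟩, hc1⟩ := genC 21 (by decide)
  obtain ⟨⟨b2, Y2⟩, hc2⟩ := genC 42 (by decide)
  -- all six representatives have the same flavor
  have e : ∀ (i j : Fin 66) {a b : Flavor h} {X Y : Fin 3}, (f i).gen? = some (a, X) →
      (g j).gen? = some (b, Y) → H i j = true → a = b := by
    intro i j a b X Y hi hj hH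
    have := hv i j
    rw [M_of_gen_gen hi hj, hH] at this
    exact of_decide_eq_true this
  obtain rfl : a0 = b0 := e 0 0 hr0 hc0 (by decide)
  obtain rfl : a0 = b1 := e 0 21 hr0 hc1 (by decide)
  obtain rfl : a0 = b2 := e 0 42 hr0 hc2 (by decide)
  obtain rfl : a1 = a0 := e 21 0 hr1 hc0 (by decide)
  obtain rfl : a2 = a1 := e 42 0 hr2 hc0 (by decide)
  -- the special lines are not generic
  have ngR : ∀ m : Fin 66, 63 ≤ m → (f m).gen? = none := by
    intro m hm
    by_contra hne
    obtain ⟨⟨a, X⟩, hp⟩ := Option.ne_none_iff_exists'.mp hne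
    have v0 := hv m 0
    have v1 := hv m 21
    have v2 := hv m 42
    rw [M_of_gen_gen hp hc0] at v0
    rw [M_of_gen_gen hp hc1] at v1
    rw [M_of_gen_gen hp hc2] at v2
    exact H_spec_row_not_const m hm ⟨v0.symm.trans v1, v1.symm.trans v2⟩
  have ngC : ∀ m : Fin 66, 63 ≤ m → (g m).gen? = none := by
    intro m hm
    by_contra hne
    obtain ⟨⟨a, Y⟩, hp⟩ := Option.ne_none_iff_exists'.mp hne
    have v0 := hv 0 m
    have v1 := hv 21 m
    have v2 := hv 42 m
    rw [M_of_gen_gen hr0 hp] at v0
    rw [M_of_gen_gen hr1 hp] at v1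
    rw [M_of_gen_gen hr2 hp] at v2
    exact H_spec_col_not_const m hm ⟨v0.symm.trans v1, v1.symm.trans v2⟩
  -- roles of the special columns
  have keyC : ∀ (i j : Fin 66) {a : Flavor h} {X : Fin 3}, (f i).gen? = some (a, X) → 63 ≤ j →
      decide (colrole a (g j) = some X) = H i j := by
    intro i j a X hi hj
    rw [← hv i j, M_of_gen_ng hi (ngC j hj)]
  have q65 : colrole a2 (g 65) = some X0 :=
    of_decide_eq_true ((keyC 0 65 hr0 (by decide)).trans (by decide))
  have q64 : colrole a2 (g 64) = some X1 :=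
    of_decide_eq_true ((keyC 21 64 hr1 (by decide)).trans (by decide))
  have q63 : colrole a2 (g 63) = some X2 :=
    of_decide_eq_true ((keyC 42 63 hr2 (by decide)).trans (by decide))
  have n64 : colrole a2 (g 64) ≠ some X0 :=
    of_decide_eq_false ((keyC 0 64 hr0 (by decide)).trans (by decide))
  have n63 : colrole a2 (g 63) ≠ some X0 :=
    of_decide_eq_false ((keyC 0 63 hr0 (by decide)).trans (by decide))
  have n63' : colrole a2 (g 63) ≠ some X1 :=
    of_decide_eq_false ((keyC 21 63 hr1 (by decide)).trans (by decide))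
  obtain ⟨rfl, rfl, rfl⟩ : X0 = 0 ∧ X1 = 1 ∧ X2 = 2 :=
    fin3_sorted _ _ _ (rowClass_le hr0 hr1 (hf.monotone (by decide)))
      (rowClass_le hr1 hr2 (hf.monotone (by decide)))
      (fun hh => n64 (by rw [q64, hh])) (fun hh => n63 (by rw [q63, hh]))
      (fun hh => n63' (by rw [q63, hh]))
  -- roles of the special rows
  have keyR : ∀ (i j : Fin 66) {a : Flavor h} {Y : Fin 3}, (g j).gen? = some (a, Y) → 63 ≤ i →
      decide (rowrole a (f i) = some Y) = H i j := by
    intro i j a Y hj hi
    rw [← hv i j, M_of_ng_gen (ngR i hi) hj]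
  have p65 : rowrole a2 (f 65) = some Y0 :=
    of_decide_eq_true ((keyR 65 0 hc0 (by decide)).trans (by decide))
  have p64 : rowrole a2 (f 64) = some Y1 :=
    of_decide_eq_true ((keyR 64 21 hc1 (by decide)).trans (by decide))
  have p63 : rowrole a2 (f 63) = some Y2 :=
    of_decide_eq_true ((keyR 63 42 hc2 (by decide)).trans (by decide))
  have m64 : rowrole a2 (f 64) ≠ some Y0 :=
    of_decide_eq_false ((keyR 64 0 hc0 (by decide)).trans (by decide))
  have m63 : rowrole a2 (f 63) ≠ some Y0 :=
    of_decide_eq_false ((keyR 63 0 hc0 (by decide)).trans (by decide))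
  have m63' : rowrole a2 (f 63) ≠ some Y1 :=
    of_decide_eq_false ((keyR 63 21 hc1 (by decide)).trans (by decide))
  obtain ⟨rfl, rfl, rfl⟩ : Y0 = 0 ∧ Y1 = 1 ∧ Y2 = 2 :=
    fin3_sorted _ _ _ (colClass_le hc0 hc1 (hg.monotone (by decide)))
      (colClass_le hc1 hc2 (hg.monotone (by decide)))
      (fun hh => m64 (by rw [p64, hh])) (fun hh => m63 (by rw [p63, hh]))
      (fun hh => m63' (by rw [p63, hh]))
  exact classify_typed a2 (f 63) (f 64) (f 65) (g 63) (g 64) (g 65) p63 p64 p65 q63 q64 q65
    (hf (by decide)) (hf (by decide)) (hg (by decide)) (hg (by decide))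
    (by rw [hv]; decide) (by rw [hv]; decide) (by rw [hv]; decide) (by rw [hv]; decide)
    (by rw [hv]; decide)

end Classify

/-! ## The classification -/

/-- Every ordered copy of `H` in the host `M` has its centre `(64, 64)` on a pivot cell. -/
theorem classify (f : Fin 66 → Row h) (g : Fin 66 → Col h) (hc : IsCopy H (M (h := h)) f g) :
    ∃ x : Fin (2 ^ h), f 64 = Row.spec 0 true x ∧ g 64 = Col.piv x := by
  cases hfa : (f 62).gen? with
  | none =>
    cases hgb : (g 62).gen? with
    | none => exact (Classify.classify_case4 f g hc hfa hgb).elim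
    | some q => exact (Classify.classify_case3 f g hc hfa (by rw [hgb]; rfl)).elim
  | some p =>
    cases hgb : (g 62).gen? with
    | none => exact (Classify.classify_case2 f g hc (by rw [hfa]; rfl) hgb).elim
    | some q => exact Classify.classify_case1 f g hc (by rw [hfa]; rfl) (by rw [hgb]; rfl)

end Crest.Agent.S0066
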