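import Crest.Agent.S0066.ChainAux

/-!
# S0066 (row 47): the bottom of the chain (job F4, `on_bottom`)

BotI forces the pivot cell `(R(0,+,y), M_y)` of `B` to be a one; then BotII gives a copy of `H`.
-/

set_option autoImplicit false

namespace Crest.Agent.S0066

variable {h : ℕ}

open ChainAux in
/-- JOB F4: bottom (BotI forces the pivot to 1, then BotII gives a copy). -/
theorem on_bottom (hh : 1 ≤ h) (B : Row h → Col h → Bool) (hB : ∀ f g, ¬ IsCopy H B f g)
    (jr jc : Fin (2 ^ h)) (hTT : TT B jr jc) (y : Fin (2 ^ h))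
    (hON : ON B jr jc ⟨0, by omega⟩ y.val)
    (ar : aliveR B jc (Row.spec 0 true y))
    (ac1 : aliveC B jr (Col.spec ⟨0, by omega⟩ true y))
    (ac3 : aliveC B jr (Col.spec ⟨0, by omega⟩ false y))
    (am : aliveC B jr (Col.piv y)) : False := by
  have hyy : sim (0 : ℕ) y.val y.val := sim_refl 0 y.val
  -- BotI: the pivot cell is a one
  have piv1 : B (Row.spec 0 true y) (Col.piv y) = true := by
    refine plus_true B hB jr jc hTT (.botI) (.thick .dt jr) (.spec 0 true y) (.thick .db jr)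
      (.spec ⟨0, by omega⟩ true y) (.piv y) (.spec ⟨0, by omega⟩ false y)
      (rowrole_botI_dt _) (rowrole_botI_spec _) (rowrole_botI_db _)
      (colrole_botI_spec true y rfl) (colrole_botI_piv _) (colrole_botI_spec false y rfl)
      (aliveR_thick hTT _) ar (aliveR_thick hTT _) ac1 am ac3
      (dt_lt_spec _ _ _ _) (spec_lt_db _ _ _ _) (colOpen_lt_piv y rfl) (piv_lt_colClose y rfl)
      ?_ ?_ ?_ ?_ ?_ ?_ ?_ ?_
    · rw [ac1]; exact M_dt_spec _ _ _ _
    · rw [am]; exact M_dt_piv _ _
    · rw [ac3]; exact M_dt_spec _ _ _ _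
    · exact hON true true y y hyy hyy ar ac1
    · exact hON true false y y hyy hyy ar ac3
    · rw [ac1]; exact M_db_spec _ _ _ _
    · rw [am]; exact M_db_piv _ _
    · rw [ac3]; exact M_db_spec _ _ _ _
  -- BotII: a copy of `H`
  have hzb : B (Row.spec 0 true y) (Col.thick .zb jc) = true := by
    refine plus_true B hB jr jc hTT (.botII) (.thick .dt jr) (.spec 0 true y) (.thick .db jr)
      (.piv y) (.thick .zb jc) (.thick .wb jc)
      (rowrole_botII_dt _) (rowrole_botII_spec _) (rowrole_botII_db _)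
      (colrole_botII_piv _) (colrole_botII_zb _) (colrole_botII_wb _)
      (aliveR_thick hTT _) ar (aliveR_thick hTT _) am (aliveC_thick hTT _) (aliveC_thick hTT _)
      (dt_lt_spec _ _ _ _) (spec_lt_db _ _ _ _) (piv_lt_zb _ _) (zb_lt_wb _ _)
      ?_ ?_ ?_ ?_ ?_ ?_ ?_ ?_
    · rw [am]; exact M_dt_piv _ _
    · rw [hTT]; exact M_dt_zb _ _
    · rw [hTT]; exact M_dt_wb _ _
    · exact piv1
    · rw [ar]; exact M_spec_wb _ _ _ rfl
    · rw [am]; exact M_db_piv _ _
    · rw [hTT]; exact M_db_zb _ _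
    · rw [hTT]; exact M_db_wb _ _
  rw [ar, M_spec_zb] at hzb
  exact Bool.false_ne_true hzb

end Crest.Agent.S0066
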