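import Crest.Agent.S0066.FarDefs

/-!
# S0066 (row 47): a typed "plus" gives an ordered copy of `H`  (job F0, `copy_of_plus`)
-/

set_option autoImplicit false

namespace Crest.Agent.S0066

variable {h : ℕ}

/-- rows of the copy: the 63 pointer twins of flavor `fl` (twin index `jr`), then `p1, w, p2`. -/
def plusRow (fl : Flavor h) (jr : Fin (2 ^ h)) (p1 w p2 : Row h) (i : Fin 66) : Row h :=
  if hi : i.val < 63 then
    .thick (.gen fl ⟨i.val / 21, by omega⟩ ⟨i.val % 21, by omega⟩) jr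
  else if i.val = 63 then p1 else if i.val = 64 then w else p2

/-- columns of the copy: the 63 pointer twins of flavor `fl` (twin index `jc`), then `q1, z, q2`. -/
def plusCol (fl : Flavor h) (jc : Fin (2 ^ h)) (q1 z q2 : Col h) (j : Fin 66) : Col h :=
  if hj : j.val < 63 then
    .thick (.gen fl ⟨j.val / 21, by omega⟩ ⟨j.val % 21, by omega⟩) jc
  else if j.val = 63 then q1 else if j.val = 64 then z else q2

theorem plusRow_lt (fl : Flavor h) (jr : Fin (2 ^ h)) (p1 w p2 : Row h) {i : Fin 66}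
    (hi : i.val < 63) :
    plusRow fl jr p1 w p2 i =
      .thick (.gen fl ⟨i.val / 21, by omega⟩ ⟨i.val % 21, by omega⟩) jr := by
  simp [plusRow, hi]

theorem plusCol_lt (fl : Flavor h) (jc : Fin (2 ^ h)) (q1 z q2 : Col h) {j : Fin 66}
    (hj : j.val < 63) :
    plusCol fl jc q1 z q2 j =
      .thick (.gen fl ⟨j.val / 21, by omega⟩ ⟨j.val % 21, by omega⟩) jc := by
  simp [plusCol, hj]

theorem plusRow_63 (fl : Flavor h) (jr : Fin (2 ^ h)) (p1 w p2 : Row h) {i : Fin 66}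
    (hi : i.val = 63) : plusRow fl jr p1 w p2 i = p1 := by
  simp [plusRow, hi]

theorem plusRow_64 (fl : Flavor h) (jr : Fin (2 ^ h)) (p1 w p2 : Row h) {i : Fin 66}
    (hi : i.val = 64) : plusRow fl jr p1 w p2 i = w := by
  simp [plusRow, hi]

theorem plusRow_65 (fl : Flavor h) (jr : Fin (2 ^ h)) (p1 w p2 : Row h) {i : Fin 66}
    (hi : i.val = 65) : plusRow fl jr p1 w p2 i = p2 := by
  simp [plusRow, hi]

theorem plusCol_63 (fl : Flavor h) (jc : Fin (2 ^ h)) (q1 z q2 : Col h) {j : Fin 66}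
    (hj : j.val = 63) : plusCol fl jc q1 z q2 j = q1 := by
  simp [plusCol, hj]

theorem plusCol_64 (fl : Flavor h) (jc : Fin (2 ^ h)) (q1 z q2 : Col h) {j : Fin 66}
    (hj : j.val = 64) : plusCol fl jc q1 z q2 j = z := by
  simp [plusCol, hj]

theorem plusCol_65 (fl : Flavor h) (jc : Fin (2 ^ h)) (q1 z q2 : Col h) {j : Fin 66}
    (hj : j.val = 65) : plusCol fl jc q1 z q2 j = q2 := by
  simp [plusCol, hj]

theorem plusRow_strictMono (fl : Flavor h) (jr : Fin (2 ^ h)) (p1 w p2 : Row h)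
    (hp1 : p1.gen? = none) (hr1 : p1 < w) (hr2 : w < p2) :
    StrictMono (plusRow fl jr p1 w p2) := by
  have hw : w.gen? = none := Row.ng_of_le (le_of_lt hr1) hp1
  have hp2 : p2.gen? = none := Row.ng_of_le (le_of_lt hr2) hw
  intro i j hij
  have hij' : i.val < j.val := hij
  by_cases hi : i.val < 63
  · by_cases hj : j.val < 63
    · rw [plusRow_lt _ _ _ _ _ hi, plusRow_lt _ _ _ _ _ hj, Row.lt_iff]
      simp only [Row.key, mkKey_lt_iff]
      have key : i.val / 21 < j.val / 21 ∨ (i.val / 21 = j.val / 21 ∧ i.val % 21 < j.val % 21) := by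
        omega
      rcases key with key | ⟨key1, key2⟩
      · exact Or.inr ⟨trivial, Or.inr ⟨trivial, Or.inl key⟩⟩
      · exact Or.inr ⟨trivial, Or.inr ⟨trivial, Or.inr ⟨key1, Or.inl key2⟩⟩⟩
    · rw [plusRow_lt _ _ _ _ _ hi]
      apply Row.lt_of_gen_of_ng (by simp)
      have hj3 : j.val = 63 ∨ j.val = 64 ∨ j.val = 65 := by have := j.isLt; omega
      rcases hj3 with hj3 | hj3 | hj3
      · rw [plusRow_63 _ _ _ _ _ hj3]; exact hp1
      · rw [plusRow_64 _ _ _ _ _ hj3]; exact hw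
      · rw [plusRow_65 _ _ _ _ _ hj3]; exact hp2
  · have hi3 : i.val = 63 ∨ i.val = 64 := by have := j.isLt; omega
    rcases hi3 with hi3 | hi3
    · have hj3 : j.val = 64 ∨ j.val = 65 := by have := j.isLt; omega
      rcases hj3 with hj3 | hj3
      · rw [plusRow_63 _ _ _ _ _ hi3, plusRow_64 _ _ _ _ _ hj3]; exact hr1
      · rw [plusRow_63 _ _ _ _ _ hi3, plusRow_65 _ _ _ _ _ hj3]; exact hr1.trans hr2
    · have hj3 : j.val = 65 := by have := j.isLt; omega
      rw [plusRow_64 _ _ _ _ _ hi3, plusRow_65 _ _ _ _ _ hj3]; exact hr2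

theorem plusCol_strictMono (fl : Flavor h) (jc : Fin (2 ^ h)) (q1 z q2 : Col h)
    (hq1 : q1.gen? = none) (hc1 : q1 < z) (hc2 : z < q2) :
    StrictMono (plusCol fl jc q1 z q2) := by
  have hz : z.gen? = none := Col.ng_of_le (le_of_lt hc1) hq1
  have hq2 : q2.gen? = none := Col.ng_of_le (le_of_lt hc2) hz
  intro i j hij
  have hij' : i.val < j.val := hij
  by_cases hi : i.val < 63
  · by_cases hj : j.val < 63
    · rw [plusCol_lt _ _ _ _ _ hi, plusCol_lt _ _ _ _ _ hj, Col.lt_iff]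
      simp only [Col.key, mkKey_lt_iff]
      have key : i.val / 21 < j.val / 21 ∨ (i.val / 21 = j.val / 21 ∧ i.val % 21 < j.val % 21) := by
        omega
      rcases key with key | ⟨key1, key2⟩
      · exact Or.inr ⟨trivial, Or.inr ⟨trivial, Or.inl key⟩⟩
      · exact Or.inr ⟨trivial, Or.inr ⟨trivial, Or.inr ⟨key1, Or.inl key2⟩⟩⟩
    · rw [plusCol_lt _ _ _ _ _ hi]
      apply Col.lt_of_gen_of_ng (by simp)
      have hj3 : j.val = 63 ∨ j.val = 64 ∨ j.val = 65 := by have := j.isLt; omega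
      rcases hj3 with hj3 | hj3 | hj3
      · rw [plusCol_63 _ _ _ _ _ hj3]; exact hq1
      · rw [plusCol_64 _ _ _ _ _ hj3]; exact hz
      · rw [plusCol_65 _ _ _ _ _ hj3]; exact hq2
  · have hi3 : i.val = 63 ∨ i.val = 64 := by have := j.isLt; omega
    rcases hi3 with hi3 | hi3
    · have hj3 : j.val = 64 ∨ j.val = 65 := by have := j.isLt; omega
      rcases hj3 with hj3 | hj3
      · rw [plusCol_63 _ _ _ _ _ hi3, plusCol_64 _ _ _ _ _ hj3]; exact hc1
      · rw [plusCol_63 _ _ _ _ _ hi3, plusCol_65 _ _ _ _ _ hj3]; exact hc1.trans hc2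
    · have hj3 : j.val = 65 := by have := j.isLt; omega
      rw [plusCol_64 _ _ _ _ _ hi3, plusCol_65 _ _ _ _ _ hj3]; exact hc2

theorem dec_fin3 (a : ℕ) (ha : a < 3) (m : ℕ) (hm : m < 3) :
    decide ((⟨a, ha⟩ : Fin 3) = ⟨m, hm⟩) = decide (a = m) := by
  simp [Fin.ext_iff]

/-- JOB F0: a typed "plus" gives an ordered copy of `H`. -/
theorem copy_of_plus (B : Row h → Col h → Bool) (jr jc : Fin (2 ^ h)) (fl : Flavor h)
    (p1 w p2 : Row h) (q1 z q2 : Col h)
    (hp1 : p1.gen? = none) (hq1 : q1.gen? = none)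
    (hr1 : p1 < w) (hr2 : w < p2) (hc1 : q1 < z) (hc2 : z < q2)
    (hgg : ∀ X k Y k', B (.thick (.gen fl X k) jr) (.thick (.gen fl Y k') jc) = true)
    (hp1g : ∀ Y k, B p1 (.thick (.gen fl Y k) jc) = decide (Y = 2))
    (hwg : ∀ Y k, B w (.thick (.gen fl Y k) jc) = decide (Y = 1))
    (hp2g : ∀ Y k, B p2 (.thick (.gen fl Y k) jc) = decide (Y = 0))
    (hq1g : ∀ X k, B (.thick (.gen fl X k) jr) q1 = decide (X = 2))
    (hzg : ∀ X k, B (.thick (.gen fl X k) jr) z = decide (X = 1))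
    (hq2g : ∀ X k, B (.thick (.gen fl X k) jr) q2 = decide (X = 0))
    (h11 : B p1 q1 = true) (h12 : B p1 z = true) (h13 : B p1 q2 = true)
    (h21 : B w q1 = true) (h22 : B w z = false) (h23 : B w q2 = true)
    (h31 : B p2 q1 = true) (h32 : B p2 z = true) (h33 : B p2 q2 = true) :
    ∃ f g, IsCopy H B f g := by
  refine ⟨plusRow fl jr p1 w p2, plusCol fl jc q1 z q2,
    plusRow_strictMono fl jr p1 w p2 hp1 hr1 hr2,
    plusCol_strictMono fl jc q1 z q2 hq1 hc1 hc2, ?_⟩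
  intro i j
  have e2 : (2 : Fin 3) = ⟨2, by omega⟩ := rfl
  have e1 : (1 : Fin 3) = ⟨1, by omega⟩ := rfl
  have e0 : (0 : Fin 3) = ⟨0, by omega⟩ := rfl
  by_cases hi : i.val < 63
  · by_cases hj : j.val < 63
    · rw [plusRow_lt _ _ _ _ _ hi, plusCol_lt _ _ _ _ _ hj, H_gen_gen hi hj]
      exact hgg _ _ _ _
    · have hj3 : j.val = 63 ∨ j.val = 64 ∨ j.val = 65 := by have := j.isLt; omega
      rw [plusRow_lt _ _ _ _ _ hi, H_gen_spec hi (by omega)]
      rcases hj3 with hj3 | hj3 | hj3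
      · rw [plusCol_63 _ _ _ _ _ hj3, hq1g, e2, dec_fin3, hj3]
        congr 1; apply propext; omega
      · rw [plusCol_64 _ _ _ _ _ hj3, hzg, e1, dec_fin3, hj3]
        congr 1; apply propext; omega
      · rw [plusCol_65 _ _ _ _ _ hj3, hq2g, e0, dec_fin3, hj3]
        congr 1; apply propext; omega
  · have hi3 : i.val = 63 ∨ i.val = 64 ∨ i.val = 65 := by have := i.isLt; omega
    by_cases hj : j.val < 63
    · rw [plusCol_lt _ _ _ _ _ hj, H_spec_gen (by omega) hj]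
      rcases hi3 with hi3 | hi3 | hi3
      · rw [plusRow_63 _ _ _ _ _ hi3, hp1g, e2, dec_fin3, hi3]
        congr 1; apply propext; omega
      · rw [plusRow_64 _ _ _ _ _ hi3, hwg, e1, dec_fin3, hi3]
        congr 1; apply propext; omega
      · rw [plusRow_65 _ _ _ _ _ hi3, hp2g, e0, dec_fin3, hi3]
        congr 1; apply propext; omega
    · have hj3 : j.val = 63 ∨ j.val = 64 ∨ j.val = 65 := by have := j.isLt; omega
      rw [H_spec_spec (by omega) (by omega)]
      rcases hi3 with hi3 | hi3 | hi3 <;> rcases hj3 with hj3 | hj3 | hj3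
      · rw [plusRow_63 _ _ _ _ _ hi3, plusCol_63 _ _ _ _ _ hj3, h11]; simp [hi3, hj3]
      · rw [plusRow_63 _ _ _ _ _ hi3, plusCol_64 _ _ _ _ _ hj3, h12]; simp [hi3, hj3]
      · rw [plusRow_63 _ _ _ _ _ hi3, plusCol_65 _ _ _ _ _ hj3, h13]; simp [hi3, hj3]
      · rw [plusRow_64 _ _ _ _ _ hi3, plusCol_63 _ _ _ _ _ hj3, h21]; simp [hi3, hj3]
      · rw [plusRow_64 _ _ _ _ _ hi3, plusCol_64 _ _ _ _ _ hj3, h22]; simp [hi3, hj3]
      · rw [plusRow_64 _ _ _ _ _ hi3, plusCol_65 _ _ _ _ _ hj3, h23]; simp [hi3, hj3]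
      · rw [plusRow_65 _ _ _ _ _ hi3, plusCol_63 _ _ _ _ _ hj3, h31]; simp [hi3, hj3]
      · rw [plusRow_65 _ _ _ _ _ hi3, plusCol_64 _ _ _ _ _ hj3, h32]; simp [hi3, hj3]
      · rw [plusRow_65 _ _ _ _ _ hi3, plusCol_65 _ _ _ _ _ hj3, h33]; simp [hi3, hj3]

end Crest.Agent.S0066
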