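import Crest.Agent.S0066.Defs

/-!
# S0066 (row 47): arithmetic of dyadic nodes and bracket keys

Pure `ℕ` lemmas about `sim`, `bitAt`, `nstart`, `nstop` and the bracket keys `specKey`.
-/

set_option autoImplicit false

namespace Crest.Agent.S0066

/-! ## nodes -/

theorem nstart_le (t x : ℕ) : nstart t x ≤ x := by
  unfold nstart
  exact Nat.div_mul_le_self x (2 ^ t)

theorem le_nstop (t x : ℕ) : x ≤ nstop t x := by
  unfold nstop
  have hpos : 0 < 2 ^ t := Nat.pos_of_ne_zero (by positivity)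
  have h1 := Nat.div_add_mod x (2 ^ t)
  have h2 := Nat.mod_lt x hpos
  have h3 : 2 ^ t * (x / 2 ^ t) = x / 2 ^ t * 2 ^ t := Nat.mul_comm _ _
  omega

theorem nstop_eq (t x : ℕ) : nstop t x = nstart t x + (2 ^ t - 1) := rfl

theorem nstart_le_nstop (t x : ℕ) : nstart t x ≤ nstop t x :=
  (nstart_le t x).trans (le_nstop t x)

theorem sim_refl (t x : ℕ) : sim t x x := rfl

theorem sim_symm {t x c : ℕ} (hs : sim t x c) : sim t c x := Eq.symm hs

theorem sim_comm {t x c : ℕ} : sim t x c ↔ sim t c x := ⟨sim_symm, sim_symm⟩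

theorem sim_trans {t x y z : ℕ} (h1 : sim t x y) (h2 : sim t y z) : sim t x z := Eq.trans h1 h2

theorem sim_zero {x c : ℕ} : sim 0 x c ↔ x = c := by
  simp [sim]

theorem sim_of_lt {t x c : ℕ} (hx : x < 2 ^ t) (hc : c < 2 ^ t) : sim t x c := by
  unfold sim
  rw [Nat.div_eq_of_lt hx, Nat.div_eq_of_lt hc]

theorem sim_succ {t x c : ℕ} (hs : sim t x c) : sim (t + 1) x c := by
  unfold sim at hs ⊢
  rw [pow_succ, ← Nat.div_div_eq_div_mul, ← Nat.div_div_eq_div_mul, hs]

theorem sim_mono {t t' x c : ℕ} (htt : t ≤ t') (hs : sim t x c) : sim t' x c := by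
  induction htt with
  | refl => exact hs
  | step _ ih => exact sim_succ ih

theorem sim_iff_nstart {t x c : ℕ} : sim t x c ↔ nstart t x = nstart t c := by
  unfold sim nstart
  have hpos : 0 < 2 ^ t := Nat.pos_of_ne_zero (by positivity)
  constructor
  · intro hs; rw [hs]
  · intro hs; exact Nat.eq_of_mul_eq_mul_right hpos hs

theorem sim.nstart_eq {t x c : ℕ} (hs : sim t x c) : nstart t x = nstart t c :=
  sim_iff_nstart.1 hs

theorem sim.nstop_eq {t x c : ℕ} (hs : sim t x c) : nstop t x = nstop t c := by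
  show nstart t x + (2 ^ t - 1) = nstart t c + (2 ^ t - 1)
  rw [hs.nstart_eq]

theorem sim_iff_nstop {t x c : ℕ} : sim t x c ↔ nstop t x = nstop t c := by
  constructor
  · exact sim.nstop_eq
  · intro hs
    have hs' : nstart t x + (2 ^ t - 1) = nstart t c + (2 ^ t - 1) := hs
    exact sim_iff_nstart.2 (by omega)

/-- a point of the node of `x` is `sim` to `x`. -/
theorem sim_of_mem {t x p : ℕ} (h1 : nstart t x ≤ p) (h2 : p ≤ nstop t x) : sim t x p := by
  unfold nstart at h1
  unfold nstop at h2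
  unfold sim
  have hpos : 0 < 2 ^ t := Nat.pos_of_ne_zero (by positivity)
  have h3 : p < (x / 2 ^ t + 1) * 2 ^ t := by
    rw [Nat.add_mul, Nat.one_mul]; omega
  have h4 : x / 2 ^ t ≤ p / 2 ^ t := (Nat.le_div_iff_mul_le hpos).2 h1
  have h5 : p / 2 ^ t < x / 2 ^ t + 1 := (Nat.div_lt_iff_lt_mul hpos).2 h3
  omega

theorem sim_nstart (t x : ℕ) : sim t x (nstart t x) :=
  sim_of_mem le_rfl (nstart_le_nstop t x)

theorem sim_nstop (t x : ℕ) : sim t x (nstop t x) :=
  sim_of_mem (nstart_le_nstop t x) le_rfl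

/-- membership in the node, from `sim`. -/
theorem sim.mem {t x c : ℕ} (hs : sim t x c) : nstart t x ≤ c ∧ c ≤ nstop t x := by
  rw [hs.nstart_eq, hs.nstop_eq]
  exact ⟨nstart_le t c, le_nstop t c⟩

/-- nodes are nested: a lower-level node of a `sim`-equivalent leaf lies inside. -/
theorem sim.nstart_le_nstart {t t' x c : ℕ} (htt : t' ≤ t) (hs : sim t x c) :
    nstart t x ≤ nstart t' c := by
  have h1 : sim t c (nstart t' c) := sim_mono htt (sim_nstart t' c)
  exact ((sim_trans hs h1).mem).1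

theorem sim.nstop_le_nstop {t t' x c : ℕ} (htt : t' ≤ t) (hs : sim t x c) :
    nstop t' c ≤ nstop t x := by
  have h1 : sim t c (nstop t' c) := sim_mono htt (sim_nstop t' c)
  exact ((sim_trans hs h1).mem).2

/-- SANDWICH: if a point `p` of the level-`t'` node of `c` lies in the level-`t` node of `x`
and `t' ≤ t`, then `c` is in the level-`t` node of `x`. -/
theorem sim_of_between {t t' x c p : ℕ} (htt : t' ≤ t)
    (h1 : nstart t x ≤ p) (h2 : p ≤ nstop t x) (h3 : nstart t' c ≤ p) (h4 : p ≤ nstop t' c) :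
    sim t x c :=
  sim_trans (sim_of_mem h1 h2) (sim_symm (sim_mono htt (sim_of_mem h3 h4)))

/-! ## bits -/

theorem bitAt_eq_of_sim {t t' x c : ℕ} (htt : t ≤ t') (hs : sim t x c) :
    bitAt x t' = bitAt c t' := by
  have h1 : sim t' x c := sim_mono htt hs
  unfold bitAt
  unfold sim at h1
  rw [h1]

/-- refinement: same level-`(t+1)` node and same bit `t` gives the same level-`t` node. -/
theorem sim_of_sim_succ_of_bitAt {t x c : ℕ} (hs : sim (t + 1) x c)
    (hb : bitAt x t = bitAt c t) : sim t x c := by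
  unfold sim at hs ⊢
  unfold bitAt at hb
  rw [pow_succ, ← Nat.div_div_eq_div_mul, ← Nat.div_div_eq_div_mul] at hs
  have hx := Nat.div_add_mod (x / 2 ^ t) 2
  have hc := Nat.div_add_mod (c / 2 ^ t) 2
  have hx2 := Nat.mod_lt (x / 2 ^ t) (by norm_num : 0 < 2)
  have hc2 := Nat.mod_lt (c / 2 ^ t) (by norm_num : 0 < 2)
  have hb' : (x / 2 ^ t % 2 = 1) ↔ (c / 2 ^ t % 2 = 1) := by
    simpa using hb
  omega

theorem sim_succ_iff {t x c : ℕ} :
    sim t x c ↔ sim (t + 1) x c ∧ bitAt x t = bitAt c t :=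
  ⟨fun hs => ⟨sim_succ hs, bitAt_eq_of_sim le_rfl hs⟩,
   fun hs => sim_of_sim_succ_of_bitAt hs.1 hs.2⟩

/-! ## bracket keys -/

theorem specKey_true (h z t x : ℕ) : specKey h z t true x = mkKey z (nstart t x) 0 (h - t) x := by
  simp [specKey]

theorem specKey_false (h z t x : ℕ) : specKey h z t false x = mkKey z (nstop t x) 2 t x := by
  simp [specKey]

/-- the second coordinate ("position") of a bracket key. -/
def specPos (t : ℕ) (s : Bool) (x : ℕ) : ℕ := if s then nstart t x else nstop t x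

theorem specPos_mem (t : ℕ) (s : Bool) (x : ℕ) :
    nstart t x ≤ specPos t s x ∧ specPos t s x ≤ nstop t x := by
  cases s
  · exact ⟨nstart_le_nstop t x, le_rfl⟩
  · exact ⟨le_rfl, nstart_le_nstop t x⟩

/-- an opening bracket of an outer node precedes every bracket of an inner node. -/
theorem specKey_open_lt {h z t t' : ℕ} {s' : Bool} {x c : ℕ} (ht : t ≤ h) (htt : t' < t)
    (hs : sim t x c) : specKey h z t true x < specKey h z t' s' c := by
  have h1 := hs.nstart_le_nstart (le_of_lt htt)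
  have h2 := nstart_le_nstop t' c
  cases s'
  · rw [specKey_true, specKey_false, mkKey_lt_iff]
    rcases Nat.lt_or_ge (nstart t x) (nstop t' c) with h3 | h3
    · exact Or.inr ⟨rfl, Or.inl h3⟩
    · exact Or.inr ⟨rfl, Or.inr ⟨by omega, Or.inl (by norm_num)⟩⟩
  · rw [specKey_true, specKey_true, mkKey_lt_iff]
    rcases Nat.lt_or_ge (nstart t x) (nstart t' c) with h3 | h3
    · exact Or.inr ⟨rfl, Or.inl h3⟩
    · exact Or.inr ⟨rfl, Or.inr ⟨by omega, Or.inr ⟨rfl, Or.inl (by omega)⟩⟩⟩

/-- every bracket of an inner node precedes the closing bracket of an outer node. -/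
theorem specKey_lt_close {h z t t' : ℕ} {s' : Bool} {x c : ℕ} (htt : t' < t)
    (hs : sim t x c) : specKey h z t' s' c < specKey h z t false x := by
  have h1 := hs.nstop_le_nstop (le_of_lt htt)
  have h2 := nstart_le_nstop t' c
  cases s'
  · rw [specKey_false, specKey_false, mkKey_lt_iff]
    rcases Nat.lt_or_ge (nstop t' c) (nstop t x) with h3 | h3
    · exact Or.inr ⟨rfl, Or.inl h3⟩
    · exact Or.inr ⟨rfl, Or.inr ⟨by omega, Or.inr ⟨rfl, Or.inl htt⟩⟩⟩
  · rw [specKey_true, specKey_false, mkKey_lt_iff]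
    rcases Nat.lt_or_ge (nstart t' c) (nstop t x) with h3 | h3
    · exact Or.inr ⟨rfl, Or.inl h3⟩
    · exact Or.inr ⟨rfl, Or.inr ⟨by omega, Or.inl (by norm_num)⟩⟩

/-- the opening bracket of a node precedes its closing bracket (same level). -/
theorem specKey_open_lt_close {h z t : ℕ} {x c : ℕ} (hs : sim t x c) :
    specKey h z t true x < specKey h z t false c := by
  rw [specKey_true, specKey_false, mkKey_lt_iff]
  have h1 := nstart_le_nstop t x
  rw [hs.nstop_eq] at h1
  rcases Nat.lt_or_ge (nstart t x) (nstop t c) with h3 | h3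
  · exact Or.inr ⟨rfl, Or.inl h3⟩
  · exact Or.inr ⟨rfl, Or.inr ⟨by omega, Or.inl (by norm_num)⟩⟩

/-- position of a key strictly after an opening bracket (same zone): at least the node start. -/
theorem nstart_le_of_specKey_true_lt {h z t x p q r u : ℕ}
    (hlt : specKey h z t true x < mkKey z p q r u) : nstart t x ≤ p := by
  rw [specKey_true, mkKey_lt_iff] at hlt
  rcases hlt with h1 | ⟨_, h1 | ⟨h1, _⟩⟩
  · exact absurd h1 (lt_irrefl _)
  · exact le_of_lt h1
  · exact le_of_eq h1

/-- position of a key strictly before a closing bracket (same zone): at most the node stop. -/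
theorem le_nstop_of_lt_specKey_false {h z t x p q r u : ℕ}
    (hlt : mkKey z p q r u < specKey h z t false x) : p ≤ nstop t x := by
  rw [specKey_false, mkKey_lt_iff] at hlt
  rcases hlt with h1 | ⟨_, h1 | ⟨h1, _⟩⟩
  · exact absurd h1 (lt_irrefl _)
  · exact le_of_lt h1
  · exact le_of_eq h1

theorem specKey_eq_mkKey (h z t : ℕ) (s : Bool) (x : ℕ) :
    ∃ q r, specKey h z t s x = mkKey z (specPos t s x) q r x := by
  cases s
  · exact ⟨2, t, by rw [specKey_false]; rfl⟩
  · exact ⟨0, h - t, by rw [specKey_true]; rfl⟩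

/-- SANDWICH for brackets: a bracket of a level-`t'` node (`t' ≤ t`) lying between the opening
bracket of the level-`t` node of `x₁` and the closing bracket of the level-`t` node of `x₃`,
where `x₁` and `x₃` are in the same level-`t` node, belongs to that node. -/
theorem sim_of_specKey_between {h z t t' : ℕ} {s' : Bool} {x₁ x₃ c : ℕ} (htt : t' ≤ t)
    (h13 : sim t x₁ x₃)
    (h1 : specKey h z t true x₁ < specKey h z t' s' c)
    (h2 : specKey h z t' s' c < specKey h z t false x₃) : sim t x₁ c := by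
  obtain ⟨q, r, hk⟩ := specKey_eq_mkKey h z t' s' c
  rw [hk] at h1 h2
  have h3 := nstart_le_of_specKey_true_lt h1
  have h4 := le_nstop_of_lt_specKey_false h2
  rw [← h13.nstop_eq] at h4
  exact sim_of_between htt h3 h4 (specPos_mem t' s' c).1 (specPos_mem t' s' c).2

/-- SANDWICH for the pivot key `(z, c, 1, 0, 0)` between the two level-0 brackets of `x₁`, `x₃`. -/
theorem eq_of_pivot_between {h z : ℕ} {x₁ x₃ c : ℕ} (h13 : x₁ = x₃)
    (h1 : specKey h z 0 true x₁ < mkKey z c 1 0 0)
    (h2 : mkKey z c 1 0 0 < specKey h z 0 false x₃) : c = x₁ := by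
  have h3 := nstart_le_of_specKey_true_lt h1
  have h4 := le_nstop_of_lt_specKey_false h2
  subst h13
  have h5 : nstart 0 x₁ = x₁ := by simp [nstart]
  have h6 : nstop 0 x₁ = x₁ := by simp [nstop]
  omega

/-- the pivot key of `x` lies between the two level-0 brackets of `x`. -/
theorem pivot_between (h z x : ℕ) :
    specKey h z 0 true x < mkKey z x 1 0 0 ∧ mkKey z x 1 0 0 < specKey h z 0 false x := by
  rw [specKey_true, specKey_false, mkKey_lt_iff, mkKey_lt_iff]
  have h5 : nstart 0 x = x := by simp [nstart]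
  have h6 : nstop 0 x = x := by simp [nstop]
  rw [h5, h6]
  exact ⟨Or.inr ⟨rfl, Or.inr ⟨rfl, Or.inl (by norm_num)⟩⟩,
         Or.inr ⟨rfl, Or.inr ⟨rfl, Or.inl (by norm_num)⟩⟩⟩

end Crest.Agent.S0066
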