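import Crest.Agent.S0066.FarDefs
import Crest.Agent.S0066.NodeArith
import Crest.Agent.S0066.CopyPlus

/-!
# S0066 (row 47), job F3: the general step of the chain

`ON` at level `s` plus alive arms at level `s` give `ON` at level `s - 1`:
first a `Hor(s,b)` copy (flavor `hor ⟨s-1⟩ b`, dummy rows `DT`, `DB`, arm columns `C(s,+,c1)`,
`C(s,-,c3)`), then a `Ver(s-1,b)` copy (flavor `ver ⟨s-1⟩ b`, arm rows `R(s,+,x1)`, `R(s,-,x3)`,
dummy columns `DL`, `DR`), where `b` is bit `s-1` of the leaf `y`.
-/

set_option autoImplicit false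

namespace Crest.Agent.S0066

namespace ChainStep

variable {h : ℕ}

theorem dec_some (a Y : Fin 3) :
    decide ((some a : Option (Fin 3)) = some Y) = decide (Y = a) :=
  decide_eq_decide.2 ⟨fun e => (Option.some.inj e).symm, fun e => by rw [e]⟩

theorem dt_lt_spec (j : Fin (2 ^ h)) (t : Fin (h + 1)) (σ : Bool) (x : Fin (2 ^ h)) :
    Row.thick ThR.dt j < Row.spec t σ x := by
  rw [Row.lt_iff]
  cases σ <;> simp [Row.key, specKey, mkKey_lt_iff]

theorem spec_lt_db (j : Fin (2 ^ h)) (t : Fin (h + 1)) (σ : Bool) (x : Fin (2 ^ h)) :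
    Row.spec t σ x < Row.thick ThR.db j := by
  rw [Row.lt_iff]
  cases σ <;> simp [Row.key, specKey, mkKey_lt_iff]

theorem dl_lt_spec (j : Fin (2 ^ h)) (t : Fin h) (τ : Bool) (c : Fin (2 ^ h)) :
    Col.thick ThC.dl j < Col.spec t τ c := by
  rw [Col.lt_iff]
  cases τ <;> simp [Col.key, specKey, mkKey_lt_iff]

theorem spec_lt_dr (j : Fin (2 ^ h)) (t : Fin h) (τ : Bool) (c : Fin (2 ^ h)) :
    Col.spec t τ c < Col.thick ThC.dr j := by
  rw [Col.lt_iff]
  cases τ <;> simp [Col.key, specKey, mkKey_lt_iff]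

/-- an outer opening row bracket precedes every inner row bracket. -/
theorem rowOpen_lt {t t' : Fin (h + 1)} (htt : t'.val < t.val) (σ : Bool) {x c : Fin (2 ^ h)}
    (hs : sim t.val x.val c.val) : Row.spec t true x < Row.spec t' σ c := by
  rw [Row.lt_iff]
  exact specKey_open_lt (by have := t.isLt; omega) htt hs

theorem row_lt_close {t t' : Fin (h + 1)} (htt : t'.val < t.val) (σ : Bool) {x c : Fin (2 ^ h)}
    (hs : sim t.val x.val c.val) : Row.spec t' σ c < Row.spec t false x := by
  rw [Row.lt_iff]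
  exact specKey_lt_close htt hs

theorem colOpen_lt {t t' : Fin h} (htt : t'.val < t.val) (τ : Bool) {x c : Fin (2 ^ h)}
    (hs : sim t.val x.val c.val) : Col.spec t true x < Col.spec t' τ c := by
  rw [Col.lt_iff]
  exact specKey_open_lt (by have := t.isLt; omega) htt hs

theorem col_lt_close {t t' : Fin h} (htt : t'.val < t.val) (τ : Bool) {x c : Fin (2 ^ h)}
    (hs : sim t.val x.val c.val) : Col.spec t' τ c < Col.spec t false x := by
  rw [Col.lt_iff]
  exact specKey_lt_close htt hs

end ChainStep

open ChainStep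

variable {h : ℕ}

/-- JOB F3: general step (Hor(s,b) then Ver(s-1,b)). -/
theorem on_step (B : Row h → Col h → Bool) (hB : ∀ f g, ¬ IsCopy H B f g)
    (jr jc : Fin (2 ^ h)) (hTT : TT B jr jc) (s : Fin h) (hs : 1 ≤ s.val) (y : Fin (2 ^ h))
    (hON : ON B jr jc s y.val) (c1 c3 x1 x3 : Fin (2 ^ h))
    (hc1 : sim (s.val - 1) c1.val y.val) (hc3 : sim (s.val - 1) c3.val y.val)
    (hx1 : sim (s.val - 1) x1.val y.val) (hx3 : sim (s.val - 1) x3.val y.val)
    (ac1 : aliveC B jr (Col.spec s true c1)) (ac3 : aliveC B jr (Col.spec s false c3))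
    (ax1 : aliveR B jc (Row.spec s.castSucc true x1))
    (ax3 : aliveR B jc (Row.spec s.castSucc false x3)) :
    ON B jr jc ⟨s.val - 1, by omega⟩ y.val := by
  -- notation
  have hsh : s.val - 1 < h := by have := s.isLt; omega
  set s' : Fin h := ⟨s.val - 1, hsh⟩ with hs'
  have hs'v : s'.val = s.val - 1 := rfl
  have hsv : s.val = s'.val + 1 := by rw [hs'v]; omega
  set b : Bool := bitAt y.val s'.val with hb
  have hlev : ∀ {a c : ℕ}, sim (s.val - 1) a c → sim s.val a c := fun hac =>
    sim_mono (Nat.sub_le _ _) hac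
  have hbit : ∀ {a : ℕ}, sim (s.val - 1) a y.val → bitAt a s'.val = b := fun ha =>
    bitAt_eq_of_sim (le_refl _) ha
  -- Step 1: Hor(s,b)
  have hor : ∀ (σ τ : Bool) (x c : Fin (2 ^ h)), sim (s.val - 1) x.val y.val →
      sim (s.val - 1) c.val y.val → aliveR B jc (Row.spec s.castSucc σ x) →
      aliveC B jr (Col.spec s' τ c) → B (Row.spec s.castSucc σ x) (Col.spec s' τ c) = true := by
    intro σ τ x c hx hc ar ac
    by_contra hne
    have h22 : B (Row.spec s.castSucc σ x) (Col.spec s' τ c) = false := by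
      simpa using hne
    obtain ⟨f, g, hcopy⟩ := copy_of_plus B jr jc (Flavor.hor s' b)
      (Row.thick ThR.dt jr) (Row.spec s.castSucc σ x) (Row.thick ThR.db jr)
      (Col.spec s true c1) (Col.spec s' τ c) (Col.spec s false c3)
      rfl rfl
      (dt_lt_spec _ _ _ _) (spec_lt_db _ _ _ _)
      (colOpen_lt (t := s) (t' := s') (by rw [hs'v]; omega) τ
        (hlev (sim_trans hc1 (sim_symm hc))))
      (col_lt_close (t := s) (t' := s') (by rw [hs'v]; omega) τ
        (hlev (sim_trans hc3 (sim_symm hc))))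
      (fun X k Y k' => (hTT (.gen _ X k) (.gen _ Y k')).trans (by rw [M_gen_gen]; simp))
      (fun Y k => (hTT .dt (.gen _ Y k)).trans (by rw [M_ng_gen rfl]; exact dec_some 2 Y))
      (fun Y k => (ar (.gen _ Y k)).trans (by
        rw [M_ng_gen rfl]
        have : rowrole (Flavor.hor s' b) (Row.spec s.castSucc σ x) = some 1 := by
          show (if (s.castSucc).val = s'.val + 1 ∧ bitAt x.val s'.val = b then some 1 else none)
            = some 1
          rw [if_pos ⟨hsv, hbit hx⟩]
        rw [this]; exact dec_some 1 Y))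
      (fun Y k => (hTT .db (.gen _ Y k)).trans (by rw [M_ng_gen rfl]; exact dec_some 0 Y))
      (fun X k => (ac1 (.gen _ X k)).trans (by
        rw [M_gen_ng _ _ _ _ rfl]
        have : colrole (Flavor.hor s' b) (Col.spec s true c1) = some 2 := by
          show (if s.val = s'.val + 1 ∧ bitAt c1.val s'.val = b then some (if true then 2 else 0)
            else if s.val = s'.val ∧ bitAt c1.val s'.val = b then some 1 else none) = some 2
          rw [if_pos ⟨hsv, hbit hc1⟩]; rfl
        rw [this]; exact dec_some 2 X))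
      (fun X k => (ac (.gen _ X k)).trans (by
        rw [M_gen_ng _ _ _ _ rfl]
        have : colrole (Flavor.hor s' b) (Col.spec s' τ c) = some 1 := by
          show (if s'.val = s'.val + 1 ∧ bitAt c.val s'.val = b then some (if τ then 2 else 0)
            else if s'.val = s'.val ∧ bitAt c.val s'.val = b then some 1 else none) = some 1
          rw [if_neg (by omega), if_pos ⟨rfl, hbit hc⟩]
        rw [this]; exact dec_some 1 X))
      (fun X k => (ac3 (.gen _ X k)).trans (by
        rw [M_gen_ng _ _ _ _ rfl]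
        have : colrole (Flavor.hor s' b) (Col.spec s false c3) = some 0 := by
          show (if s.val = s'.val + 1 ∧ bitAt c3.val s'.val = b then some (if false then 2 else 0)
            else if s.val = s'.val ∧ bitAt c3.val s'.val = b then some 1 else none) = some 0
          rw [if_pos ⟨hsv, hbit hc3⟩]; rfl
        rw [this]; exact dec_some 0 X))
      ((ac1 .dt).trans (by rw [M_ng_ng rfl rfl]; rfl))
      ((ac .dt).trans (by rw [M_ng_ng rfl rfl]; rfl))
      ((ac3 .dt).trans (by rw [M_ng_ng rfl rfl]; rfl))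
      (hON σ true x c1 (hlev hx) (hlev hc1) ar ac1)
      h22
      (hON σ false x c3 (hlev hx) (hlev hc3) ar ac3)
      ((ac1 .db).trans (by rw [M_ng_ng rfl rfl]; rfl))
      ((ac .db).trans (by rw [M_ng_ng rfl rfl]; rfl))
      ((ac3 .db).trans (by rw [M_ng_ng rfl rfl]; rfl))
    exact hB f g hcopy
  -- Step 2: Ver(s-1,b)
  intro σ τ x c hx hc ar ac
  by_contra hne
  have h22 : B (Row.spec s'.castSucc σ x) (Col.spec s' τ c) = false := by
    simpa using hne
  obtain ⟨f, g, hcopy⟩ := copy_of_plus B jr jc (Flavor.ver s' b)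
    (Row.spec s.castSucc true x1) (Row.spec s'.castSucc σ x) (Row.spec s.castSucc false x3)
    (Col.thick ThC.dl jc) (Col.spec s' τ c) (Col.thick ThC.dr jc)
    rfl rfl
    (rowOpen_lt (t := s.castSucc) (t' := s'.castSucc) (by simp [hs'v]; omega) σ
      (hlev (sim_trans hx1 (sim_symm hx))))
    (row_lt_close (t := s.castSucc) (t' := s'.castSucc) (by simp [hs'v]; omega) σ
      (hlev (sim_trans hx3 (sim_symm hx))))
    (dl_lt_spec _ _ _ _) (spec_lt_dr _ _ _ _)
    (fun X k Y k' => (hTT (.gen _ X k) (.gen _ Y k')).trans (by rw [M_gen_gen]; simp))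
    (fun Y k => (ax1 (.gen _ Y k)).trans (by
      rw [M_ng_gen rfl]
      have : rowrole (Flavor.ver s' b) (Row.spec s.castSucc true x1) = some 2 := by
        show (if (s.castSucc).val = s'.val + 1 ∧ bitAt x1.val s'.val = b
            then some (if true then 2 else 0)
          else if (s.castSucc).val = s'.val ∧ bitAt x1.val s'.val = b then some 1 else none)
          = some 2
        rw [if_pos ⟨hsv, hbit hx1⟩]; rfl
      rw [this]; exact dec_some 2 Y))
    (fun Y k => (ar (.gen _ Y k)).trans (by
      rw [M_ng_gen rfl]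
      have : rowrole (Flavor.ver s' b) (Row.spec s'.castSucc σ x) = some 1 := by
        show (if (s'.castSucc).val = s'.val + 1 ∧ bitAt x.val s'.val = b
            then some (if σ then 2 else 0)
          else if (s'.castSucc).val = s'.val ∧ bitAt x.val s'.val = b then some 1 else none)
          = some 1
        rw [if_neg (by simp), if_pos ⟨rfl, hbit hx⟩]
      rw [this]; exact dec_some 1 Y))
    (fun Y k => (ax3 (.gen _ Y k)).trans (by
      rw [M_ng_gen rfl]
      have : rowrole (Flavor.ver s' b) (Row.spec s.castSucc false x3) = some 0 := by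
        show (if (s.castSucc).val = s'.val + 1 ∧ bitAt x3.val s'.val = b
            then some (if false then 2 else 0)
          else if (s.castSucc).val = s'.val ∧ bitAt x3.val s'.val = b then some 1 else none)
          = some 0
        rw [if_pos ⟨hsv, hbit hx3⟩]; rfl
      rw [this]; exact dec_some 0 Y))
    (fun X k => (hTT (.gen _ X k) .dl).trans (by
      rw [M_gen_ng _ _ _ _ rfl]; exact dec_some 2 X))
    (fun X k => (ac (.gen _ X k)).trans (by
      rw [M_gen_ng _ _ _ _ rfl]
      have : colrole (Flavor.ver s' b) (Col.spec s' τ c) = some 1 := by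
        show (if s'.val = s'.val ∧ bitAt c.val s'.val = b then some 1 else none) = some 1
        rw [if_pos ⟨rfl, hbit hc⟩]
      rw [this]; exact dec_some 1 X))
    (fun X k => (hTT (.gen _ X k) .dr).trans (by
      rw [M_gen_ng _ _ _ _ rfl]; exact dec_some 0 X))
    ((ax1 .dl).trans (by rw [M_ng_ng rfl rfl]; rfl))
    (hor true τ x1 c hx1 hc ax1 ac)
    ((ax1 .dr).trans (by rw [M_ng_ng rfl rfl]; rfl))
    ((ar .dl).trans (by rw [M_ng_ng rfl rfl]; rfl))
    h22
    ((ar .dr).trans (by rw [M_ng_ng rfl rfl]; rfl))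
    ((ax3 .dl).trans (by rw [M_ng_ng rfl rfl]; rfl))
    (hor false τ x3 c hx3 hc ax3 ac)
    ((ax3 .dr).trans (by rw [M_ng_ng rfl rfl]; rfl))
  exact hB f g hcopy

end Crest.Agent.S0066
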