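import Crest.Agent.S0066.ChainAux

/-!
# S0066 (row 47): the top step of the chain (job F2, `on_top`)

Hor(h,b) with arms TL/TR shows `B = 1` on (alive level-`h` rows) × (alive level-`(h-1)` columns)
of the half `b`; then Ver(h-1,b) with arm rows `R(h,+,x1)`, `R(h,-,x3)` switches the node ON.
-/

set_option autoImplicit false

namespace Crest.Agent.S0066

variable {h : ℕ}

open ChainAux in
/-- JOB F2: top step (Hor(h,b) with arms TL/TR, then Ver(h-1,b)). -/
theorem on_top (hh : 1 ≤ h) (B : Row h → Col h → Bool) (hB : ∀ f g, ¬ IsCopy H B f g)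
    (jr jc : Fin (2 ^ h)) (hTT : TT B jr jc) (y x1 x3 : Fin (2 ^ h))
    (h1 : sim (h - 1) x1.val y.val) (h3 : sim (h - 1) x3.val y.val)
    (a1 : aliveR B jc (Row.spec (Fin.last h) true x1))
    (a3 : aliveR B jc (Row.spec (Fin.last h) false x3)) :
    ON B jr jc ⟨h - 1, by omega⟩ y.val := by
  have hlast : (Fin.last h).val = h := rfl
  -- the flavor index
  set t0 : Fin h := ⟨h - 1, by omega⟩ with ht0
  have ht0v : t0.val = h - 1 := rfl
  have ht0s : t0.val + 1 = h := by rw [ht0v]; omega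
  set b : Bool := bitAt y.val (h - 1) with hb
  -- Step 1: Hor(h,b)
  have step1 : ∀ (σ τ : Bool) (x c : Fin (2 ^ h)), bitAt x.val (h - 1) = b →
      bitAt c.val (h - 1) = b → aliveR B jc (Row.spec (Fin.last h) σ x) →
      aliveC B jr (Col.spec t0 τ c) → B (Row.spec (Fin.last h) σ x) (Col.spec t0 τ c) = true := by
    intro σ τ x c hxb hcb aw az
    refine plus_true B hB jr jc hTT (.hor t0 b) (.thick .dt jr) (.spec (Fin.last h) σ x)
      (.thick .db jr) (.thick .tl jc) (.spec t0 τ c) (.thick .tr jc)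
      (rowrole_hor_dt _ _ _) (rowrole_hor_spec σ (by rw [hlast, ht0s]) hxb) (rowrole_hor_db _ _ _)
      (colrole_hor_tl b jc ht0s) (colrole_hor_mid τ rfl hcb) (colrole_hor_tr b jc ht0s)
      (aliveR_thick hTT _) aw (aliveR_thick hTT _)
      (aliveC_thick hTT _) az (aliveC_thick hTT _)
      (dt_lt_spec _ _ _ _) (spec_lt_db _ _ _ _) (tl_lt_spec _ _ _ _) (spec_lt_tr _ _ _ _)
      ?_ ?_ ?_ ?_ ?_ ?_ ?_ ?_
    · rw [hTT]; exact M_dt_tl _ _
    · rw [az]; exact M_dt_spec _ _ _ _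
    · rw [hTT]; exact M_dt_tr _ _
    · rw [aw]; exact M_spec_tl _ _ _ hlast
    · rw [aw]; exact M_spec_tr _ _ _ hlast
    · rw [hTT]; exact M_db_tl _ _
    · rw [az]; exact M_db_spec _ _ _ _
    · rw [hTT]; exact M_db_tr _ _
  -- Step 2: Ver(h-1,b)
  intro σ τ x c hx hc ar ac
  have hx' : sim (h - 1) x.val y.val := hx
  have hc' : sim (h - 1) c.val y.val := hc
  have bx : bitAt x.val (h - 1) = b := bitAt_eq_of_sim le_rfl hx'
  have bc : bitAt c.val (h - 1) = b := bitAt_eq_of_sim le_rfl hc'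
  have bx1 : bitAt x1.val (h - 1) = b := bitAt_eq_of_sim le_rfl h1
  have bx3 : bitAt x3.val (h - 1) = b := bitAt_eq_of_sim le_rfl h3
  have hlt : (Fin.castSucc t0).val < (Fin.last h).val := by
    show h - 1 < h
    omega
  refine plus_true B hB jr jc hTT (.ver t0 b) (.spec (Fin.last h) true x1)
    (.spec (Fin.castSucc t0) σ x) (.spec (Fin.last h) false x3)
    (.thick .dl jc) (.spec t0 τ c) (.thick .dr jc)
    (rowrole_ver_arm true (by rw [hlast, ht0s]) bx1) (rowrole_ver_mid σ rfl bx)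
    (rowrole_ver_arm false (by rw [hlast, ht0s]) bx3)
    (colrole_ver_dl _ _ _) (colrole_ver_mid τ rfl bc) (colrole_ver_dr _ _ _)
    a1 ar a3 (aliveC_thick hTT _) ac (aliveC_thick hTT _)
    (rowOpen_lt σ hlt (sim_of_lt x1.isLt x.isLt)) (lt_rowClose σ hlt (sim_of_lt x3.isLt x.isLt))
    (dl_lt_spec _ _ _ _) (spec_lt_dr _ _ _ _)
    ?_ ?_ ?_ ?_ ?_ ?_ ?_ ?_
  · rw [a1]; exact M_spec_dl _ _ _ _
  · exact step1 true τ x1 c bx1 bc a1 ac
  · rw [a1]; exact M_spec_dr _ _ _ _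
  · rw [ar]; exact M_spec_dl _ _ _ _
  · rw [ar]; exact M_spec_dr _ _ _ _
  · rw [a3]; exact M_spec_dl _ _ _ _
  · exact step1 false τ x3 c bx3 bc a3 ac
  · rw [a3]; exact M_spec_dr _ _ _ _

end Crest.Agent.S0066
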