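import Crest.Agent.S0066.FarDefs

/-!
# S0066 (row 47): the twin selection of Claim F

Construction-independent pigeonhole: if fewer than `N^2` cells are changed, one can choose a twin
index `jr` for the thick rows and `jc` for the thick columns such that no selected thick-thick cell
is changed and fewer than `N` selected special-thick cells are changed; hence some leaf owns only
"alive" special lines.  Then the specialisation to `Row h`, `Col h`, `M`.
-/

set_option autoImplicit false

namespace Crest.Agent.S0066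

open Finset

/-- Abstract selection pigeonhole.  `tr`, `tc` give the twin index of a thick line (`none` for a
special line); `D` is the set of changed cells. -/
theorem exists_selection {R C : Type*} [DecidableEq R] [DecidableEq C] (N : ℕ)
    (tr : R → Option (Fin N)) (tc : C → Option (Fin N))
    (D : Finset (R × C)) (hD : D.card < N ^ 2) :
    ∃ jr jc : Fin N,
      (∀ p ∈ D, tr p.1 = some jr → tc p.2 = some jc → False) ∧
      (D.filter (fun p => (tr p.1 = none ∧ tc p.2 = some jc) ∨
          (tr p.1 = some jr ∧ tc p.2 = none))).card < N := by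
  classical
  by_contra hcon
  push Not at hcon
  -- weight of a changed cell in a selection
  set w : R × C → Fin N → Fin N → ℕ := fun p jr jc =>
    if tr p.1 = some jr ∧ tc p.2 = some jc then N
    else if (tr p.1 = none ∧ tc p.2 = some jc) ∨ (tr p.1 = some jr ∧ tc p.2 = none) then 1 else 0
    with hw
  have hlow : ∀ jr jc : Fin N, N ≤ ∑ p ∈ D, w p jr jc := by
    intro jr jc
    by_cases hex : ∃ p ∈ D, tr p.1 = some jr ∧ tc p.2 = some jc
    · obtain ⟨p, hp, h1, h2⟩ := hex
      calc N = w p jr jc := by simp [hw, h1, h2]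
        _ ≤ ∑ p ∈ D, w p jr jc := Finset.single_le_sum (f := fun p => w p jr jc)
            (fun _ _ => Nat.zero_le _) hp
    · push Not at hex
      have h2 := hcon jr jc (fun p hp h1 h2 => hex p hp h1 h2)
      calc N ≤ (D.filter (fun p => (tr p.1 = none ∧ tc p.2 = some jc) ∨
              (tr p.1 = some jr ∧ tc p.2 = none))).card := h2
        _ = ∑ p ∈ D, if (tr p.1 = none ∧ tc p.2 = some jc) ∨
              (tr p.1 = some jr ∧ tc p.2 = none) then 1 else 0 := by
            rw [Finset.card_filter]
        _ ≤ ∑ p ∈ D, w p jr jc := by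
            apply Finset.sum_le_sum
            intro p hp
            have := hex p hp
            simp only [hw]
            split_ifs <;> first | omega | (exfalso; tauto)
  have hup : ∀ p : R × C, ∑ jr : Fin N, ∑ jc : Fin N, w p jr jc ≤ N := by
    intro p
    rcases h1 : tr p.1 with _ | a <;> rcases h2 : tc p.2 with _ | b
    · simp [hw, h1, h2]
    · simp [hw, h1, h2]
    · simp [hw, h1, h2]
    · have : ∀ x x_1 : Fin N, (if a = x ∧ b = x_1 then N else 0)
          = if a = x then (if b = x_1 then N else 0) else 0 := by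
        intro x x_1; split_ifs <;> simp_all
      simp [hw, h1, h2, this]
  have htot : N * N * N ≤ ∑ jr : Fin N, ∑ jc : Fin N, ∑ p ∈ D, w p jr jc := by
    calc N * N * N = ∑ _jr : Fin N, ∑ _jc : Fin N, N := by simp [mul_assoc]
      _ ≤ ∑ jr : Fin N, ∑ jc : Fin N, ∑ p ∈ D, w p jr jc :=
          Finset.sum_le_sum fun jr _ => Finset.sum_le_sum fun jc _ => hlow jr jc
  have hswap : ∑ jr : Fin N, ∑ jc : Fin N, ∑ p ∈ D, w p jr jc
      = ∑ p ∈ D, ∑ jr : Fin N, ∑ jc : Fin N, w p jr jc := by
    calc ∑ jr : Fin N, ∑ jc : Fin N, ∑ p ∈ D, w p jr jc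
        = ∑ jr : Fin N, ∑ p ∈ D, ∑ jc : Fin N, w p jr jc :=
          Finset.sum_congr rfl fun jr _ => Finset.sum_comm
      _ = ∑ p ∈ D, ∑ jr : Fin N, ∑ jc : Fin N, w p jr jc := Finset.sum_comm
  have hle : ∑ p ∈ D, ∑ jr : Fin N, ∑ jc : Fin N, w p jr jc ≤ D.card * N := by
    calc ∑ p ∈ D, ∑ jr : Fin N, ∑ jc : Fin N, w p jr jc ≤ ∑ _p ∈ D, N :=
          Finset.sum_le_sum fun p _ => hup p
      _ = D.card * N := by simp
  have hN : 0 < N := by
    rcases Nat.eq_zero_or_pos N with h0 | h0
    · subst h0; simp at hD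
    · exact h0
  have : N * N * N ≤ D.card * N := by rw [hswap] at htot; exact le_trans htot hle
  have h3 : N * N ≤ D.card := Nat.le_of_mul_le_mul_right this hN
  have : N ^ 2 = N * N := by ring
  omega

/-- Selection with an alive leaf: `ownR`, `ownC` give the leaf owning a special line. -/
theorem exists_selection_alive {R C L : Type*} [DecidableEq R] [DecidableEq C]
    [Fintype L] [DecidableEq L] (N : ℕ) (hL : N ≤ Fintype.card L)
    (tr : R → Option (Fin N)) (tc : C → Option (Fin N)) (ownR : R → L) (ownC : C → L)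
    (D : Finset (R × C)) (hD : D.card < N ^ 2) :
    ∃ (jr jc : Fin N) (x : L),
      (∀ r c, tr r = some jr → tc c = some jc → (r, c) ∉ D) ∧
      (∀ r c, tr r = none → ownR r = x → tc c = some jc → (r, c) ∉ D) ∧
      (∀ r c, tr r = some jr → tc c = none → ownC c = x → (r, c) ∉ D) := by
  classical
  obtain ⟨jr, jc, h1, h2⟩ := exists_selection N tr tc D hD
  set S := D.filter (fun p => (tr p.1 = none ∧ tc p.2 = some jc) ∨
          (tr p.1 = some jr ∧ tc p.2 = none)) with hS
  set own : R × C → L := fun p => if tr p.1 = none then ownR p.1 else ownC p.2 with hown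
  have hcard : (S.image own).card < Fintype.card L :=
    lt_of_le_of_lt Finset.card_image_le (lt_of_lt_of_le h2 hL)
  obtain ⟨x, hx⟩ : ∃ x, x ∉ S.image own := by
    by_contra hall
    push Not at hall
    have : S.image own = Finset.univ := Finset.eq_univ_iff_forall.mpr hall
    rw [this, Finset.card_univ] at hcard
    exact lt_irrefl _ hcard
  refine ⟨jr, jc, x, ?_, ?_, ?_⟩
  · intro r c hr hc hmem
    exact h1 (r, c) hmem hr hc
  · intro r c hr hx' hc hmem
    apply hx
    rw [Finset.mem_image]
    refine ⟨(r, c), ?_, ?_⟩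
    · rw [hS, Finset.mem_filter]; exact ⟨hmem, Or.inl ⟨hr, hc⟩⟩
    · simp [hown, hr, hx']
  · intro r c hr hc hx' hmem
    apply hx
    rw [Finset.mem_image]
    refine ⟨(r, c), ?_, ?_⟩
    · rw [hS, Finset.mem_filter]; exact ⟨hmem, Or.inr ⟨hr, hc⟩⟩
    · simp [hown, hr, hx']

/-! ## Specialisation to the construction -/

variable {h : ℕ}

/-- **JOB F1** (`select` of the plan): pigeonhole selection of the twin indices. -/
theorem select (D : Finset (Row h × Col h)) (hD : D.card < 2 ^ h * 2 ^ h) :
    ∃ jr jc : Fin (2 ^ h),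
      (∀ p ∈ D, ¬ (p.1.tw = some jr ∧ p.2.tw = some jc)) ∧
      (D.filter (fun p => (p.1.tw = none ∧ p.2.tw = some jc) ∨
        (p.1.tw = some jr ∧ p.2.tw = none))).card < 2 ^ h := by
  classical
  have hD' : D.card < (2 ^ h) ^ 2 := by rw [sq]; exact hD
  obtain ⟨jr, jc, h1, h2⟩ := exists_selection (2 ^ h) Row.tw Col.tw D hD'
  exact ⟨jr, jc, fun p hp hh => h1 p hp hh.1 hh.2, h2⟩

/-- leaf owning a special row (junk on thick rows). -/
def Row.owner : Row h → Fin (2 ^ h)
  | .thick _ j => j
  | .spec _ _ x => x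

/-- leaf owning a special column (junk on thick columns). -/
def Col.owner : Col h → Fin (2 ^ h)
  | .thick _ j => j
  | .spec _ _ c => c
  | .piv c => c

/-- **Selection for Claim F, ready to use.**  If `B` differs from `M` in fewer than `2^h * 2^h`
cells, there are twin indices `jr`, `jc` with `TT B jr jc` and a leaf `y` all of whose special lines
(`R(t,s,y)`, `C(t,s,y)`, `M_y`) are alive. -/
theorem select_alive (B : Row h → Col h → Bool)
    (hB : (Finset.univ.filter (fun p : Row h × Col h => M p.1 p.2 ≠ B p.1 p.2)).card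
      < 2 ^ h * 2 ^ h) :
    ∃ jr jc y : Fin (2 ^ h), TT B jr jc ∧
      (∀ t s, aliveR B jc (Row.spec t s y)) ∧
      (∀ t s, aliveC B jr (Col.spec t s y)) ∧
      aliveC B jr (Col.piv y) := by
  classical
  have hB' : (Finset.univ.filter (fun p : Row h × Col h => M p.1 p.2 ≠ B p.1 p.2)).card
      < (2 ^ h) ^ 2 := by rw [sq]; exact hB
  obtain ⟨jr, jc, y, h1, h2, h3⟩ :=
    exists_selection_alive (L := Fin (2 ^ h)) (2 ^ h) (by simp) Row.tw Col.tw Row.owner Col.owner
      _ hB'
  have key : ∀ r c, (r, c) ∉ Finset.univ.filter (fun p : Row h × Col h => M p.1 p.2 ≠ B p.1 p.2) →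
      B r c = M r c := by
    intro r c hrc
    simp only [Finset.mem_filter, Finset.mem_univ, true_and, ne_eq, not_not] at hrc
    exact hrc.symm
  refine ⟨jr, jc, y, ?_, ?_, ?_, ?_⟩
  · intro κ κ'
    exact key _ _ (h1 _ _ rfl rfl)
  · intro t s κ'
    exact key _ _ (h2 _ _ rfl rfl rfl)
  · intro t s κ
    exact key _ _ (h3 _ _ rfl rfl rfl)
  · intro κ
    exact key _ _ (h3 _ _ rfl rfl rfl)

end Crest.Agent.S0066
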