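import Crest.Agent.S0066.FarOf
import Crest.Agent.S0066.Select
import Crest.Agent.S0066.ChainTop
import Crest.Agent.S0066.ChainStep
import Crest.Agent.S0066.ChainBottom

/-!
# S0066 (row 47): Claim F (far-ness)
-/

set_option autoImplicit false

namespace Crest.Agent.S0066

variable {h : ℕ}

/-- CLAIM F: every host on `Row h × Col h` without an ordered copy of `H` differs from `M` in at
least `2^h · 2^h` cells. -/
theorem far (hh : 1 ≤ h) (B : Row h → Col h → Bool) (hB : ∀ f g, ¬ IsCopy H B f g) :
    2 ^ h * 2 ^ h ≤
      (Finset.univ.filter (fun p : Row h × Col h => M p.1 p.2 ≠ B p.1 p.2)).card :=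
  far_of hh B select (fun jr jc hTT => on_top hh B hB jr jc hTT)
    (fun jr jc hTT => on_step B hB jr jc hTT)
    (fun jr jc hTT => on_bottom hh B hB jr jc hTT)

end Crest.Agent.S0066
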