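import Crest.Agent.S0066.Defs
import Crest.Prelude.Def_OrderedMatrix

/-!
# S0066 (row 47): the construction-independent half

* `pos` / `pad`: a host `A₀ : ρ → κ → Bool` indexed by finite linear orders is moved to
  `Fin n × Fin n` (increasing enumeration onto an initial segment, zero padding).
* `orderedCopyCount_le_of_pivot`: if every copy has its `(64, 64)` cell in a set `S`, there are at
  most `|S| · n ^ 130` copies.
* `result_of_construction`: the two conjuncts of the frozen statement for one `h`, from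
  Claim C (`hC`: every copy has its `(64,64)` cell on a pivot) and Claim F (`hF`: every copy-free
  matrix differs in at least `(2^h)^2` cells) stated on the structured index types.
-/

set_option autoImplicit false

namespace Crest.Agent.S0066

open Crest.CombinatoricsR.OrderedMatrix

/-! ## Increasing enumeration of a finite linear order -/

/-- The increasing enumeration of a finite linear order. -/
noncomputable def enumIso (α : Type) [Fintype α] [LinearOrder α] : Fin (Fintype.card α) ≃o α :=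
  Fintype.orderIsoFinOfCardEq α rfl

/-- Position of an element of a finite linear order, as an index in `Fin n`. -/
noncomputable def pos (α : Type) [Fintype α] [LinearOrder α] {n : ℕ} (hn : Fintype.card α ≤ n)
    (a : α) : Fin n :=
  Fin.castLE hn ((enumIso α).symm a)

theorem pos_strictMono (α : Type) [Fintype α] [LinearOrder α] {n : ℕ}
    (hn : Fintype.card α ≤ n) : StrictMono (pos α hn) := by
  intro a b hab
  have h1 : (enumIso α).symm a < (enumIso α).symm b := (enumIso α).symm.strictMono hab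
  simpa [pos, Fin.lt_def] using h1

theorem pos_injective (α : Type) [Fintype α] [LinearOrder α] {n : ℕ}
    (hn : Fintype.card α ≤ n) : Function.Injective (pos α hn) :=
  (pos_strictMono α hn).injective

theorem pos_val_lt (α : Type) [Fintype α] [LinearOrder α] {n : ℕ}
    (hn : Fintype.card α ≤ n) (a : α) : (pos α hn a).val < Fintype.card α := by
  simp [pos]

theorem pos_enumIso (α : Type) [Fintype α] [LinearOrder α] {n : ℕ}
    (hn : Fintype.card α ≤ n) (i : Fin n) (hi : i.val < Fintype.card α) :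
    pos α hn (enumIso α ⟨i.val, hi⟩) = i := by
  apply Fin.ext
  simp [pos]

theorem enumIso_pos (α : Type) [Fintype α] [LinearOrder α] {n : ℕ}
    (hn : Fintype.card α ≤ n) (a : α) (hi : (pos α hn a).val < Fintype.card α) :
    enumIso α ⟨(pos α hn a).val, hi⟩ = a := by
  have : (⟨(pos α hn a).val, hi⟩ : Fin (Fintype.card α)) = (enumIso α).symm a := by
    apply Fin.ext
    simp [pos]
  rw [this, OrderIso.apply_symm_apply]

/-! ## Zero padding -/

section Pad

variable {ρ κ : Type} [Fintype ρ] [Fintype κ] [LinearOrder ρ] [LinearOrder κ]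

/-- The host `A₀`, moved to an initial block of `Fin n × Fin n` and padded by `false`. -/
noncomputable def pad (n : ℕ) (A₀ : ρ → κ → Bool) : Fin n → Fin n → Bool := fun i j =>
  if hi : i.val < Fintype.card ρ then
    (if hj : j.val < Fintype.card κ then A₀ (enumIso ρ ⟨i.val, hi⟩) (enumIso κ ⟨j.val, hj⟩)
     else false)
  else false

theorem pad_pos {n : ℕ} (hρ : Fintype.card ρ ≤ n) (hκ : Fintype.card κ ≤ n) (A₀ : ρ → κ → Bool)
    (r : ρ) (c : κ) : pad n A₀ (pos ρ hρ r) (pos κ hκ c) = A₀ r c := by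
  unfold pad
  rw [dif_pos (pos_val_lt ρ hρ r), dif_pos (pos_val_lt κ hκ c), enumIso_pos, enumIso_pos]

theorem pad_true {n : ℕ} (A₀ : ρ → κ → Bool) {i j : Fin n} (hij : pad n A₀ i j = true) :
    i.val < Fintype.card ρ ∧ j.val < Fintype.card κ := by
  unfold pad at hij
  by_cases hi : i.val < Fintype.card ρ
  · by_cases hj : j.val < Fintype.card κ
    · exact ⟨hi, hj⟩
    · rw [dif_pos hi, dif_neg hj] at hij
      exact absurd hij (by simp)
  · rw [dif_neg hi] at hij
    exact absurd hij (by simp)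

/-- Every copy of a pattern without zero lines in the padded host comes from a copy in `A₀`. -/
theorem copy_pullback {k n : ℕ} (hρ : Fintype.card ρ ≤ n) (hκ : Fintype.card κ ≤ n)
    (P : Fin k → Fin k → Bool) (hProw : ∀ i, ∃ j, P i j = true) (hPcol : ∀ j, ∃ i, P i j = true)
    (A₀ : ρ → κ → Bool) (f g : Fin k → Fin n) (hf : StrictMono f) (hg : StrictMono g)
    (hfg : ∀ i j, pad n A₀ (f i) (g j) = P i j) :
    ∃ f' g', IsCopy P A₀ f' g' ∧ (∀ i, f i = pos ρ hρ (f' i)) ∧ (∀ j, g j = pos κ hκ (g' j)) := by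
  have hfi : ∀ i, (f i).val < Fintype.card ρ := by
    intro i
    obtain ⟨j, hj⟩ := hProw i
    exact (pad_true A₀ ((hfg i j).trans hj)).1
  have hgj : ∀ j, (g j).val < Fintype.card κ := by
    intro j
    obtain ⟨i, hi⟩ := hPcol j
    exact (pad_true A₀ ((hfg i j).trans hi)).2
  refine ⟨fun i => enumIso ρ ⟨(f i).val, hfi i⟩, fun j => enumIso κ ⟨(g j).val, hgj j⟩,
    ⟨?_, ?_, ?_⟩, ?_, ?_⟩
  · intro a b hab
    apply (enumIso ρ).strictMono
    exact hf hab
  · intro a b hab
    apply (enumIso κ).strictMono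
    exact hg hab
  · intro i j
    rw [← hfg i j]
    unfold pad
    rw [dif_pos (hfi i), dif_pos (hgj j)]
  · intro i
    exact (pos_enumIso ρ hρ (f i) (hfi i)).symm
  · intro j
    exact (pos_enumIso κ hκ (g j) (hgj j)).symm

/-- A copy in `A₀` gives a copy in any matrix agreeing with it through `pos`. -/
theorem copy_push {k n : ℕ} (hρ : Fintype.card ρ ≤ n) (hκ : Fintype.card κ ≤ n)
    (P : Fin k → Fin k → Bool) (B : Fin n → Fin n → Bool) (f : Fin k → ρ) (g : Fin k → κ)
    (hc : IsCopy P (fun r c => B (pos ρ hρ r) (pos κ hκ c)) f g) :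
    StrictMono (fun i => pos ρ hρ (f i)) ∧ StrictMono (fun j => pos κ hκ (g j)) ∧
      ∀ i j, B (pos ρ hρ (f i)) (pos κ hκ (g j)) = P i j :=
  ⟨(pos_strictMono ρ hρ).comp hc.1, (pos_strictMono κ hκ).comp hc.2.1, hc.2.2⟩

end Pad

/-! ## Counting copies through a pivot cell -/

theorem orderedCopyCount_pos_of_copy {k n : ℕ} (P : Fin k → Fin k → Bool)
    (A : Fin n → Fin n → Bool) (f g : Fin k → Fin n) (hf : StrictMono f) (hg : StrictMono g)
    (hfg : ∀ i j, A (f i) (g j) = P i j) : orderedCopyCount P A ≠ 0 := by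
  unfold orderedCopyCount
  have : Nonempty {rc : (Fin k → Fin n) × (Fin k → Fin n) //
      StrictMono rc.1 ∧ StrictMono rc.2 ∧ ∀ i j : Fin k, A (rc.1 i) (rc.2 j) = P i j} :=
    ⟨⟨(f, g), hf, hg, hfg⟩⟩
  exact Fintype.card_ne_zero

/-- If every copy has its `(64, 64)` cell in `S`, there are at most `|S| · n ^ 130` copies. -/
theorem orderedCopyCount_le_of_pivot {n : ℕ} (P : Fin 66 → Fin 66 → Bool)
    (A : Fin n → Fin n → Bool) (S : Finset (Fin n × Fin n))
    (hS : ∀ f g : Fin 66 → Fin n, StrictMono f → StrictMono g → (∀ i j, A (f i) (g j) = P i j) →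
      (f 64, g 64) ∈ S) :
    orderedCopyCount P A ≤ S.card * n ^ 130 := by
  unfold orderedCopyCount
  let φ : {rc : (Fin 66 → Fin n) × (Fin 66 → Fin n) //
      StrictMono rc.1 ∧ StrictMono rc.2 ∧ ∀ i j : Fin 66, A (rc.1 i) (rc.2 j) = P i j} →
      S × (Fin 65 → Fin n) × (Fin 65 → Fin n) := fun t =>
    (⟨(t.1.1 64, t.1.2 64), hS _ _ t.2.1 t.2.2.1 t.2.2.2⟩,
      fun i => t.1.1 ((64 : Fin 66).succAbove i), fun i => t.1.2 ((64 : Fin 66).succAbove i))
  have hφ : Function.Injective φ := by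
    rintro ⟨⟨f, g⟩, hfg⟩ ⟨⟨f', g'⟩, hfg'⟩ hEq
    simp only [φ, Prod.mk.injEq, Subtype.mk.injEq] at hEq
    obtain ⟨⟨h1, h2⟩, h3, h4⟩ := hEq
    have hf : f = f' := by
      funext i
      by_cases hi : i = 64
      · rw [hi]; exact h1
      · obtain ⟨z, hz⟩ := Fin.exists_succAbove_eq hi
        rw [← hz]
        exact congrFun h3 z
    have hg : g = g' := by
      funext i
      by_cases hi : i = 64
      · rw [hi]; exact h2
      · obtain ⟨z, hz⟩ := Fin.exists_succAbove_eq hi
        rw [← hz]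
        exact congrFun h4 z
    subst hf hg
    rfl
  calc Fintype.card _ ≤ Fintype.card (S × (Fin 65 → Fin n) × (Fin 65 → Fin n)) :=
        Fintype.card_le_of_injective φ hφ
    _ = S.card * n ^ 130 := by
        simp only [Fintype.card_prod, Fintype.card_coe, Fintype.card_pi, Fintype.card_fin,
          Finset.prod_const, Finset.card_univ]
        ring

/-! ## The two real (in)equalities -/

theorem far_real (h : ℕ) :
    ((386 * (h : ℝ) + 2) ^ 2)⁻¹ * (((386 * h + 2) * 2 ^ h : ℕ) : ℝ) ^ 2 = (((2 ^ h) ^ 2 : ℕ) : ℝ) := by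
  have h0 : (386 * (h : ℝ) + 2) ≠ 0 := by positivity
  push_cast
  field_simp

theorem count_real (h : ℕ) (c : ℕ) (hc : c ≤ 2 ^ h * ((386 * h + 2) * 2 ^ h) ^ 130) :
    (c : ℝ) / (((386 * h + 2) * 2 ^ h : ℕ) : ℝ) ^ 132 ≤
      ((386 * (h : ℝ) + 2) ^ 2)⁻¹ * (2 : ℝ)⁻¹ ^ h := by
  have h0 : (0 : ℝ) < 386 * (h : ℝ) + 2 := by positivity
  have h2 : (0 : ℝ) < (2 : ℝ) ^ h := by positivity
  have hn : (0 : ℝ) < (((386 * h + 2) * 2 ^ h : ℕ) : ℝ) := by
    push_cast
    positivity
  have hc' : (c : ℝ) ≤ (2 : ℝ) ^ h * (((386 * h + 2) * 2 ^ h : ℕ) : ℝ) ^ 130 := by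
    exact_mod_cast hc
  rw [div_le_iff₀ (by positivity)]
  refine hc'.trans (le_of_eq ?_)
  push_cast
  rw [inv_pow]
  field_simp

/-! ## Every line of the pattern `H` has a `true` -/

theorem H_row_true : ∀ i, ∃ j, H i j = true := by
  intro i
  by_cases hi : i.val < 63
  · exact ⟨0, by simp [H, hi]⟩
  · exact ⟨63, by simp [H, hi]⟩

theorem H_col_true : ∀ j, ∃ i, H i j = true := by
  intro j
  by_cases hj : j.val < 63
  · exact ⟨0, by simp [H, hj]⟩
  · exact ⟨63, by simp [H, hj]⟩

/-! ## Assembly -/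

/-- The two conjuncts of the frozen statement S0066 for one `h`, from Claim C and Claim F on
structured index types. -/
theorem result_of_construction (P : Fin 66 → Fin 66 → Bool)
    (hProw : ∀ i, ∃ j, P i j = true) (hPcol : ∀ j, ∃ i, P i j = true)
    (h : ℕ) {ρ κ : Type} [Fintype ρ] [Fintype κ] [LinearOrder ρ] [LinearOrder κ]
    (hρ : Fintype.card ρ ≤ (386 * h + 2) * 2 ^ h) (hκ : Fintype.card κ ≤ (386 * h + 2) * 2 ^ h)
    (A₀ : ρ → κ → Bool) (Piv : Finset (ρ × κ)) (hPiv : Piv.card ≤ 2 ^ h)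
    (hC : ∀ f g, IsCopy P A₀ f g → (f 64, g 64) ∈ Piv)
    (hF : ∀ B : ρ → κ → Bool, (∀ f g, ¬ IsCopy P B f g) →
      (2 ^ h) ^ 2 ≤ (Finset.univ.filter (fun rc : ρ × κ => A₀ rc.1 rc.2 ≠ B rc.1 rc.2)).card) :
    ∃ A : Fin ((386 * h + 2) * 2 ^ h) → Fin ((386 * h + 2) * 2 ^ h) → Bool,
      (∀ B : Fin ((386 * h + 2) * 2 ^ h) → Fin ((386 * h + 2) * 2 ^ h) → Bool,
        Crest.CombinatoricsR.OrderedMatrix.orderedCopyCount P B = 0 →
          ((386 * (h : ℝ) + 2) ^ 2)⁻¹ * (((386 * h + 2) * 2 ^ h : ℕ) : ℝ) ^ 2 ≤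
            ((Finset.univ.filter (fun rc : Fin ((386 * h + 2) * 2 ^ h) × Fin ((386 * h + 2) * 2 ^ h) =>
              A rc.1 rc.2 ≠ B rc.1 rc.2)).card : ℝ)) ∧
      (Crest.CombinatoricsR.OrderedMatrix.orderedCopyCount P A : ℝ) /
          (((386 * h + 2) * 2 ^ h : ℕ) : ℝ) ^ 132 ≤
        ((386 * (h : ℝ) + 2) ^ 2)⁻¹ * (2 : ℝ)⁻¹ ^ h := by
  classical
  refine ⟨pad ((386 * h + 2) * 2 ^ h) A₀, ?_, ?_⟩
  · intro B hB
    rw [far_real, Nat.cast_le]
    have hfree : ∀ f g, ¬ IsCopy P (fun r c => B (pos ρ hρ r) (pos κ hκ c)) f g := by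
      intro f g hc
      obtain ⟨h1, h2, h3⟩ := copy_push hρ hκ P B f g hc
      exact orderedCopyCount_pos_of_copy P B _ _ h1 h2 h3 hB
    refine (hF _ hfree).trans ?_
    refine Finset.card_le_card_of_injOn (fun rc => (pos ρ hρ rc.1, pos κ hκ rc.2)) ?_ ?_
    · intro rc hrc
      simp only [Finset.coe_filter, Finset.mem_univ, true_and, Set.mem_ofPred_eq] at hrc ⊢
      rw [pad_pos hρ hκ]
      exact hrc
    · intro a _ b _ hab
      simp only [Prod.mk.injEq] at hab
      exact Prod.ext (pos_injective ρ hρ hab.1) (pos_injective κ hκ hab.2)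
  · apply count_real
    have hS : ∀ f g : Fin 66 → Fin ((386 * h + 2) * 2 ^ h), StrictMono f → StrictMono g →
        (∀ i j, pad ((386 * h + 2) * 2 ^ h) A₀ (f i) (g j) = P i j) →
        (f 64, g 64) ∈ Piv.image (fun rc => (pos ρ hρ rc.1, pos κ hκ rc.2)) := by
      intro f g hf hg hfg
      obtain ⟨f', g', hc, hf', hg'⟩ := copy_pullback hρ hκ P hProw hPcol A₀ f g hf hg hfg
      rw [Finset.mem_image]
      exact ⟨(f' 64, g' 64), hC f' g' hc, by rw [hf' 64, hg' 64]⟩
    refine (orderedCopyCount_le_of_pivot P _ _ hS).trans ?_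
    exact Nat.mul_le_mul_right _ (Finset.card_image_le.trans hPiv)

end Crest.Agent.S0066
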