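import Crest.Agent.S0066.CopyPlus
import Crest.Agent.S0066.NodeArith

/-!
# S0066 (row 47): shared lemmas for the chain modules (`on_top`, `on_step`, `on_bottom`)

`plus_true`: in an `H`-free host `B` that agrees with `M` on the selected thick × thick cells, a
typed "plus" whose six lines are alive (or selected thick) and whose eight outer block cells are
ones has its centre cell equal to one.  The rest are role / entry / order facts for the lines used.
-/

set_option autoImplicit false

namespace Crest.Agent.S0066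

namespace ChainAux

variable {h : ℕ}

/-! ## alive lines -/

theorem aliveR_thick {B : Row h → Col h → Bool} {jr jc : Fin (2 ^ h)} (hTT : TT B jr jc)
    (κ : ThR h) : aliveR B jc (.thick κ jr) := fun κ' => hTT κ κ'

theorem aliveC_thick {B : Row h → Col h → Bool} {jr jc : Fin (2 ^ h)} (hTT : TT B jr jc)
    (κ' : ThC h) : aliveC B jr (.thick κ' jc) := fun κ => hTT κ κ'

theorem dec_some (a Y : Fin 3) : decide (some a = some Y) = decide (Y = a) := by
  by_cases hY : Y = a
  · subst hY; simp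
  · have : ¬ a = Y := fun e => hY e.symm
    simp [hY, this]

/-- the centre of a typed plus is a one in an `H`-free host. -/
theorem plus_true (B : Row h → Col h → Bool) (hB : ∀ f g, ¬ IsCopy H B f g)
    (jr jc : Fin (2 ^ h)) (hTT : TT B jr jc) (fl : Flavor h)
    (p1 w p2 : Row h) (q1 z q2 : Col h)
    (rp1 : rowrole fl p1 = some 2) (rw : rowrole fl w = some 1) (rp2 : rowrole fl p2 = some 0)
    (cq1 : colrole fl q1 = some 2) (cz : colrole fl z = some 1) (cq2 : colrole fl q2 = some 0)
    (ap1 : aliveR B jc p1) (aw : aliveR B jc w) (ap2 : aliveR B jc p2)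
    (aq1 : aliveC B jr q1) (az : aliveC B jr z) (aq2 : aliveC B jr q2)
    (hr1 : p1 < w) (hr2 : w < p2) (hc1 : q1 < z) (hc2 : z < q2)
    (h11 : B p1 q1 = true) (h12 : B p1 z = true) (h13 : B p1 q2 = true)
    (h21 : B w q1 = true) (h23 : B w q2 = true)
    (h31 : B p2 q1 = true) (h32 : B p2 z = true) (h33 : B p2 q2 = true) :
    B w z = true := by
  by_contra h22
  have h22' : B w z = false := by simpa using h22
  have hgg : ∀ X k Y k', B (.thick (.gen fl X k) jr) (.thick (.gen fl Y k') jc) = true := by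
    intro X k Y k'
    rw [hTT, M_gen_gen]; simp
  have hp1g : ∀ Y k, B p1 (.thick (.gen fl Y k) jc) = decide (Y = 2) := by
    intro Y k
    rw [ap1, M_ng_gen (Row.gen?_none_of_role rp1), rp1, dec_some]
  have hwg : ∀ Y k, B w (.thick (.gen fl Y k) jc) = decide (Y = 1) := by
    intro Y k
    rw [aw, M_ng_gen (Row.gen?_none_of_role rw), rw, dec_some]
  have hp2g : ∀ Y k, B p2 (.thick (.gen fl Y k) jc) = decide (Y = 0) := by
    intro Y k
    rw [ap2, M_ng_gen (Row.gen?_none_of_role rp2), rp2, dec_some]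
  have hq1g : ∀ X k, B (.thick (.gen fl X k) jr) q1 = decide (X = 2) := by
    intro X k
    rw [aq1, M_gen_ng _ _ _ _ (Col.gen?_none_of_role cq1), cq1, dec_some]
  have hzg : ∀ X k, B (.thick (.gen fl X k) jr) z = decide (X = 1) := by
    intro X k
    rw [az, M_gen_ng _ _ _ _ (Col.gen?_none_of_role cz), cz, dec_some]
  have hq2g : ∀ X k, B (.thick (.gen fl X k) jr) q2 = decide (X = 0) := by
    intro X k
    rw [aq2, M_gen_ng _ _ _ _ (Col.gen?_none_of_role cq2), cq2, dec_some]
  obtain ⟨f, g, hc⟩ := copy_of_plus B jr jc fl p1 w p2 q1 z q2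
    (Row.gen?_none_of_role rp1) (Col.gen?_none_of_role cq1) hr1 hr2 hc1 hc2
    hgg hp1g hwg hp2g hq1g hzg hq2g h11 h12 h13 h21 h22' h23 h31 h32 h33
  exact hB f g hc

/-! ## roles -/

theorem rowrole_hor_dt (t : Fin h) (b : Bool) (j : Fin (2 ^ h)) :
    rowrole (.hor t b) (.thick .dt j) = some 2 := rfl

theorem rowrole_hor_db (t : Fin h) (b : Bool) (j : Fin (2 ^ h)) :
    rowrole (.hor t b) (.thick .db j) = some 0 := rfl

theorem rowrole_hor_spec {t : Fin h} {b : Bool} {t' : Fin (h + 1)} (s : Bool) {x : Fin (2 ^ h)}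
    (ht : t'.val = t.val + 1) (hb : bitAt x.val t.val = b) :
    rowrole (.hor t b) (.spec t' s x) = some 1 := by
  simp [rowrole, ht, hb]

theorem rowrole_ver_arm {t : Fin h} {b : Bool} {t' : Fin (h + 1)} (s : Bool) {x : Fin (2 ^ h)}
    (ht : t'.val = t.val + 1) (hb : bitAt x.val t.val = b) :
    rowrole (.ver t b) (.spec t' s x) = some (if s then 2 else 0) := by
  simp [rowrole, ht, hb]

theorem rowrole_ver_mid {t : Fin h} {b : Bool} {t' : Fin (h + 1)} (s : Bool) {x : Fin (2 ^ h)}
    (ht : t'.val = t.val) (hb : bitAt x.val t.val = b) :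
    rowrole (.ver t b) (.spec t' s x) = some 1 := by
  simp [rowrole, ht, hb]

theorem rowrole_botI_dt (j : Fin (2 ^ h)) : rowrole (.botI) (Row.thick (h := h) .dt j) = some 2 := rfl
theorem rowrole_botI_db (j : Fin (2 ^ h)) : rowrole (.botI) (Row.thick (h := h) .db j) = some 0 := rfl
theorem rowrole_botI_spec (x : Fin (2 ^ h)) :
    rowrole (.botI) (Row.spec (h := h) 0 true x) = some 1 := by
  simp [rowrole]

theorem rowrole_botII_dt (j : Fin (2 ^ h)) : rowrole (.botII) (Row.thick (h := h) .dt j) = some 2 := rfl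
theorem rowrole_botII_db (j : Fin (2 ^ h)) : rowrole (.botII) (Row.thick (h := h) .db j) = some 0 := rfl
theorem rowrole_botII_spec (x : Fin (2 ^ h)) :
    rowrole (.botII) (Row.spec (h := h) 0 true x) = some 1 := by
  simp [rowrole]

theorem colrole_hor_tl {t : Fin h} (b : Bool) (j : Fin (2 ^ h)) (ht : t.val + 1 = h) :
    colrole (.hor t b) (.thick .tl j) = some 2 := by
  simp [colrole, ht]

theorem colrole_hor_tr {t : Fin h} (b : Bool) (j : Fin (2 ^ h)) (ht : t.val + 1 = h) :
    colrole (.hor t b) (.thick .tr j) = some 0 := by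
  simp [colrole, ht]

theorem colrole_hor_arm {t : Fin h} {b : Bool} {t' : Fin h} (s : Bool) {c : Fin (2 ^ h)}
    (ht : t'.val = t.val + 1) (hb : bitAt c.val t.val = b) :
    colrole (.hor t b) (.spec t' s c) = some (if s then 2 else 0) := by
  simp [colrole, ht, hb]

theorem colrole_hor_mid {t : Fin h} {b : Bool} {t' : Fin h} (s : Bool) {c : Fin (2 ^ h)}
    (ht : t'.val = t.val) (hb : bitAt c.val t.val = b) :
    colrole (.hor t b) (.spec t' s c) = some 1 := by
  simp [colrole, ht, hb]

theorem colrole_ver_dl (t : Fin h) (b : Bool) (j : Fin (2 ^ h)) :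
    colrole (.ver t b) (.thick .dl j) = some 2 := rfl

theorem colrole_ver_dr (t : Fin h) (b : Bool) (j : Fin (2 ^ h)) :
    colrole (.ver t b) (.thick .dr j) = some 0 := rfl

theorem colrole_ver_mid {t : Fin h} {b : Bool} {t' : Fin h} (s : Bool) {c : Fin (2 ^ h)}
    (ht : t'.val = t.val) (hb : bitAt c.val t.val = b) :
    colrole (.ver t b) (.spec t' s c) = some 1 := by
  simp [colrole, ht, hb]

theorem colrole_botI_spec {t' : Fin h} (s : Bool) (c : Fin (2 ^ h)) (ht : t'.val = 0) :
    colrole (.botI) (.spec t' s c) = some (if s then 2 else 0) := by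
  simp [colrole, ht]

theorem colrole_botI_piv (c : Fin (2 ^ h)) : colrole (.botI) (Col.piv (h := h) c) = some 1 := rfl
theorem colrole_botII_piv (c : Fin (2 ^ h)) : colrole (.botII) (Col.piv (h := h) c) = some 2 := rfl
theorem colrole_botII_zb (j : Fin (2 ^ h)) :
    colrole (.botII) (Col.thick (h := h) .zb j) = some 1 := rfl
theorem colrole_botII_wb (j : Fin (2 ^ h)) :
    colrole (.botII) (Col.thick (h := h) .wb j) = some 0 := rfl

/-! ## entries of `M` on the block cells -/

theorem M_dt_spec (j : Fin (2 ^ h)) (t : Fin h) (s : Bool) (c : Fin (2 ^ h)) :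
    M (Row.thick .dt j) (Col.spec t s c) = true := rfl
theorem M_db_spec (j : Fin (2 ^ h)) (t : Fin h) (s : Bool) (c : Fin (2 ^ h)) :
    M (Row.thick .db j) (Col.spec t s c) = true := rfl
theorem M_dt_piv (j c : Fin (2 ^ h)) : M (Row.thick (h := h) .dt j) (Col.piv c) = true := rfl
theorem M_db_piv (j c : Fin (2 ^ h)) : M (Row.thick (h := h) .db j) (Col.piv c) = true := rfl
theorem M_dt_tl (j j' : Fin (2 ^ h)) : M (Row.thick (h := h) .dt j) (Col.thick .tl j') = true := rfl
theorem M_dt_tr (j j' : Fin (2 ^ h)) : M (Row.thick (h := h) .dt j) (Col.thick .tr j') = true := rfl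
theorem M_db_tl (j j' : Fin (2 ^ h)) : M (Row.thick (h := h) .db j) (Col.thick .tl j') = true := rfl
theorem M_db_tr (j j' : Fin (2 ^ h)) : M (Row.thick (h := h) .db j) (Col.thick .tr j') = true := rfl
theorem M_dt_zb (j j' : Fin (2 ^ h)) : M (Row.thick (h := h) .dt j) (Col.thick .zb j') = true := rfl
theorem M_dt_wb (j j' : Fin (2 ^ h)) : M (Row.thick (h := h) .dt j) (Col.thick .wb j') = true := rfl
theorem M_db_zb (j j' : Fin (2 ^ h)) : M (Row.thick (h := h) .db j) (Col.thick .zb j') = true := rfl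
theorem M_db_wb (j j' : Fin (2 ^ h)) : M (Row.thick (h := h) .db j) (Col.thick .wb j') = true := rfl

theorem M_spec_dl (t : Fin (h + 1)) (s : Bool) (x j : Fin (2 ^ h)) :
    M (Row.spec t s x) (Col.thick .dl j) = true := rfl
theorem M_spec_dr (t : Fin (h + 1)) (s : Bool) (x j : Fin (2 ^ h)) :
    M (Row.spec t s x) (Col.thick .dr j) = true := rfl
theorem M_spec_tl {t : Fin (h + 1)} (s : Bool) (x j : Fin (2 ^ h)) (ht : t.val = h) :
    M (Row.spec t s x) (Col.thick .tl j) = true := by
  show decide (t.val = h) = true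
  simp [ht]
theorem M_spec_tr {t : Fin (h + 1)} (s : Bool) (x j : Fin (2 ^ h)) (ht : t.val = h) :
    M (Row.spec t s x) (Col.thick .tr j) = true := by
  show decide (t.val = h) = true
  simp [ht]
theorem M_spec_wb {t : Fin (h + 1)} (s : Bool) (x j : Fin (2 ^ h)) (ht : t.val = 0) :
    M (Row.spec t s x) (Col.thick .wb j) = true := by
  show decide (t.val = 0) = true
  simp [ht]
theorem M_spec_zb (t : Fin (h + 1)) (s : Bool) (x j : Fin (2 ^ h)) :
    M (Row.spec t s x) (Col.thick .zb j) = false := rfl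

/-! ## order: zones -/

theorem dt_lt_spec (j : Fin (2 ^ h)) (t : Fin (h + 1)) (s : Bool) (x : Fin (2 ^ h)) :
    Row.thick .dt j < Row.spec t s x := by
  obtain ⟨q, r, hk⟩ := specKey_eq_mkKey h 2 t.val s x.val
  rw [Row.lt_iff]
  show mkKey 1 0 0 0 j.val < specKey h 2 t.val s x.val
  rw [hk, mkKey_lt_iff]
  exact Or.inl (by norm_num)

theorem spec_lt_db (j : Fin (2 ^ h)) (t : Fin (h + 1)) (s : Bool) (x : Fin (2 ^ h)) :
    Row.spec t s x < Row.thick .db j := by
  obtain ⟨q, r, hk⟩ := specKey_eq_mkKey h 2 t.val s x.val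
  rw [Row.lt_iff]
  show specKey h 2 t.val s x.val < mkKey 3 0 0 0 j.val
  rw [hk, mkKey_lt_iff]
  exact Or.inl (by norm_num)

theorem dl_lt_spec (j : Fin (2 ^ h)) (t : Fin h) (s : Bool) (c : Fin (2 ^ h)) :
    Col.thick .dl j < Col.spec t s c := by
  obtain ⟨q, r, hk⟩ := specKey_eq_mkKey h 3 t.val s c.val
  rw [Col.lt_iff]
  show mkKey 1 0 0 0 j.val < specKey h 3 t.val s c.val
  rw [hk, mkKey_lt_iff]
  exact Or.inl (by norm_num)

theorem spec_lt_dr (j : Fin (2 ^ h)) (t : Fin h) (s : Bool) (c : Fin (2 ^ h)) :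
    Col.spec t s c < Col.thick .dr j := by
  obtain ⟨q, r, hk⟩ := specKey_eq_mkKey h 3 t.val s c.val
  rw [Col.lt_iff]
  show specKey h 3 t.val s c.val < mkKey 7 0 0 0 j.val
  rw [hk, mkKey_lt_iff]
  exact Or.inl (by norm_num)

theorem tl_lt_spec (j : Fin (2 ^ h)) (t : Fin h) (s : Bool) (c : Fin (2 ^ h)) :
    Col.thick .tl j < Col.spec t s c := by
  obtain ⟨q, r, hk⟩ := specKey_eq_mkKey h 3 t.val s c.val
  rw [Col.lt_iff]
  show mkKey 2 0 0 0 j.val < specKey h 3 t.val s c.val
  rw [hk, mkKey_lt_iff]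
  exact Or.inl (by norm_num)

theorem spec_lt_tr (j : Fin (2 ^ h)) (t : Fin h) (s : Bool) (c : Fin (2 ^ h)) :
    Col.spec t s c < Col.thick .tr j := by
  obtain ⟨q, r, hk⟩ := specKey_eq_mkKey h 3 t.val s c.val
  rw [Col.lt_iff]
  show specKey h 3 t.val s c.val < mkKey 4 0 0 0 j.val
  rw [hk, mkKey_lt_iff]
  exact Or.inl (by norm_num)

theorem piv_lt_zb (c j : Fin (2 ^ h)) : Col.piv (h := h) c < Col.thick .zb j := by
  rw [Col.lt_iff]
  show mkKey 3 c.val 1 0 0 < mkKey 5 0 0 0 j.val
  rw [mkKey_lt_iff]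
  exact Or.inl (by norm_num)

theorem zb_lt_wb (j j' : Fin (2 ^ h)) : Col.thick (h := h) .zb j < Col.thick .wb j' := by
  rw [Col.lt_iff]
  show mkKey 5 0 0 0 j.val < mkKey 6 0 0 0 j'.val
  rw [mkKey_lt_iff]
  exact Or.inl (by norm_num)

/-! ## order: brackets -/

/-- the opening row bracket of an outer node is above every row bracket of an inner node. -/
theorem rowOpen_lt {t t' : Fin (h + 1)} (s' : Bool) {x x' : Fin (2 ^ h)} (htt : t'.val < t.val)
    (hs : sim t.val x.val x'.val) : Row.spec t true x < Row.spec t' s' x' := by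
  rw [Row.lt_iff]
  exact specKey_open_lt (Nat.lt_succ_iff.1 t.isLt) htt hs

/-- every row bracket of an inner node is above the closing row bracket of an outer node. -/
theorem lt_rowClose {t t' : Fin (h + 1)} (s' : Bool) {x x' : Fin (2 ^ h)} (htt : t'.val < t.val)
    (hs : sim t.val x.val x'.val) : Row.spec t' s' x' < Row.spec t false x := by
  rw [Row.lt_iff]
  exact specKey_lt_close htt hs

theorem colOpen_lt {t t' : Fin h} (s' : Bool) {c c' : Fin (2 ^ h)} (htt : t'.val < t.val)
    (hs : sim t.val c.val c'.val) : Col.spec t true c < Col.spec t' s' c' := by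
  rw [Col.lt_iff]
  exact specKey_open_lt (le_of_lt t.isLt) htt hs

theorem lt_colClose {t t' : Fin h} (s' : Bool) {c c' : Fin (2 ^ h)} (htt : t'.val < t.val)
    (hs : sim t.val c.val c'.val) : Col.spec t' s' c' < Col.spec t false c := by
  rw [Col.lt_iff]
  exact specKey_lt_close htt hs

theorem colOpen_lt_piv {t : Fin h} (c : Fin (2 ^ h)) (ht : t.val = 0) :
    Col.spec t true c < Col.piv c := by
  rw [Col.lt_iff]
  show specKey h 3 t.val true c.val < mkKey 3 c.val 1 0 0
  rw [ht]
  exact (pivot_between h 3 c.val).1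

theorem piv_lt_colClose {t : Fin h} (c : Fin (2 ^ h)) (ht : t.val = 0) :
    Col.piv c < Col.spec t false c := by
  rw [Col.lt_iff]
  show mkKey 3 c.val 1 0 0 < specKey h 3 t.val false c.val
  rw [ht]
  exact (pivot_between h 3 c.val).2

end ChainAux

end Crest.Agent.S0066
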