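import Crest.Agent.S0066.MLemmas

/-!
# S0066 (row 47): classification of a typed sextuple (job C1, helper43)

`classify_typed`: if three rows and three columns carry the roles `P1, W, P2` / `Q1, Z, Q2` of one
flavor, are ordered, and show the values of the "plus" on the middle row and middle column, then
the centre is a pivot cell `(R(0,+,x), M_x)`.
-/

set_option autoImplicit false

namespace Crest.Agent.S0066

variable {h : ℕ}

/-! ### arithmetic on dyadic nodes -/

theorem div_eq_of_nstart_le_of_le_nstop {t x a : ℕ} (h1 : nstart t x ≤ a) (h2 : a ≤ nstop t x) :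
    a / 2 ^ t = x / 2 ^ t := by
  unfold nstart at h1
  unfold nstop at h2
  have hp : 0 < 2 ^ t := by positivity
  apply Nat.div_eq_of_lt_le
  · exact h1
  · rw [Nat.add_mul, one_mul]
    omega

theorem nstart_div (t x : ℕ) : nstart t x / 2 ^ t = x / 2 ^ t :=
  div_eq_of_nstart_le_of_le_nstop le_rfl (by unfold nstart nstop; omega)

theorem nstop_div (t x : ℕ) : nstop t x / 2 ^ t = x / 2 ^ t :=
  div_eq_of_nstart_le_of_le_nstop (by unfold nstart nstop; omega) le_rfl

theorem div_succ_of_div {t a c : ℕ} (hac : a / 2 ^ t = c / 2 ^ t) :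
    a / 2 ^ (t + 1) = c / 2 ^ (t + 1) := by
  rw [pow_succ, ← Nat.div_div_eq_div_mul, ← Nat.div_div_eq_div_mul, hac]

theorem sim_of_sim_succ_of_bit {t x c : ℕ} (hs : sim (t + 1) x c) (hb : bitAt x t = bitAt c t) :
    sim t x c := by
  unfold sim at hs ⊢
  rw [pow_succ, ← Nat.div_div_eq_div_mul, ← Nat.div_div_eq_div_mul] at hs
  unfold bitAt at hb
  have hb' : (x / 2 ^ t % 2 = 1) ↔ (c / 2 ^ t % 2 = 1) := by simpa using hb
  generalize x / 2 ^ t = u at hs hb' ⊢
  generalize c / 2 ^ t = v at hs hb' ⊢
  omega

theorem sim_top_of_bit {t x c : ℕ} (hx : x < 2 ^ (t + 1)) (hc : c < 2 ^ (t + 1))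
    (hb : bitAt x t = bitAt c t) : sim t x c := by
  unfold sim
  have hp : 0 < 2 ^ t := by positivity
  have hx' : x / 2 ^ t < 2 := by
    rw [Nat.div_lt_iff_lt_mul hp]; rw [pow_succ] at hx; omega
  have hc' : c / 2 ^ t < 2 := by
    rw [Nat.div_lt_iff_lt_mul hp]; rw [pow_succ] at hc; omega
  unfold bitAt at hb
  have hb' : (x / 2 ^ t % 2 = 1) ↔ (c / 2 ^ t % 2 = 1) := by simpa using hb
  generalize x / 2 ^ t = u at hx' hb' ⊢
  generalize c / 2 ^ t = v at hc' hb' ⊢
  omega

/-- first key coordinate of a special line inside its zone. -/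
def anchor (t : ℕ) (s : Bool) (x : ℕ) : ℕ := if s then nstart t x else nstop t x

theorem anchor_div (t : ℕ) (s : Bool) (x : ℕ) : anchor t s x / 2 ^ t = x / 2 ^ t := by
  cases s
  · simp only [anchor, Bool.false_eq_true, if_false]; exact nstop_div t x
  · simp only [anchor, if_true]; exact nstart_div t x

theorem specKey_lt_anchor {z t t' : ℕ} {s s' : Bool} {x x' : ℕ}
    (hlt : specKey h z t s x < specKey h z t' s' x') : anchor t s x ≤ anchor t' s' x' := by
  unfold specKey at hlt
  unfold anchor
  cases s <;> cases s' <;>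
    simp only [Bool.false_eq_true, if_false, if_true, mkKey_lt_iff] at hlt ⊢ <;> omega

theorem mkKey_lt_specKey_anchor {z t' : ℕ} {s' : Bool} {x' a b c d : ℕ}
    (hlt : mkKey z a b c d < specKey h z t' s' x') : a ≤ anchor t' s' x' := by
  unfold specKey at hlt
  unfold anchor
  cases s' <;>
    simp only [Bool.false_eq_true, if_false, if_true, mkKey_lt_iff] at hlt ⊢ <;> omega

theorem specKey_lt_mkKey_anchor {z t : ℕ} {s : Bool} {x a b c d : ℕ}
    (hlt : specKey h z t s x < mkKey z a b c d) : anchor t s x ≤ a := by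
  unfold specKey at hlt
  unfold anchor
  cases s <;>
    simp only [Bool.false_eq_true, if_false, if_true, mkKey_lt_iff] at hlt ⊢ <;> omega

/-! ### inversion of the role tables -/

theorem rowrole_hor_one {t : Fin h} {b : Bool} {r : Row h}
    (hr : rowrole (.hor t b) r = some 1) :
    ∃ tw sw x, r = Row.spec tw sw x ∧ tw.val = t.val + 1 ∧ bitAt x.val t.val = b := by
  cases r with
  | thick κ j => cases κ <;> simp [rowrole] at hr
  | spec tw sw x =>
    by_cases hc : tw.val = t.val + 1 ∧ bitAt x.val t.val = b
    · exact ⟨tw, sw, x, rfl, hc.1, hc.2⟩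
    · simp [rowrole, hc] at hr

theorem colrole_hor_one {t : Fin h} {b : Bool} {c : Col h}
    (hc : colrole (.hor t b) c = some 1) :
    ∃ tz sz cz, c = Col.spec tz sz cz ∧ tz.val = t.val ∧ bitAt cz.val t.val = b := by
  cases c with
  | thick κ j => cases κ <;> simp [colrole] at hc
  | spec tz sz cz =>
    by_cases h1 : tz.val = t.val + 1 ∧ bitAt cz.val t.val = b
    · cases sz <;> simp [colrole, h1] at hc
    · by_cases h2 : tz.val = t.val ∧ bitAt cz.val t.val = b
      · exact ⟨tz, sz, cz, rfl, h2.1, h2.2⟩
      · simp [colrole, h1, h2] at hc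
  | piv c => simp [colrole] at hc

theorem colrole_hor_two {t : Fin h} {b : Bool} {c : Col h} (hth : ¬ t.val + 1 = h)
    (hc : colrole (.hor t b) c = some 2) :
    ∃ t1 c1, c = Col.spec t1 true c1 ∧ t1.val = t.val + 1 ∧ bitAt c1.val t.val = b := by
  cases c with
  | thick κ j => cases κ <;> simp [colrole, hth] at hc
  | spec tz sz cz =>
    by_cases h1 : tz.val = t.val + 1 ∧ bitAt cz.val t.val = b
    · cases sz
      · simp [colrole, h1] at hc
      · exact ⟨tz, cz, rfl, h1.1, h1.2⟩
    · by_cases h2 : tz.val = t.val ∧ bitAt cz.val t.val = b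
      · simp [colrole, h2] at hc
      · simp [colrole, h1, h2] at hc
  | piv c => simp [colrole] at hc

theorem colrole_hor_zero {t : Fin h} {b : Bool} {c : Col h} (hth : ¬ t.val + 1 = h)
    (hc : colrole (.hor t b) c = some 0) :
    ∃ t3 c3, c = Col.spec t3 false c3 ∧ t3.val = t.val + 1 ∧ bitAt c3.val t.val = b := by
  cases c with
  | thick κ j => cases κ <;> simp [colrole, hth] at hc
  | spec tz sz cz =>
    by_cases h1 : tz.val = t.val + 1 ∧ bitAt cz.val t.val = b
    · cases sz
      · exact ⟨tz, cz, rfl, h1.1, h1.2⟩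
      · simp [colrole, h1] at hc
    · by_cases h2 : tz.val = t.val ∧ bitAt cz.val t.val = b
      · simp [colrole, h2] at hc
      · simp [colrole, h1, h2] at hc
  | piv c => simp [colrole] at hc

theorem rowrole_ver_two {t : Fin h} {b : Bool} {r : Row h}
    (hr : rowrole (.ver t b) r = some 2) :
    ∃ t1 x1, r = Row.spec t1 true x1 ∧ t1.val = t.val + 1 ∧ bitAt x1.val t.val = b := by
  cases r with
  | thick κ j => cases κ <;> simp [rowrole] at hr
  | spec tw sw x =>
    by_cases h1 : tw.val = t.val + 1 ∧ bitAt x.val t.val = b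
    · cases sw
      · simp [rowrole, h1] at hr
      · exact ⟨tw, x, rfl, h1.1, h1.2⟩
    · by_cases h2 : tw.val = t.val ∧ bitAt x.val t.val = b
      · simp [rowrole, h2] at hr
      · simp [rowrole, h1, h2] at hr

theorem rowrole_ver_zero {t : Fin h} {b : Bool} {r : Row h}
    (hr : rowrole (.ver t b) r = some 0) :
    ∃ t3 x3, r = Row.spec t3 false x3 ∧ t3.val = t.val + 1 ∧ bitAt x3.val t.val = b := by
  cases r with
  | thick κ j => cases κ <;> simp [rowrole] at hr
  | spec tw sw x =>
    by_cases h1 : tw.val = t.val + 1 ∧ bitAt x.val t.val = b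
    · cases sw
      · exact ⟨tw, x, rfl, h1.1, h1.2⟩
      · simp [rowrole, h1] at hr
    · by_cases h2 : tw.val = t.val ∧ bitAt x.val t.val = b
      · simp [rowrole, h2] at hr
      · simp [rowrole, h1, h2] at hr

theorem rowrole_ver_one {t : Fin h} {b : Bool} {r : Row h}
    (hr : rowrole (.ver t b) r = some 1) :
    ∃ tw sw x, r = Row.spec tw sw x ∧ tw.val = t.val ∧ bitAt x.val t.val = b := by
  cases r with
  | thick κ j => cases κ <;> simp [rowrole] at hr
  | spec tw sw x =>
    by_cases h1 : tw.val = t.val + 1 ∧ bitAt x.val t.val = b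
    · cases sw <;> simp [rowrole, h1] at hr
    · by_cases h2 : tw.val = t.val ∧ bitAt x.val t.val = b
      · exact ⟨tw, sw, x, rfl, h2.1, h2.2⟩
      · simp [rowrole, h1, h2] at hr

theorem colrole_ver_one {t : Fin h} {b : Bool} {c : Col h}
    (hc : colrole (.ver t b) c = some 1) :
    ∃ tz sz cz, c = Col.spec tz sz cz ∧ tz.val = t.val ∧ bitAt cz.val t.val = b := by
  cases c with
  | thick κ j => cases κ <;> simp [colrole] at hc
  | spec tz sz cz =>
    by_cases h2 : tz.val = t.val ∧ bitAt cz.val t.val = b
    · exact ⟨tz, sz, cz, rfl, h2.1, h2.2⟩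
    · simp [colrole, h2] at hc
  | piv c => simp [colrole] at hc

theorem rowrole_botI_one {r : Row h} (hr : rowrole (.botI) r = some 1) :
    ∃ x, r = Row.spec 0 true x := by
  cases r with
  | thick κ j => cases κ <;> simp [rowrole] at hr
  | spec tw sw x =>
    simp [rowrole] at hr
    obtain ⟨rfl, rfl⟩ := hr
    exact ⟨x, rfl⟩

theorem rowrole_botII_one {r : Row h} (hr : rowrole (.botII) r = some 1) :
    ∃ x, r = Row.spec 0 true x := by
  cases r with
  | thick κ j => cases κ <;> simp [rowrole] at hr
  | spec tw sw x =>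
    simp [rowrole] at hr
    obtain ⟨rfl, rfl⟩ := hr
    exact ⟨x, rfl⟩

theorem colrole_botI_one {c : Col h} (hc : colrole (.botI) c = some 1) :
    ∃ x, c = Col.piv x := by
  cases c with
  | thick κ j => cases κ <;> simp [colrole] at hc
  | spec tz sz cz =>
    by_cases h1 : tz.val = 0
    · cases sz <;> simp [colrole, h1] at hc
    · simp [colrole, h1] at hc
  | piv c => exact ⟨c, rfl⟩

theorem colrole_botI_two {c : Col h} (hc : colrole (.botI) c = some 2) :
    ∃ t1 c1, c = Col.spec t1 true c1 ∧ t1.val = 0 := by
  cases c with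
  | thick κ j => cases κ <;> simp [colrole] at hc
  | spec tz sz cz =>
    by_cases h1 : tz.val = 0
    · cases sz
      · simp [colrole, h1] at hc
      · exact ⟨tz, cz, rfl, h1⟩
    · simp [colrole, h1] at hc
  | piv c => simp [colrole] at hc

theorem colrole_botI_zero {c : Col h} (hc : colrole (.botI) c = some 0) :
    ∃ t3 c3, c = Col.spec t3 false c3 ∧ t3.val = 0 := by
  cases c with
  | thick κ j => cases κ <;> simp [colrole] at hc
  | spec tz sz cz =>
    by_cases h1 : tz.val = 0
    · cases sz
      · exact ⟨tz, cz, rfl, h1⟩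
      · simp [colrole, h1] at hc
    · simp [colrole, h1] at hc
  | piv c => simp [colrole] at hc

theorem colrole_botII_two {c : Col h} (hc : colrole (.botII) c = some 2) :
    ∃ x, c = Col.piv x := by
  cases c with
  | thick κ j => cases κ <;> simp [colrole] at hc
  | spec tz sz cz => simp [colrole] at hc
  | piv c => exact ⟨c, rfl⟩

/-! ### the classification -/

/-- JOB C1: a typed sextuple showing the plus sits on a pivot cell. -/
theorem classify_typed (fl : Flavor h) (p1 w p2 : Row h) (q1 z q2 : Col h)
    (hp1 : rowrole fl p1 = some 2) (hw : rowrole fl w = some 1) (hp2 : rowrole fl p2 = some 0)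
    (hq1 : colrole fl q1 = some 2) (hz : colrole fl z = some 1) (hq2 : colrole fl q2 = some 0)
    (hr1 : p1 < w) (hr2 : w < p2) (hc1 : q1 < z) (hc2 : z < q2)
    (h12 : M p1 z = true) (h21 : M w q1 = true) (h22 : M w z = false) (h23 : M w q2 = true)
    (h32 : M p2 z = true) :
    ∃ x : Fin (2 ^ h), w = Row.spec 0 true x ∧ z = Col.piv x := by
  have gp1 := Row.gen?_none_of_role hp1
  have gw := Row.gen?_none_of_role hw
  have gp2 := Row.gen?_none_of_role hp2
  have gq1 := Col.gen?_none_of_role hq1
  have gz := Col.gen?_none_of_role hz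
  have gq2 := Col.gen?_none_of_role hq2
  rw [M_ng_ng gp1 gz] at h12
  rw [M_ng_ng gw gq1] at h21
  rw [M_ng_ng gw gz] at h22
  rw [M_ng_ng gw gq2] at h23
  rw [M_ng_ng gp2 gz] at h32
  rw [Row.lt_iff] at hr1 hr2
  rw [Col.lt_iff] at hc1 hc2
  cases fl with
  | hor t b =>
    exfalso
    obtain ⟨tw, sw, x, rfl, htw, hbx⟩ := rowrole_hor_one hw
    obtain ⟨tz, sz, cz, rfl, htz, hbz⟩ := colrole_hor_one hz
    have hns : ¬ sim t.val x.val cz.val := by
      simp only [Mng] at h22
      have e1 : ¬ (tz.val = tw.val) := by omega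
      have e2 : tz.val + 1 = tw.val := by omega
      rw [if_neg e1, if_pos e2, htz] at h22
      simpa using h22
    apply hns
    by_cases hth : t.val + 1 = h
    · apply sim_top_of_bit
      · have := x.isLt; rw [hth]; exact this
      · have := cz.isLt; rw [hth]; exact this
      · rw [hbx, hbz]
    · obtain ⟨t1, c1, rfl, ht1, hb1⟩ := colrole_hor_two hth hq1
      obtain ⟨t3, c3, rfl, ht3, hb3⟩ := colrole_hor_zero hth hq2
      have hs1 : sim (t.val + 1) x.val c1.val := by
        simp only [Mng] at h21
        have e1 : t1.val = tw.val := by omega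
        rw [if_pos e1, htw] at h21
        simpa using h21
      have hs3 : sim (t.val + 1) x.val c3.val := by
        simp only [Mng] at h23
        have e1 : t3.val = tw.val := by omega
        rw [if_pos e1, htw] at h23
        simpa using h23
      have ha1 : anchor t1.val true c1.val ≤ anchor tz.val sz cz.val :=
        specKey_lt_anchor (h := h) (z := 3) hc1
      have ha3 : anchor tz.val sz cz.val ≤ anchor t3.val false c3.val :=
        specKey_lt_anchor (h := h) (z := 3) hc2
      have hsim1 : sim (t.val + 1) x.val cz.val := by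
        have e1 : anchor tz.val sz cz.val / 2 ^ (t.val + 1) = x.val / 2 ^ (t.val + 1) := by
          apply div_eq_of_nstart_le_of_le_nstop
          · have : nstart (t.val + 1) x.val = anchor t1.val true c1.val := by
              unfold sim at hs1
              simp only [anchor, if_true, nstart, ht1, hs1]
            rw [this]; exact ha1
          · have : nstop (t.val + 1) x.val = anchor t3.val false c3.val := by
              unfold sim at hs3
              simp only [anchor, Bool.false_eq_true, if_false, nstop, ht3, hs3]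
            rw [this]; exact ha3
        have e2 : anchor tz.val sz cz.val / 2 ^ (t.val + 1) = cz.val / 2 ^ (t.val + 1) := by
          apply div_succ_of_div
          rw [← htz]
          exact anchor_div _ _ _
        unfold sim
        rw [← e1, e2]
      exact sim_of_sim_succ_of_bit hsim1 (by rw [hbx, hbz])
  | ver t b =>
    exfalso
    obtain ⟨t1, x1, rfl, ht1, hb1⟩ := rowrole_ver_two hp1
    obtain ⟨t3, x3, rfl, ht3, hb3⟩ := rowrole_ver_zero hp2
    obtain ⟨tw, sw, x, rfl, htw, hbx⟩ := rowrole_ver_one hw
    obtain ⟨tz, sz, cz, rfl, htz, hbz⟩ := colrole_ver_one hz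
    have hns : ¬ sim t.val x.val cz.val := by
      simp only [Mng] at h22
      have e1 : tz.val = tw.val := by omega
      rw [if_pos e1, htw] at h22
      simpa using h22
    apply hns
    have hs1 : sim t.val x1.val cz.val := by
      simp only [Mng] at h12
      have e1 : ¬ (tz.val = t1.val) := by omega
      have e2 : tz.val + 1 = t1.val := by omega
      rw [if_neg e1, if_pos e2, htz] at h12
      simpa using h12
    have hs3 : sim t.val x3.val cz.val := by
      simp only [Mng] at h32
      have e1 : ¬ (tz.val = t3.val) := by omega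
      have e2 : tz.val + 1 = t3.val := by omega
      rw [if_neg e1, if_pos e2, htz] at h32
      simpa using h32
    have hs1' : x1.val / 2 ^ (t.val + 1) = cz.val / 2 ^ (t.val + 1) := div_succ_of_div hs1
    have hs3' : x3.val / 2 ^ (t.val + 1) = cz.val / 2 ^ (t.val + 1) := div_succ_of_div hs3
    have ha1 : anchor t1.val true x1.val ≤ anchor tw.val sw x.val :=
      specKey_lt_anchor (h := h) (z := 2) hr1
    have ha3 : anchor tw.val sw x.val ≤ anchor t3.val false x3.val :=
      specKey_lt_anchor (h := h) (z := 2) hr2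
    have hsim1 : sim (t.val + 1) x.val cz.val := by
      have e1 : anchor tw.val sw x.val / 2 ^ (t.val + 1) = cz.val / 2 ^ (t.val + 1) := by
        apply div_eq_of_nstart_le_of_le_nstop
        · have : nstart (t.val + 1) cz.val = anchor t1.val true x1.val := by
            simp only [anchor, if_true, nstart, ht1, hs1']
          rw [this]; exact ha1
        · have : nstop (t.val + 1) cz.val = anchor t3.val false x3.val := by
            simp only [anchor, Bool.false_eq_true, if_false, nstop, ht3, hs3']
          rw [this]; exact ha3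
      have e2 : anchor tw.val sw x.val / 2 ^ (t.val + 1) = x.val / 2 ^ (t.val + 1) := by
        apply div_succ_of_div
        rw [← htw]
        exact anchor_div _ _ _
      unfold sim
      rw [← e2, e1]
    exact sim_of_sim_succ_of_bit hsim1 (by rw [hbx, hbz])
  | botI =>
    obtain ⟨x, rfl⟩ := rowrole_botI_one hw
    obtain ⟨c, rfl⟩ := colrole_botI_one hz
    obtain ⟨t1, c1, rfl, ht1⟩ := colrole_botI_two hq1
    obtain ⟨t3, c3, rfl, ht3⟩ := colrole_botI_zero hq2
    have hs1 : x.val = c1.val := by
      simp only [Mng] at h21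
      have e1 : t1.val = (0 : Fin (h + 1)).val := by simp [ht1]
      rw [if_pos e1] at h21
      simpa [sim] using h21
    have hs3 : x.val = c3.val := by
      simp only [Mng] at h23
      have e1 : t3.val = (0 : Fin (h + 1)).val := by simp [ht3]
      rw [if_pos e1] at h23
      simpa [sim] using h23
    have ha1 : anchor t1.val true c1.val ≤ c.val :=
      specKey_lt_mkKey_anchor (h := h) (z := 3) hc1
    have ha3 : c.val ≤ anchor t3.val false c3.val :=
      mkKey_lt_specKey_anchor (h := h) (z := 3) hc2
    simp only [anchor, if_true, nstart, ht1, pow_zero, Nat.div_one, mul_one] at ha1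
    simp only [anchor, Bool.false_eq_true, if_false, nstop, ht3, pow_zero, Nat.div_one, mul_one,
      Nat.sub_self, add_zero] at ha3
    have hcx : c = x := Fin.ext (by omega)
    subst hcx
    exact ⟨c, rfl, rfl⟩
  | botII =>
    exfalso
    obtain ⟨x, rfl⟩ := rowrole_botII_one hw
    obtain ⟨c, rfl⟩ := colrole_botII_two hq1
    simp [Mng] at h21

end Crest.Agent.S0066
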