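import Mathlib

/-!
# S0066 (row 47): definitions for the explicit construction

`N = 2^h` leaves.  Rows and columns of the host are structured types `Row h`, `Col h`, ordered by a
lexicographic key.  `M : Row h → Col h → Bool` is the host, `H` the 66 × 66 pattern.
See `departures/helper15.md` for the plain-words description.
-/

set_option autoImplicit false

namespace Crest.Agent.S0066

/-! ## Lexicographic keys -/

/-- Keys are 5-tuples of naturals, compared lexicographically. -/
abbrev Key := ℕ ×ₗ ℕ ×ₗ ℕ ×ₗ ℕ ×ₗ ℕ

/-- The key `(a,b,c,d,e)`. -/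
def mkKey (a b c d e : ℕ) : Key := toLex (a, toLex (b, toLex (c, toLex (d, e))))

theorem mkKey_lt_iff {a b c d e a' b' c' d' e' : ℕ} :
    mkKey a b c d e < mkKey a' b' c' d' e' ↔
      a < a' ∨ (a = a' ∧ (b < b' ∨ (b = b' ∧ (c < c' ∨ (c = c' ∧ (d < d' ∨ (d = d' ∧ e < e'))))))) := by
  simp only [mkKey, Prod.Lex.toLex_lt_toLex]

theorem mkKey_inj {a b c d e a' b' c' d' e' : ℕ} :
    mkKey a b c d e = mkKey a' b' c' d' e' ↔ a = a' ∧ b = b' ∧ c = c' ∧ d = d' ∧ e = e' := by
  simp only [mkKey, EmbeddingLike.apply_eq_iff_eq, Prod.mk.injEq]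

/-! ## Leaves, levels, bits -/

/-- `x` and `c` lie in the same level-`t` node. -/
def sim (t x c : ℕ) : Prop := x / 2 ^ t = c / 2 ^ t

instance (t x c : ℕ) : Decidable (sim t x c) := by unfold sim; infer_instance

/-- bit `t` of `x`, as a Boolean. -/
def bitAt (x t : ℕ) : Bool := decide (x / 2 ^ t % 2 = 1)

/-- first leaf of the level-`t` node of `x`. -/
def nstart (t x : ℕ) : ℕ := x / 2 ^ t * 2 ^ t

/-- last leaf of the level-`t` node of `x`. -/
def nstop (t x : ℕ) : ℕ := x / 2 ^ t * 2 ^ t + (2 ^ t - 1)

/-! ## Flavors -/

/-- The `4h+2` flavors.  `hor t b` is "Hor(t+1,b)", `ver t b` is "Ver(t,b)"; both test bit `t`. -/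
inductive Flavor (h : ℕ)
  | hor (t : Fin h) (b : Bool)
  | ver (t : Fin h) (b : Bool)
  | botI
  | botII
  deriving DecidableEq, Fintype

/-- position of a flavor in the layout. -/
def Flavor.idx {h : ℕ} : Flavor h → ℕ
  | .hor t b => 2 * t.val + b.toNat
  | .ver t b => 2 * h + 2 * t.val + b.toNat
  | .botI => 4 * h
  | .botII => 4 * h + 1

/-! ## Lines -/

/-- Thick row classes (each has `2^h` twins). -/
inductive ThR (h : ℕ)
  | gen (f : Flavor h) (X : Fin 3) (k : Fin 21)
  | dt
  | db
  deriving DecidableEq, Fintype

/-- Thick column classes (each has `2^h` twins). -/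
inductive ThC (h : ℕ)
  | gen (f : Flavor h) (Y : Fin 3) (k : Fin 21)
  | dl
  | tl
  | tr
  | zb
  | wb
  | dr
  deriving DecidableEq, Fintype

/-- Rows: thick twins and special rows `R(t,s,x)` (`s = true` is "+"). -/
inductive Row (h : ℕ)
  | thick (κ : ThR h) (j : Fin (2 ^ h))
  | spec (t : Fin (h + 1)) (s : Bool) (x : Fin (2 ^ h))
  deriving DecidableEq, Fintype

/-- Columns: thick twins, special columns `C(t,s,c)` (levels `< h`) and pivot columns `M_c`. -/
inductive Col (h : ℕ)
  | thick (κ : ThC h) (j : Fin (2 ^ h))
  | spec (t : Fin h) (s : Bool) (c : Fin (2 ^ h))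
  | piv (c : Fin (2 ^ h))
  deriving DecidableEq, Fintype

/-- bracket key of a special line at level `t`, sign `s`, leaf `x` (zone digit `z`). -/
def specKey (h z t : ℕ) (s : Bool) (x : ℕ) : Key :=
  if s then mkKey z (nstart t x) 0 (h - t) x else mkKey z (nstop t x) 2 t x

/-- layout key of a row. -/
def Row.key {h : ℕ} : Row h → Key
  | .thick (.gen f X k) j => mkKey 0 f.idx X.val k.val j.val
  | .thick .dt j => mkKey 1 0 0 0 j.val
  | .spec t s x => specKey h 2 t.val s x.val
  | .thick .db j => mkKey 3 0 0 0 j.val

/-- layout key of a column. -/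
def Col.key {h : ℕ} : Col h → Key
  | .thick (.gen f Y k) j => mkKey 0 f.idx Y.val k.val j.val
  | .thick .dl j => mkKey 1 0 0 0 j.val
  | .thick .tl j => mkKey 2 0 0 0 j.val
  | .spec t s c => specKey h 3 t.val s c.val
  | .piv c => mkKey 3 c.val 1 0 0
  | .thick .tr j => mkKey 4 0 0 0 j.val
  | .thick .zb j => mkKey 5 0 0 0 j.val
  | .thick .wb j => mkKey 6 0 0 0 j.val
  | .thick .dr j => mkKey 7 0 0 0 j.val

/-! ## Roles.  Role `2` = first (P1 / Q1), `1` = middle (W / Z), `0` = last (P2 / Q2). -/

/-- role of a row in a flavor. -/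
def rowrole {h : ℕ} : Flavor h → Row h → Option (Fin 3)
  | .hor _ _, .thick .dt _ => some 2
  | .hor _ _, .thick .db _ => some 0
  | .hor t b, .spec t' _ x => if t'.val = t.val + 1 ∧ bitAt x.val t.val = b then some 1 else none
  | .ver t b, .spec t' s x =>
      if t'.val = t.val + 1 ∧ bitAt x.val t.val = b then some (if s then 2 else 0)
      else if t'.val = t.val ∧ bitAt x.val t.val = b then some 1 else none
  | .botI, .thick .dt _ => some 2
  | .botI, .thick .db _ => some 0
  | .botI, .spec t' s _ => if t'.val = 0 ∧ s = true then some 1 else none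
  | .botII, .thick .dt _ => some 2
  | .botII, .thick .db _ => some 0
  | .botII, .spec t' s _ => if t'.val = 0 ∧ s = true then some 1 else none
  | _, _ => none

/-- role of a column in a flavor. -/
def colrole {h : ℕ} : Flavor h → Col h → Option (Fin 3)
  | .hor t _, .thick .tl _ => if t.val + 1 = h then some 2 else none
  | .hor t _, .thick .tr _ => if t.val + 1 = h then some 0 else none
  | .hor t b, .spec t' s c =>
      if t'.val = t.val + 1 ∧ bitAt c.val t.val = b then some (if s then 2 else 0)
      else if t'.val = t.val ∧ bitAt c.val t.val = b then some 1 else none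
  | .ver _ _, .thick .dl _ => some 2
  | .ver _ _, .thick .dr _ => some 0
  | .ver t b, .spec t' _ c => if t'.val = t.val ∧ bitAt c.val t.val = b then some 1 else none
  | .botI, .spec t' s _ => if t'.val = 0 then some (if s then 2 else 0) else none
  | .botI, .piv _ => some 1
  | .botII, .piv _ => some 2
  | .botII, .thick .zb _ => some 1
  | .botII, .thick .wb _ => some 0
  | _, _ => none

/-! ## The host matrix -/

/-- flavor and pointer class of a generic row. -/
def Row.gen? {h : ℕ} : Row h → Option (Flavor h × Fin 3)
  | .thick (.gen f X _) _ => some (f, X)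
  | _ => none

/-- flavor and pointer class of a generic column. -/
def Col.gen? {h : ℕ} : Col h → Option (Flavor h × Fin 3)
  | .thick (.gen f Y _) _ => some (f, Y)
  | _ => none

/-- entries between non-generic rows and non-generic columns. -/
def Mng {h : ℕ} : Row h → Col h → Bool
  | .thick _ _, .thick .dl _ => false
  | .thick _ _, .thick .dr _ => false
  | .thick _ _, _ => true
  | .spec _ _ _, .thick .dl _ => true
  | .spec _ _ _, .thick .dr _ => true
  | .spec t _ _, .thick .tl _ => decide (t.val = h)
  | .spec t _ _, .thick .tr _ => decide (t.val = h)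
  | .spec t _ _, .thick .wb _ => decide (t.val = 0)
  | .spec _ _ _, .thick _ _ => false
  | .spec _ _ _, .piv _ => false
  | .spec t _ x, .spec t' _ c =>
      if t'.val = t.val then decide (sim t.val x.val c.val)
      else if t'.val + 1 = t.val then decide (sim t'.val x.val c.val) else false

/-- The host matrix. -/
def M {h : ℕ} (r : Row h) (c : Col h) : Bool :=
  match r.gen?, c.gen? with
  | some (f, _), some (f', _) => decide (f = f')
  | some (f, X), none => decide (colrole f c = some X)
  | none, some (f, Y) => decide (rowrole f r = some Y)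
  | none, none => Mng r c

/-! ## The pattern -/

/-- The 66 × 66 pattern: lines `0..62` are pointers (class `i / 21` points to special line
`65 - i / 21`), lines `63, 64, 65` are the special lines; the special block is all ones except the
centre. -/
def H : Fin 66 → Fin 66 → Bool := fun i j =>
  if i.val < 63 then
    (if j.val < 63 then true else decide (j.val + i.val / 21 = 65))
  else
    (if j.val < 63 then decide (i.val + j.val / 21 = 65)
     else !(decide (i.val = 64) && decide (j.val = 64)))

/-- An ordered copy of a pattern in a host indexed by linear orders. -/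
def IsCopy {k : ℕ} {ρ κ : Type} [Preorder ρ] [Preorder κ]
    (P : Fin k → Fin k → Bool) (A : ρ → κ → Bool) (f : Fin k → ρ) (g : Fin k → κ) : Prop :=
  StrictMono f ∧ StrictMono g ∧ ∀ i j, A (f i) (g j) = P i j

end Crest.Agent.S0066
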