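import Crest.Agent.S0066.MLemmas

/-!
# S0066 (row 47): definitions for the far-ness half

Fix a host `B` and twin indices `jr` (rows), `jc` (columns).  The selected thick lines are the
`jr`-th twin of every thick row class and the `jc`-th twin of every thick column class.
-/

set_option autoImplicit false

namespace Crest.Agent.S0066

variable {h : ℕ}

/-- twin index of a thick row. -/
def Row.tw : Row h → Option (Fin (2 ^ h))
  | .thick _ j => some j
  | _ => none

/-- twin index of a thick column. -/
def Col.tw : Col h → Option (Fin (2 ^ h))
  | .thick _ j => some j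
  | _ => none

/-- `B` agrees with `M` on all selected thick × thick cells. -/
def TT (B : Row h → Col h → Bool) (jr jc : Fin (2 ^ h)) : Prop :=
  ∀ (κ : ThR h) (κ' : ThC h), B (.thick κ jr) (.thick κ' jc) = M (.thick κ jr) (.thick κ' jc)

/-- a row is alive: `B` agrees with `M` on its cells against all selected thick columns. -/
def aliveR (B : Row h → Col h → Bool) (jc : Fin (2 ^ h)) (r : Row h) : Prop :=
  ∀ κ' : ThC h, B r (.thick κ' jc) = M r (.thick κ' jc)

/-- a column is alive: `B` agrees with `M` on its cells against all selected thick rows. -/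
def aliveC (B : Row h → Col h → Bool) (jr : Fin (2 ^ h)) (c : Col h) : Prop :=
  ∀ κ : ThR h, B (.thick κ jr) c = M (.thick κ jr) c

/-- the level-`s` node of leaf `y` is ON: `B = 1` on (alive level-`s` rows) × (alive level-`s`
columns) of that node. -/
def ON (B : Row h → Col h → Bool) (jr jc : Fin (2 ^ h)) (s : Fin h) (y : ℕ) : Prop :=
  ∀ (σ τ : Bool) (x c : Fin (2 ^ h)), sim s.val x.val y → sim s.val c.val y →
    aliveR B jc (Row.spec s.castSucc σ x) → aliveC B jr (Col.spec s τ c) →
    B (Row.spec s.castSucc σ x) (Col.spec s τ c) = true

end Crest.Agent.S0066
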