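import Crest.Agent.S0066.FarDefs

/-!
# S0066 (row 47): the far-ness half, assembled from its four ingredients

`far_of` derives Claim F (every `H`-free host differs from `M` in at least `2^h * 2^h` cells) from
the selection pigeonhole (`select`) and the three chain lemmas (`on_top`, `on_step`, `on_bottom`),
all taken as hypotheses in exactly the shape of the corresponding modules.
-/

set_option autoImplicit false

namespace Crest.Agent.S0066

variable {h : ℕ}

/-- the leaf indexing the special line of a (special, thick) or (thick, special) cell. -/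
def cellLeaf : Row h × Col h → ℕ
  | (.spec _ _ x, _) => x.val
  | (.thick _ _, .spec _ _ c) => c.val
  | (.thick _ _, .piv c) => c.val
  | (.thick _ _, .thick _ _) => 0

theorem far_of (hh : 1 ≤ h) (B : Row h → Col h → Bool)
    (hsel : ∀ D : Finset (Row h × Col h), D.card < 2 ^ h * 2 ^ h →
      ∃ jr jc : Fin (2 ^ h),
        (∀ p ∈ D, ¬ (p.1.tw = some jr ∧ p.2.tw = some jc)) ∧
        (D.filter (fun p => (p.1.tw = none ∧ p.2.tw = some jc) ∨
          (p.1.tw = some jr ∧ p.2.tw = none))).card < 2 ^ h)
    (htop : ∀ jr jc : Fin (2 ^ h), TT B jr jc → ∀ y x1 x3 : Fin (2 ^ h),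
      sim (h - 1) x1.val y.val → sim (h - 1) x3.val y.val →
      aliveR B jc (Row.spec (Fin.last h) true x1) →
      aliveR B jc (Row.spec (Fin.last h) false x3) →
      ON B jr jc ⟨h - 1, by omega⟩ y.val)
    (hstep : ∀ jr jc : Fin (2 ^ h), TT B jr jc → ∀ (s : Fin h) (_ : 1 ≤ s.val) (y : Fin (2 ^ h)),
      ON B jr jc s y.val → ∀ c1 c3 x1 x3 : Fin (2 ^ h),
      sim (s.val - 1) c1.val y.val → sim (s.val - 1) c3.val y.val →
      sim (s.val - 1) x1.val y.val → sim (s.val - 1) x3.val y.val →
      aliveC B jr (Col.spec s true c1) → aliveC B jr (Col.spec s false c3) →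
      aliveR B jc (Row.spec s.castSucc true x1) →
      aliveR B jc (Row.spec s.castSucc false x3) →
      ON B jr jc ⟨s.val - 1, by omega⟩ y.val)
    (hbot : ∀ jr jc : Fin (2 ^ h), TT B jr jc → ∀ y : Fin (2 ^ h),
      ON B jr jc ⟨0, by omega⟩ y.val →
      aliveR B jc (Row.spec 0 true y) →
      aliveC B jr (Col.spec ⟨0, by omega⟩ true y) →
      aliveC B jr (Col.spec ⟨0, by omega⟩ false y) →
      aliveC B jr (Col.piv y) → False) :
    2 ^ h * 2 ^ h ≤
      (Finset.univ.filter (fun p : Row h × Col h => M p.1 p.2 ≠ B p.1 p.2)).card := by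
  by_contra hlt
  push Not at hlt
  obtain ⟨jr, jc, hsel1, hsel2⟩ := hsel _ hlt
  have hmemD : ∀ (r : Row h) (c : Col h), B r c ≠ M r c →
      (r, c) ∈ Finset.univ.filter (fun p : Row h × Col h => M p.1 p.2 ≠ B p.1 p.2) := by
    intro r c hne
    simp only [Finset.mem_filter, Finset.mem_univ, true_and]
    exact fun heq => hne heq.symm
  have hTT : TT B jr jc := by
    intro κ κ'
    by_contra hne
    exact hsel1 _ (hmemD _ _ hne) ⟨rfl, rfl⟩
  -- every leaf owns a dead line, i.e. a changed (special, selected thick) cell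
  have hdead : ∀ y : Fin (2 ^ h), ∃ p ∈ (Finset.univ.filter
      (fun p : Row h × Col h => M p.1 p.2 ≠ B p.1 p.2)).filter
        (fun p => (p.1.tw = none ∧ p.2.tw = some jc) ∨ (p.1.tw = some jr ∧ p.2.tw = none)),
      cellLeaf p = y.val := by
    intro y
    by_contra hno
    push Not at hno
    have hR : ∀ (t : Fin (h + 1)) (σ : Bool), aliveR B jc (Row.spec t σ y) := by
      intro t σ κ'
      by_contra hne
      exact hno (Row.spec t σ y, Col.thick κ' jc)
        (Finset.mem_filter.mpr ⟨hmemD _ _ hne, Or.inl ⟨rfl, rfl⟩⟩) rfl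
    have hC : ∀ (t : Fin h) (τ : Bool), aliveC B jr (Col.spec t τ y) := by
      intro t τ κ
      by_contra hne
      exact hno (Row.thick κ jr, Col.spec t τ y)
        (Finset.mem_filter.mpr ⟨hmemD _ _ hne, Or.inr ⟨rfl, rfl⟩⟩) rfl
    have hP : aliveC B jr (Col.piv y) := by
      intro κ
      by_contra hne
      exact hno (Row.thick κ jr, Col.piv y)
        (Finset.mem_filter.mpr ⟨hmemD _ _ hne, Or.inr ⟨rfl, rfl⟩⟩) rfl
    have hON : ∀ (k : ℕ) (hk : k < h), ON B jr jc ⟨h - 1 - k, by omega⟩ y.val := by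
      intro k
      induction k with
      | zero =>
        intro hk
        exact htop jr jc hTT y y y rfl rfl (hR _ _) (hR _ _)
      | succ k ih =>
        intro hk
        have hs := hstep jr jc hTT ⟨h - 1 - k, by omega⟩ (by show 1 ≤ h - 1 - k; omega) y
          (ih (by omega)) y y y y rfl rfl rfl rfl (hC _ _) (hC _ _) (hR _ _) (hR _ _)
        have hfin : (⟨h - 1 - (k + 1), by omega⟩ : Fin h) =
            ⟨(⟨h - 1 - k, by omega⟩ : Fin h).val - 1, by show h - 1 - k - 1 < h; omega⟩ := by
          apply Fin.ext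
          show h - 1 - (k + 1) = h - 1 - k - 1
          omega
        rw [hfin]
        exact hs
    have h0 := hON (h - 1) (by omega)
    have hfin0 : (⟨h - 1 - (h - 1), by omega⟩ : Fin h) = ⟨0, by omega⟩ := by
      apply Fin.ext
      show h - 1 - (h - 1) = 0
      omega
    rw [hfin0] at h0
    exact hbot jr jc hTT y h0 (hR _ _) (hC _ _) (hC _ _) hP
  choose φ hφ1 hφ2 using hdead
  have hinj : Function.Injective φ := by
    intro y1 y2 he
    apply Fin.ext
    rw [← hφ2 y1, ← hφ2 y2, he]
  have hcard := Finset.card_le_card_of_injOn φ (s := Finset.univ) (fun y _ => hφ1 y)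
    (hinj.injOn)
  rw [Finset.card_univ, Fintype.card_fin] at hcard
  omega

end Crest.Agent.S0066
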