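import Crest.Agent.S0066.Order

/-!
# S0066 (row 47): basic lemmas on the host `M`, the pattern `H` and the layout zones
-/

set_option autoImplicit false

namespace Crest.Agent.S0066

variable {h : ℕ}

/-! ## generic / non-generic -/

@[simp] theorem Row.gen?_gen (f : Flavor h) (X : Fin 3) (k : Fin 21) (j : Fin (2 ^ h)) :
    (Row.thick (.gen f X k) j).gen? = some (f, X) := rfl
@[simp] theorem Row.gen?_dt (j : Fin (2 ^ h)) : (Row.thick (ThR.dt (h := h)) j).gen? = none := rfl
@[simp] theorem Row.gen?_db (j : Fin (2 ^ h)) : (Row.thick (ThR.db (h := h)) j).gen? = none := rfl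
@[simp] theorem Row.gen?_spec (t : Fin (h + 1)) (s : Bool) (x : Fin (2 ^ h)) :
    (Row.spec t s x).gen? = none := rfl

@[simp] theorem Col.gen?_gen (f : Flavor h) (Y : Fin 3) (k : Fin 21) (j : Fin (2 ^ h)) :
    (Col.thick (.gen f Y k) j).gen? = some (f, Y) := rfl
@[simp] theorem Col.gen?_dl (j : Fin (2 ^ h)) : (Col.thick (ThC.dl (h := h)) j).gen? = none := rfl
@[simp] theorem Col.gen?_tl (j : Fin (2 ^ h)) : (Col.thick (ThC.tl (h := h)) j).gen? = none := rfl
@[simp] theorem Col.gen?_tr (j : Fin (2 ^ h)) : (Col.thick (ThC.tr (h := h)) j).gen? = none := rfl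
@[simp] theorem Col.gen?_zb (j : Fin (2 ^ h)) : (Col.thick (ThC.zb (h := h)) j).gen? = none := rfl
@[simp] theorem Col.gen?_wb (j : Fin (2 ^ h)) : (Col.thick (ThC.wb (h := h)) j).gen? = none := rfl
@[simp] theorem Col.gen?_dr (j : Fin (2 ^ h)) : (Col.thick (ThC.dr (h := h)) j).gen? = none := rfl
@[simp] theorem Col.gen?_spec (t : Fin h) (s : Bool) (c : Fin (2 ^ h)) :
    (Col.spec t s c).gen? = none := rfl
@[simp] theorem Col.gen?_piv (c : Fin (2 ^ h)) : (Col.piv c : Col h).gen? = none := rfl

/-- a row is generic iff it is a twin of a pointer class. -/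
theorem Row.gen?_eq_some {r : Row h} {f : Flavor h} {X : Fin 3} (hr : r.gen? = some (f, X)) :
    ∃ k j, r = Row.thick (.gen f X k) j := by
  cases r with
  | thick κ j =>
    cases κ with
    | gen f' X' k => simp at hr; obtain ⟨rfl, rfl⟩ := hr; exact ⟨k, j, rfl⟩
    | dt => simp at hr
    | db => simp at hr
  | spec t s x => simp at hr

theorem Col.gen?_eq_some {c : Col h} {f : Flavor h} {Y : Fin 3} (hc : c.gen? = some (f, Y)) :
    ∃ k j, c = Col.thick (.gen f Y k) j := by
  cases c with
  | thick κ j =>
    cases κ with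
    | gen f' Y' k => simp at hc; obtain ⟨rfl, rfl⟩ := hc; exact ⟨k, j, rfl⟩
    | dl => simp at hc
    | tl => simp at hc
    | tr => simp at hc
    | zb => simp at hc
    | wb => simp at hc
    | dr => simp at hc
  | spec t s x => simp at hc
  | piv x => simp at hc

/-! ## entries of `M` -/

theorem M_gen_gen (f f' : Flavor h) (X Y : Fin 3) (k k' : Fin 21) (j j' : Fin (2 ^ h)) :
    M (Row.thick (.gen f X k) j) (Col.thick (.gen f' Y k') j') = decide (f = f') := rfl

theorem M_gen_ng (f : Flavor h) (X : Fin 3) (k : Fin 21) (j : Fin (2 ^ h)) {c : Col h}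
    (hc : c.gen? = none) :
    M (Row.thick (.gen f X k) j) c = decide (colrole f c = some X) := by
  simp [M, hc]

theorem M_ng_gen {r : Row h} (hr : r.gen? = none) (f : Flavor h) (Y : Fin 3) (k : Fin 21)
    (j : Fin (2 ^ h)) :
    M r (Col.thick (.gen f Y k) j) = decide (rowrole f r = some Y) := by
  simp [M, hr]

theorem M_ng_ng {r : Row h} {c : Col h} (hr : r.gen? = none) (hc : c.gen? = none) :
    M r c = Mng r c := by
  simp [M, hr, hc]

/-- roles are only held by non-generic rows. -/
theorem rowrole_gen (f f' : Flavor h) (X : Fin 3) (k : Fin 21) (j : Fin (2 ^ h)) :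
    rowrole f (Row.thick (.gen f' X k) j) = none := by
  cases f <;> rfl

theorem colrole_gen (f f' : Flavor h) (Y : Fin 3) (k : Fin 21) (j : Fin (2 ^ h)) :
    colrole f (Col.thick (.gen f' Y k) j) = none := by
  cases f <;> rfl

theorem Row.gen?_none_of_role {f : Flavor h} {r : Row h} {ρ : Fin 3} (hr : rowrole f r = some ρ) :
    r.gen? = none := by
  cases r with
  | thick κ j =>
    cases κ with
    | gen f' X k => rw [rowrole_gen] at hr; simp at hr
    | dt => rfl
    | db => rfl
  | spec t s x => rfl

theorem Col.gen?_none_of_role {f : Flavor h} {c : Col h} {ρ : Fin 3} (hc : colrole f c = some ρ) :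
    c.gen? = none := by
  cases c with
  | thick κ j =>
    cases κ with
    | gen f' X k => rw [colrole_gen] at hc; simp at hc
    | dl => rfl
    | tl => rfl
    | tr => rfl
    | zb => rfl
    | wb => rfl
    | dr => rfl
  | spec t s x => rfl
  | piv x => rfl

/-! ## zones: generic lines come first -/

theorem Row.key_gen_zone {r : Row h} (hr : r.gen?.isSome) :
    ∃ b c d e, r.key = mkKey 0 b c d e := by
  cases r with
  | thick κ j =>
    cases κ with
    | gen f X k => exact ⟨_, _, _, _, rfl⟩
    | dt => simp at hr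
    | db => simp at hr
  | spec t s x => simp at hr

theorem Row.key_ng_zone {r : Row h} (hr : r.gen? = none) :
    ∃ a b c d e, r.key = mkKey a b c d e ∧ 1 ≤ a := by
  cases r with
  | thick κ j =>
    cases κ with
    | gen f X k => simp at hr
    | dt => exact ⟨_, _, _, _, _, rfl, le_refl _⟩
    | db => exact ⟨_, _, _, _, _, rfl, by norm_num⟩
  | spec t s x =>
    cases s
    · exact ⟨_, _, _, _, _, by simp [Row.key, specKey]; rfl, by norm_num⟩
    · exact ⟨_, _, _, _, _, by simp [Row.key, specKey]; rfl, by norm_num⟩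

theorem Col.key_gen_zone {c : Col h} (hc : c.gen?.isSome) :
    ∃ b c' d e, c.key = mkKey 0 b c' d e := by
  cases c with
  | thick κ j =>
    cases κ with
    | gen f X k => exact ⟨_, _, _, _, rfl⟩
    | dl => simp at hc
    | tl => simp at hc
    | tr => simp at hc
    | zb => simp at hc
    | wb => simp at hc
    | dr => simp at hc
  | spec t s x => simp at hc
  | piv x => simp at hc

theorem Col.key_ng_zone {c : Col h} (hc : c.gen? = none) :
    ∃ a b c' d e, c.key = mkKey a b c' d e ∧ 1 ≤ a := by
  cases c with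
  | thick κ j =>
    cases κ with
    | gen f X k => simp at hc
    | dl => exact ⟨_, _, _, _, _, rfl, le_refl _⟩
    | tl => exact ⟨_, _, _, _, _, rfl, by norm_num⟩
    | tr => exact ⟨_, _, _, _, _, rfl, by norm_num⟩
    | zb => exact ⟨_, _, _, _, _, rfl, by norm_num⟩
    | wb => exact ⟨_, _, _, _, _, rfl, by norm_num⟩
    | dr => exact ⟨_, _, _, _, _, rfl, by norm_num⟩
  | spec t s x =>
    cases s
    · exact ⟨_, _, _, _, _, by simp [Col.key, specKey]; rfl, by norm_num⟩
    · exact ⟨_, _, _, _, _, by simp [Col.key, specKey]; rfl, by norm_num⟩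
  | piv x => exact ⟨_, _, _, _, _, rfl, by norm_num⟩

/-- every generic row is above every non-generic row. -/
theorem Row.lt_of_gen_of_ng {r r' : Row h} (hr : r.gen?.isSome) (hr' : r'.gen? = none) : r < r' := by
  obtain ⟨b, c, d, e, hk⟩ := Row.key_gen_zone hr
  obtain ⟨a', b', c', d', e', hk', ha'⟩ := Row.key_ng_zone hr'
  rw [Row.lt_iff, hk, hk', mkKey_lt_iff]
  left; omega

theorem Col.lt_of_gen_of_ng {c c' : Col h} (hc : c.gen?.isSome) (hc' : c'.gen? = none) : c < c' := by
  obtain ⟨b, c1, d, e, hk⟩ := Col.key_gen_zone hc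
  obtain ⟨a', b', c1', d', e', hk', ha'⟩ := Col.key_ng_zone hc'
  rw [Col.lt_iff, hk, hk', mkKey_lt_iff]
  left; omega

/-- a row below (or equal to) a generic row is generic. -/
theorem Row.gen_of_le {r r' : Row h} (hle : r ≤ r') (hr' : r'.gen?.isSome) : r.gen?.isSome := by
  by_contra hr
  have hr0 : r.gen? = none := by simpa using hr
  exact absurd (Row.lt_of_gen_of_ng hr' hr0) (not_lt.mpr hle)

theorem Col.gen_of_le {c c' : Col h} (hle : c ≤ c') (hc' : c'.gen?.isSome) : c.gen?.isSome := by
  by_contra hc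
  have hc0 : c.gen? = none := by simpa using hc
  exact absurd (Col.lt_of_gen_of_ng hc' hc0) (not_lt.mpr hle)

/-- a row after a non-generic row is non-generic. -/
theorem Row.ng_of_le {r r' : Row h} (hle : r ≤ r') (hr : r.gen? = none) : r'.gen? = none := by
  by_contra hr'
  have : r'.gen?.isSome := by
    cases hx : r'.gen? with
    | none => exact absurd hx hr'
    | some p => rfl
  have := Row.gen_of_le hle this
  simp [hr] at this

theorem Col.ng_of_le {c c' : Col h} (hle : c ≤ c') (hc : c.gen? = none) : c'.gen? = none := by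
  by_contra hc'
  have : c'.gen?.isSome := by
    cases hx : c'.gen? with
    | none => exact absurd hx hc'
    | some p => rfl
  have := Col.gen_of_le hle this
  simp [hc] at this

/-! ## entries of `H` -/

theorem H_gen_gen {i j : Fin 66} (hi : i.val < 63) (hj : j.val < 63) : H i j = true := by
  simp [H, hi, hj]

theorem H_gen_spec {i j : Fin 66} (hi : i.val < 63) (hj : 63 ≤ j.val) :
    H i j = decide (j.val + i.val / 21 = 65) := by
  have : ¬ j.val < 63 := by omega
  simp [H, hi, this]

theorem H_spec_gen {i j : Fin 66} (hi : 63 ≤ i.val) (hj : j.val < 63) :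
    H i j = decide (i.val + j.val / 21 = 65) := by
  have : ¬ i.val < 63 := by omega
  simp [H, hj, this]

theorem H_spec_spec {i j : Fin 66} (hi : 63 ≤ i.val) (hj : 63 ≤ j.val) :
    H i j = !(decide (i.val = 64) && decide (j.val = 64)) := by
  have h1 : ¬ i.val < 63 := by omega
  have h2 : ¬ j.val < 63 := by omega
  simp [H, h1, h2]

end Crest.Agent.S0066
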