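import Crest.Agent.S0066.Defs

set_option autoImplicit false

namespace Crest.Agent.S0066

variable {h : ℕ}

theorem Flavor.idx_injective : Function.Injective (Flavor.idx (h := h)) := by
  intro f f' hff
  cases f with
  | hor t b =>
    cases f' with
    | hor t' b' =>
      have : t.val = t'.val ∧ b = b' := by
        cases b <;> cases b' <;> simp [Flavor.idx] at hff ⊢ <;> omega
      obtain ⟨h1, h2⟩ := this
      rw [Fin.ext h1, h2]
    | ver t' b' => exfalso; cases b <;> cases b' <;> simp [Flavor.idx] at hff <;> omega
    | botI => exfalso; cases b <;> simp [Flavor.idx] at hff <;> omega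
    | botII => exfalso; cases b <;> simp [Flavor.idx] at hff <;> omega
  | ver t b =>
    cases f' with
    | hor t' b' => exfalso; cases b <;> cases b' <;> simp [Flavor.idx] at hff <;> omega
    | ver t' b' =>
      have : t.val = t'.val ∧ b = b' := by
        cases b <;> cases b' <;> simp [Flavor.idx] at hff ⊢ <;> omega
      obtain ⟨h1, h2⟩ := this
      rw [Fin.ext h1, h2]
    | botI => exfalso; cases b <;> simp [Flavor.idx] at hff <;> omega
    | botII => exfalso; cases b <;> simp [Flavor.idx] at hff <;> omega
  | botI =>
    cases f' with
    | hor t' b' => exfalso; cases b' <;> simp [Flavor.idx] at hff <;> omega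
    | ver t' b' => exfalso; cases b' <;> simp [Flavor.idx] at hff <;> omega
    | botI => rfl
    | botII => simp [Flavor.idx] at hff
  | botII =>
    cases f' with
    | hor t' b' => exfalso; cases b' <;> simp [Flavor.idx] at hff <;> omega
    | ver t' b' => exfalso; cases b' <;> simp [Flavor.idx] at hff <;> omega
    | botI => simp [Flavor.idx] at hff
    | botII => rfl

theorem specKey_inj {z t t' : ℕ} {s s' : Bool} {x x' : ℕ} (ht : t ≤ h) (ht' : t' ≤ h)
    (hk : specKey h z t s x = specKey h z t' s' x') : t = t' ∧ s = s' ∧ x = x' := by
  unfold specKey at hk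
  cases s <;> cases s' <;> simp [mkKey_inj] at hk <;> refine ⟨?_, ?_, ?_⟩ <;> first | rfl | omega

theorem Row.key_injective : Function.Injective (Row.key (h := h)) := by
  intro r r' hk
  cases r with
  | thick κ j =>
    cases r' with
    | thick κ' j' =>
      cases κ with
      | gen f X k =>
        cases κ' with
        | gen f' X' k' =>
          simp only [Row.key, mkKey_inj] at hk
          obtain ⟨_, h1, h2, h3, h4⟩ := hk
          have := Flavor.idx_injective h1
          subst this
          rw [Fin.ext h2, Fin.ext h3, Fin.ext h4]
        | dt => simp [Row.key, mkKey_inj] at hk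
        | db => simp [Row.key, mkKey_inj] at hk
      | dt =>
        cases κ' with
        | gen f' X' k' => simp [Row.key, mkKey_inj] at hk
        | dt => simp only [Row.key, mkKey_inj] at hk; rw [Fin.ext hk.2.2.2.2]
        | db => simp [Row.key, mkKey_inj] at hk
      | db =>
        cases κ' with
        | gen f' X' k' => simp [Row.key, mkKey_inj] at hk
        | dt => simp [Row.key, mkKey_inj] at hk
        | db => simp only [Row.key, mkKey_inj] at hk; rw [Fin.ext hk.2.2.2.2]
    | spec t' s' x' =>
      exfalso
      cases κ <;> cases s' <;> simp [Row.key, specKey, mkKey_inj] at hk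
  | spec t s x =>
    cases r' with
    | thick κ' j' =>
      exfalso
      cases κ' <;> cases s <;> simp [Row.key, specKey, mkKey_inj] at hk
    | spec t' s' x' =>
      simp only [Row.key] at hk
      obtain ⟨h1, h2, h3⟩ := specKey_inj (h := h) (by omega) (by omega) hk
      rw [Fin.ext h1, h2, Fin.ext h3]

theorem Col.key_injective : Function.Injective (Col.key (h := h)) := by
  intro r r' hk
  cases r with
  | thick κ j =>
    cases r' with
    | thick κ' j' =>
      cases κ <;> cases κ' <;> simp only [Col.key, mkKey_inj] at hk <;>
        first
        | (exfalso; omega)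
        | (obtain ⟨_, h1, h2, h3, h4⟩ := hk
           first
           | (have := Flavor.idx_injective h1
              subst this
              rw [Fin.ext h2, Fin.ext h3, Fin.ext h4])
           | (rw [Fin.ext h4]))
    | spec t' s' x' =>
      exfalso
      cases κ <;> cases s' <;> simp [Col.key, specKey, mkKey_inj] at hk
    | piv c' =>
      exfalso
      cases κ <;> simp [Col.key, mkKey_inj] at hk
  | spec t s x =>
    cases r' with
    | thick κ' j' =>
      exfalso
      cases κ' <;> cases s <;> simp [Col.key, specKey, mkKey_inj] at hk
    | spec t' s' x' =>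
      simp only [Col.key] at hk
      obtain ⟨h1, h2, h3⟩ := specKey_inj (h := h) (by omega) (by omega) hk
      rw [Fin.ext h1, h2, Fin.ext h3]
    | piv c' =>
      exfalso
      cases s <;> simp [Col.key, specKey, mkKey_inj] at hk
  | piv c =>
    cases r' with
    | thick κ' j' =>
      exfalso
      cases κ' <;> simp [Col.key, mkKey_inj] at hk
    | spec t' s' x' =>
      exfalso
      cases s' <;> simp [Col.key, specKey, mkKey_inj] at hk
    | piv c' =>
      simp only [Col.key, mkKey_inj] at hk
      rw [Fin.ext hk.2.1]

instance : LinearOrder (Row h) := LinearOrder.lift' Row.key Row.key_injective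

instance : LinearOrder (Col h) := LinearOrder.lift' Col.key Col.key_injective

theorem Row.lt_iff {r r' : Row h} : r < r' ↔ r.key < r'.key := Iff.rfl

theorem Row.le_iff {r r' : Row h} : r ≤ r' ↔ r.key ≤ r'.key := Iff.rfl

theorem Col.lt_iff {c c' : Col h} : c < c' ↔ c.key < c'.key := Iff.rfl

theorem Col.le_iff {c c' : Col h} : c ≤ c' ↔ c.key ≤ c'.key := Iff.rfl

end Crest.Agent.S0066
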